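import Mathlib

/-!
Basic tools for the switch chain: counting inner product, spectral lemmas, averaging over the
classes of a key function, reduction to fibres, and expansion of a double sum over pairs.
-/

set_option autoImplicit false
open Finset

namespace Crest.Agent.R299

section ip
variable {Ω : Type*} [Fintype Ω]

/-- The counting inner product. -/
def ip (f g : Ω → ℝ) : ℝ := ∑ x, f x * g x

theorem ip_comm (f g : Ω → ℝ) : ip f g = ip g f := by
  unfold ip; exact Finset.sum_congr rfl fun x _ => mul_comm _ _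

theorem ip_self_nonneg (f : Ω → ℝ) : 0 ≤ ip f f :=
  Finset.sum_nonneg fun _ _ => mul_self_nonneg _

theorem ip_add_left (f g h : Ω → ℝ) : ip (f + g) h = ip f h + ip g h := by
  simp [ip, add_mul, Finset.sum_add_distrib]

theorem ip_add_right (f g h : Ω → ℝ) : ip f (g + h) = ip f g + ip f h := by
  simp [ip, mul_add, Finset.sum_add_distrib]

theorem ip_sub_left (f g h : Ω → ℝ) : ip (f - g) h = ip f h - ip g h := by
  simp [ip, sub_mul, Finset.sum_sub_distrib]

theorem ip_sub_right (f g h : Ω → ℝ) : ip f (g - h) = ip f g - ip f h := by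
  simp [ip, mul_sub, Finset.sum_sub_distrib]

theorem ip_smul_left (c : ℝ) (f g : Ω → ℝ) : ip (c • f) g = c * ip f g := by
  simp [ip, Finset.mul_sum, mul_assoc]

theorem ip_smul_right (c : ℝ) (f g : Ω → ℝ) : ip f (c • g) = c * ip f g := by
  rw [ip_comm, ip_smul_left, ip_comm]

theorem ip_sum_left {ι : Type*} (s : Finset ι) (f : ι → Ω → ℝ) (g : Ω → ℝ) :
    ip (∑ i ∈ s, f i) g = ∑ i ∈ s, ip (f i) g := by
  simp only [ip, Finset.sum_apply, Finset.sum_mul]
  exact Finset.sum_comm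

theorem ip_sum_right {ι : Type*} (s : Finset ι) (f : Ω → ℝ) (g : ι → Ω → ℝ) :
    ip f (∑ i ∈ s, g i) = ∑ i ∈ s, ip f (g i) := by
  rw [ip_comm, ip_sum_left]; exact Finset.sum_congr rfl fun i _ => ip_comm _ _

theorem ip_sq_le (f g : Ω → ℝ) : ip f g ^ 2 ≤ ip f f * ip g g := by
  unfold ip
  have := Finset.sum_mul_sq_le_sq_mul_sq Finset.univ f g
  simpa [sq] using this

theorem eq_zero_of_ip_self (f : Ω → ℝ) (h : ip f f ≤ 0) : f = 0 := by
  funext x
  have h0 : ∑ x, f x * f x = 0 := le_antisymm h (ip_self_nonneg f)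
  have := (Finset.sum_eq_zero_iff_of_nonneg (fun y _ => mul_self_nonneg (f y))).1 h0 x
    (Finset.mem_univ x)
  simpa using this

theorem spectral (A : (Ω → ℝ) →ₗ[ℝ] (Ω → ℝ)) (hA : ∀ f g, ip (A f) g = ip f (A g)) :
    ∃ (n : ℕ) (v : Fin n → Ω → ℝ) (μ : Fin n → ℝ), (∀ i, A (v i) = μ i • v i) ∧
      (∀ i, v i ≠ 0) ∧ ∀ f g, ip f g = ∑ i, ip f (v i) * ip g (v i) := by
  classical
  let e : EuclideanSpace ℝ Ω ≃ₗ[ℝ] (Ω → ℝ) := WithLp.linearEquiv 2 ℝ (Ω → ℝ)
  have hin : ∀ a b : EuclideanSpace ℝ Ω, inner ℝ a b = ip (e a) (e b) := by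
    intro a b
    simp only [PiLp.inner_apply, ip]
    refine Finset.sum_congr rfl fun x _ => ?_
    simp [e, mul_comm]
  let T : EuclideanSpace ℝ Ω →ₗ[ℝ] EuclideanSpace ℝ Ω := e.symm.toLinearMap ∘ₗ A ∘ₗ e.toLinearMap
  have hT : T.IsSymmetric := by
    intro a b
    rw [hin, hin]
    simp only [T, LinearMap.comp_apply, LinearEquiv.coe_coe, LinearEquiv.apply_symm_apply]
    exact hA _ _
  let b := hT.eigenvectorBasis rfl
  refine ⟨_, fun i => e (b i), hT.eigenvalues rfl, fun i => ?_, fun i => ?_, fun f g => ?_⟩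
  · have := hT.apply_eigenvectorBasis rfl i
    have h2 := congrArg e this
    rw [map_smul] at h2
    have h3 : e (T (b i)) = A (e (b i)) := by
      simp only [T, LinearMap.comp_apply, LinearEquiv.coe_coe, LinearEquiv.apply_symm_apply]
    exact h3.symm.trans h2
  · intro h
    have : b i = 0 := by simpa using h
    exact b.toBasis.ne_zero i (by simpa using this)
  · have := b.sum_inner_mul_inner (e.symm f) (e.symm g)
    simp only [hin, LinearEquiv.apply_symm_apply] at this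
    rw [← this]
    exact Finset.sum_congr rfl fun i _ => by rw [ip_comm (e (b i)) g]

/-- From a statement on eigenvalues to the quadratic form inequality `c A ≤ A²`. -/
theorem form_of_eigen (A : (Ω → ℝ) →ₗ[ℝ] (Ω → ℝ)) (hA : ∀ f g, ip (A f) g = ip f (A g)) (c : ℝ)
    (h : ∀ (μ : ℝ) (v : Ω → ℝ), v ≠ 0 → A v = μ • v → c * μ ≤ μ ^ 2) (f : Ω → ℝ) :
    c * ip f (A f) ≤ ip (A f) (A f) := by
  obtain ⟨n, v, μ, hv, hne, hexp⟩ := spectral A hA
  have h1 : ∀ i, ip (A f) (v i) = μ i * ip f (v i) := fun i => by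
    rw [hA, hv, ip_smul_right]
  rw [hexp f (A f), hexp (A f) (A f), Finset.mul_sum]
  refine Finset.sum_le_sum fun i _ => ?_
  rw [h1]
  have := h (μ i) (v i) (hne i) (hv i)
  nlinarith [mul_self_nonneg (ip f (v i))]

/-- From `c A ≤ A²`, positivity and a trivial kernel to a spectral gap. -/
theorem gap_of_form (A : (Ω → ℝ) →ₗ[ℝ] (Ω → ℝ)) (hA : ∀ f g, ip (A f) g = ip f (A g)) (c : ℝ)
    (hpos : ∀ f, 0 ≤ ip f (A f)) (hform : ∀ f, c * ip f (A f) ≤ ip (A f) (A f))
    (hker : ∀ v, A v = 0 → ∃ a, ∀ x, v x = a) (f : Ω → ℝ) (hf : ∑ x, f x = 0) :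
    c * ip f f ≤ ip f (A f) := by
  obtain ⟨n, v, μ, hv, hne, hexp⟩ := spectral A hA
  have h1 : ∀ i, ip (A f) (v i) = μ i * ip f (v i) := fun i => by
    rw [hA, hv, ip_smul_right]
  rw [hexp f (A f), hexp f f, Finset.mul_sum]
  refine Finset.sum_le_sum fun i _ => ?_
  rw [h1]
  have hvpos : 0 < ip (v i) (v i) := by
    by_contra hh
    exact hne i (eq_zero_of_ip_self _ (not_lt.1 hh))
  by_cases hμ : μ i = 0
  · obtain ⟨a, ha⟩ := hker (v i) (by rw [hv, hμ, zero_smul])
    have : ip f (v i) = 0 := by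
      simp only [ip, ha]; rw [← Finset.sum_mul, hf, zero_mul]
    simp [this]
  · have h2 := hpos (v i)
    have h3 := hform (v i)
    rw [hv, ip_smul_right] at h2 h3
    rw [ip_smul_left, ip_smul_right] at h3
    have h4 : 0 ≤ μ i := by
      by_contra hh
      push Not at hh
      nlinarith
    have h5 : 0 < μ i := lt_of_le_of_ne h4 (Ne.symm hμ)
    have h6 : c ≤ μ i := by
      by_contra hh
      push Not at hh
      have : 0 < μ i * ip (v i) (v i) := mul_pos h5 hvpos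
      nlinarith
    nlinarith [mul_self_nonneg (ip f (v i))]

end ip

section avg
variable {Ω : Type*} [Fintype Ω] {K : Type*}

open Classical in
/-- The class of points with key `p`. -/
noncomputable def fib (κ : Ω → K) (p : K) : Finset Ω := univ.filter fun y => κ y = p

@[simp] theorem mem_fib {κ : Ω → K} {p : K} {y : Ω} : y ∈ fib κ p ↔ κ y = p := by
  simp [fib]

theorem card_fib_pos (κ : Ω → K) (x : Ω) : 0 < (fib κ (κ x)).card :=
  Finset.card_pos.2 ⟨x, by simp⟩

theorem card_fib_ne (κ : Ω → K) (x : Ω) : ((fib κ (κ x)).card : ℝ) ≠ 0 := by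
  have := card_fib_pos κ x
  positivity

/-- The average of `f` over the class with key `p`. -/
noncomputable def avgK (κ : Ω → K) (f : Ω → ℝ) (p : K) : ℝ :=
  (∑ y ∈ fib κ p, f y) / ((fib κ p).card : ℝ)

/-- Averaging over the class of the point, as a linear map. -/
noncomputable def avg (κ : Ω → K) : (Ω → ℝ) →ₗ[ℝ] (Ω → ℝ) where
  toFun f x := avgK κ f (κ x)
  map_add' f g := by
    funext x; simp [avgK, Finset.sum_add_distrib, add_div]
  map_smul' c f := by
    funext x; simp [avgK, ← Finset.mul_sum, mul_div_assoc]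

theorem avg_apply (κ : Ω → K) (f : Ω → ℝ) (x : Ω) : avg κ f x = avgK κ f (κ x) := rfl

/-- The complementary projection `1 - avg`. -/
noncomputable def hh (κ : Ω → K) : (Ω → ℝ) →ₗ[ℝ] (Ω → ℝ) := LinearMap.id - avg κ

theorem hh_apply (κ : Ω → K) (f : Ω → ℝ) (x : Ω) : hh κ f x = f x - avg κ f x := rfl

theorem hh_eq (κ : Ω → K) (f : Ω → ℝ) : hh κ f = f - avg κ f := rfl

theorem sum_fib_eq (κ : Ω → K) (f : Ω → ℝ) (x : Ω) :
    ∑ y ∈ fib κ (κ x), f y = (fib κ (κ x)).card * avg κ f x := by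
  rw [avg_apply, avgK, mul_div_cancel₀ _ (card_fib_ne κ x)]

theorem avg_congr_key (κ : Ω → K) (f : Ω → ℝ) {x y : Ω} (h : κ x = κ y) :
    avg κ f x = avg κ f y := by rw [avg_apply, avg_apply, h]

theorem ip_avg_left (κ : Ω → K) (f g : Ω → ℝ) : ip (avg κ f) g = ip f (avg κ g) := by
  classical
  have key : ∀ f g : Ω → ℝ, ip (avg κ f) g =
      ∑ x, ∑ y, if κ y = κ x then f y * g x / ((fib κ (κ x)).card : ℝ) else 0 := by
    intro f g
    unfold ip
    refine Finset.sum_congr rfl fun x _ => ?_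
    rw [avg_apply, avgK, Finset.sum_div, Finset.sum_mul, ← Finset.sum_filter]
    refine Finset.sum_congr (by ext y; simp) fun y _ => by ring
  rw [ip_comm f, key, key, Finset.sum_comm]
  refine Finset.sum_congr rfl fun x _ => Finset.sum_congr rfl fun y _ => ?_
  by_cases h : κ x = κ y
  · rw [if_pos h, if_pos h.symm, h]; ring
  · rw [if_neg h, if_neg (Ne.symm h)]

theorem avg_of_inv (κ : Ω → K) (f : Ω → ℝ) (hf : ∀ x y, κ x = κ y → f x = f y) :
    avg κ f = f := by
  funext x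
  rw [avg_apply, avgK, Finset.sum_congr rfl (g := fun _ => f x)
    (fun y hy => hf _ _ (mem_fib.1 hy))]
  simp only [Finset.sum_const, nsmul_eq_mul]
  exact mul_div_cancel_left₀ _ (card_fib_ne κ x)

theorem avg_avg (κ : Ω → K) (f : Ω → ℝ) : avg κ (avg κ f) = avg κ f :=
  avg_of_inv κ _ fun _ _ h => avg_congr_key κ f h

theorem avg_hh (κ : Ω → K) (f : Ω → ℝ) : avg κ (hh κ f) = 0 := by
  rw [hh_eq, map_sub, avg_avg, sub_self]

theorem hh_hh (κ : Ω → K) (f : Ω → ℝ) : hh κ (hh κ f) = hh κ f := by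
  rw [hh_eq κ (hh κ f), avg_hh, sub_zero]

theorem ip_hh_left (κ : Ω → K) (f g : Ω → ℝ) : ip (hh κ f) g = ip f (hh κ g) := by
  rw [hh_eq, hh_eq, ip_sub_left, ip_sub_right, ip_avg_left]

theorem ip_hh_self (κ : Ω → K) (f : Ω → ℝ) : ip f (hh κ f) = ip (hh κ f) (hh κ f) := by
  rw [ip_hh_left, hh_hh]

theorem ip_avg_self (κ : Ω → K) (f : Ω → ℝ) : ip f (avg κ f) = ip (avg κ f) (avg κ f) := by
  rw [ip_avg_left, avg_avg]

/-- A key-invariant function is orthogonal to the range of `hh`. -/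
theorem ip_inv_hh (κ : Ω → K) (f g : Ω → ℝ) (hg : ∀ x y, κ x = κ y → g x = g y) :
    ip (hh κ f) g = 0 := by
  rw [ip_hh_left, hh_eq, avg_of_inv κ g hg, sub_self]; simp [ip]

theorem sum_fib_hh (κ : Ω → K) (f : Ω → ℝ) (x : Ω) : ∑ y ∈ fib κ (κ x), hh κ f y = 0 := by
  rw [sum_fib_eq, avg_hh]; simp

theorem sum_hh (κ : Ω → K) (f : Ω → ℝ) : ∑ y, hh κ f y = 0 := by
  have := ip_inv_hh κ f (fun _ => 1) (fun _ _ _ => rfl)
  simpa [ip] using this

theorem ip_hh_le (κ : Ω → K) (f : Ω → ℝ) : ip (hh κ f) (hh κ f) ≤ ip f f := by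
  have h1 : ip f (hh κ f) = ip f f - ip f (avg κ f) := by rw [hh_eq, ip_sub_right]
  rw [← ip_hh_self, h1, ip_avg_self]
  linarith [ip_self_nonneg (avg κ f)]

/-- If `hh κ f = 0` then `f` is constant on classes. -/
theorem inv_of_hh_eq_zero (κ : Ω → K) (f : Ω → ℝ) (h : hh κ f = 0) {x y : Ω} (hxy : κ x = κ y) :
    f x = f y := by
  have h1 := congrFun h x
  have h2 := congrFun h y
  rw [hh_apply] at h1 h2
  have := avg_congr_key κ f hxy
  simp only [Pi.zero_apply] at h1 h2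
  linarith

/-- Averages commute with a bijection that respects the key. -/
theorem avg_comp_equiv {Ω' : Type*} [Fintype Ω'] {K' : Type*} (κ : Ω → K) (κ' : Ω' → K')
    (e : Ω' ≃ Ω) (he : ∀ x y, κ (e x) = κ (e y) ↔ κ' x = κ' y) (f : Ω → ℝ) (x : Ω') :
    avg κ f (e x) = avg κ' (f ∘ e) x := by
  have hmap : fib κ (κ (e x)) = (fib κ' (κ' x)).map e.toEmbedding := by
    ext y
    simp only [mem_fib, Finset.mem_map_equiv]
    rw [← he, Equiv.apply_symm_apply]
  rw [avg_apply, avg_apply, avgK, avgK, hmap, Finset.sum_map, Finset.card_map]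
  rfl

/-- Averages along a saturated injection. -/
theorem avg_comp_inj {X : Type*} [Fintype X] {K' : Type*} (κ : Ω → K) (κ' : X → K')
    (j : X → Ω) (hj : Function.Injective j) (he : ∀ x y, κ (j x) = κ (j y) ↔ κ' x = κ' y)
    (hsat : ∀ x y, κ y = κ (j x) → ∃ x', j x' = y) (f : Ω → ℝ) (x : X) :
    avg κ f (j x) = avg κ' (f ∘ j) x := by
  have hmap : fib κ (κ (j x)) = (fib κ' (κ' x)).map ⟨j, hj⟩ := by
    ext y
    simp only [mem_fib, Finset.mem_map, Function.Embedding.coeFn_mk]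
    constructor
    · intro h
      obtain ⟨x', rfl⟩ := hsat x y h
      exact ⟨x', (he _ _).1 h, rfl⟩
    · rintro ⟨x', h, rfl⟩
      exact (he _ _).2 h
  rw [avg_apply, avg_apply, avgK, avgK, hmap, Finset.sum_map, Finset.card_map]
  rfl

theorem hh_comp_inj {X : Type*} [Fintype X] {K' : Type*} (κ : Ω → K) (κ' : X → K')
    (j : X → Ω) (hj : Function.Injective j) (he : ∀ x y, κ (j x) = κ (j y) ↔ κ' x = κ' y)
    (hsat : ∀ x y, κ y = κ (j x) → ∃ x', j x' = y) (f : Ω → ℝ) (x : X) :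
    hh κ f (j x) = hh κ' (f ∘ j) x := by
  rw [hh_apply, hh_apply, avg_comp_inj κ κ' j hj he hsat]; rfl

/-- A sum is nonnegative if it is so over every class. -/
theorem sum_nonneg_of_fib (ρ : Ω → K) (φ : Ω → ℝ)
    (h : ∀ x, 0 ≤ ∑ y ∈ fib ρ (ρ x), φ y) : 0 ≤ ∑ y, φ y := by
  have h1 : ∑ y, φ y = ∑ y, avg ρ φ y := by
    have := sum_hh ρ φ
    simp only [hh_apply, Finset.sum_sub_distrib] at this
    linarith
  rw [h1]
  refine Finset.sum_nonneg fun x _ => ?_
  rw [avg_apply, avgK]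
  exact div_nonneg (h x) (Nat.cast_nonneg _)

theorem sum_fib_eq_sum_inj {X : Type*} [Fintype X] (ρ : Ω → K) (p : K) (j : X → Ω)
    (hj : Function.Injective j) (hr : ∀ y, ρ y = p ↔ ∃ x, j x = y) (φ : Ω → ℝ) :
    ∑ y ∈ fib ρ p, φ y = ∑ x, φ (j x) := by
  have hmap : fib ρ p = (univ : Finset X).map ⟨j, hj⟩ := by
    ext y; simp [hr]
  rw [hmap, Finset.sum_map]; rfl

end avg

end Crest.Agent.R299
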