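import Crest.Agent.R299.Loss

/-!
Two partitions whose classes meet in `[a] + [b]` points: a lower bound for the inner product of
the two complementary projections.
-/

set_option autoImplicit false
open Finset

namespace Crest.Agent.R299

section block
variable {X : Type*} [Fintype X] {K K' : Type*}

theorem sum_avg (κ : X → K) (φ : X → ℝ) : ∑ x, avg κ φ x = ∑ x, φ x := by
  have := sum_hh κ φ
  simp only [hh_apply, Finset.sum_sub_distrib] at this
  linarith

theorem avg_nonneg (κ : X → K) (φ : X → ℝ) (h : ∀ x, 0 ≤ φ x) (x : X) : 0 ≤ avg κ φ x := by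
  rw [avg_apply, avgK]
  exact div_nonneg (Finset.sum_nonneg fun y _ => h y) (Nat.cast_nonneg _)

theorem avg_mul_inv (κ : X → K) (φ ψ : X → ℝ) (h : ∀ x y, κ x = κ y → φ x = φ y) (x : X) :
    avg κ (φ * ψ) x = φ x * avg κ ψ x := by
  rw [avg_apply, avg_apply, avgK, avgK, ← mul_div_assoc, Finset.mul_sum]
  congr 1
  exact Finset.sum_congr rfl fun y hy => by rw [Pi.mul_apply, h y x (mem_fib.1 hy)]

theorem loss_ge (κ : X → K) (D : X → Prop) (g : X → ℝ) (t : ℝ) :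
    2 * t * ip (ind D) g - t ^ 2 * ∑ x, ind D x ≤ ∑ x, lossAt κ D g x := by
  have h1 : ip (ind D) g = ∑ x, avg κ (ind D * g) x := by rw [sum_avg]; rfl
  rw [h1, ← sum_avg κ (ind D), Finset.mul_sum, Finset.mul_sum, ← Finset.sum_sub_distrib]
  refine Finset.sum_le_sum fun x _ => ?_
  unfold lossAt
  have hq := avg_nonneg κ (ind D) (ind_nonneg D) x
  by_cases h0 : avg κ (ind D) x = 0
  · have h2 : avg κ (ind D * g) x = 0 := by
      rw [avg_apply, avgK, div_eq_zero_iff] at h0 ⊢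
      rcases h0 with h0 | h0
      · left
        refine Finset.sum_eq_zero fun y hy => ?_
        have := (Finset.sum_eq_zero_iff_of_nonneg (fun y _ => ind_nonneg D y)).1 h0 y hy
        rw [Pi.mul_apply, this, zero_mul]
      · right; exact h0
    simp [h0, h2]
  · have hpos : 0 < avg κ (ind D) x := lt_of_le_of_ne hq (Ne.symm h0)
    rw [le_div_iff₀ hpos]
    nlinarith [sq_nonneg (avg κ (ind D * g) x - t * avg κ (ind D) x)]

theorem lossAt_nonneg (κ : X → K) (D : X → Prop) (g : X → ℝ) (x : X) : 0 ≤ lossAt κ D g x :=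
  div_nonneg (sq_nonneg _) (avg_nonneg κ (ind D) (ind_nonneg D) x)

theorem block_core (κ : X → K) (κ' : X → K') (a b : X → Prop)
    (ha : ∀ x y, κ x = κ y → a x → a y) (hb : ∀ x y, κ' x = κ' y → b x → b y)
    (hm : ∀ x y, ∑ z ∈ fib κ (κ x), ind (fun z => κ' z = κ' y) z = ind a x + ind b y)
    (f : X → ℝ) :
    0 ≤ ip (hh κ f) (hh κ' f) + (1 / 2) * (∑ x, lossAt κ (fun x => a x ∧ b x) (hh κ f) x +
      ∑ x, lossAt κ' (fun x => a x ∧ b x) (hh κ' f) x) := by
  classical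
  have hainv : ∀ x y, κ x = κ y → ind a x = ind a y := fun x y h =>
    ind_congr ⟨ha x y h, ha y x h.symm⟩
  have hbinv : ∀ x y, κ' x = κ' y → ind b x = ind b y := fun x y h =>
    ind_congr ⟨hb x y h, hb y x h.symm⟩
  obtain ⟨D, hD⟩ : ∃ D : X → Prop, D = fun x => a x ∧ b x := ⟨_, rfl⟩
  rw [← hD]
  have hDab : ∀ x, ind D x = ind a x * ind b x := by
    intro x; rw [hD]; unfold ind; by_cases h1 : a x <;> by_cases h2 : b x <;> simp [h1, h2]
  have hor : ∀ x, ind b x = ind D x + (1 - ind a x) := by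
    intro x
    have h1 := hm x x
    have h2 : 1 ≤ ∑ z ∈ fib κ (κ x), ind (fun z => κ' z = κ' x) z := by
      have := Finset.single_le_sum (f := ind (fun z => κ' z = κ' x)) (s := fib κ (κ x))
        (fun z _ => ind_nonneg _ z) (mem_fib.2 rfl : x ∈ fib κ (κ x))
      rwa [ind_pos (D := fun z => κ' z = κ' x) rfl] at this
    rw [h1] at h2
    rw [hDab]
    by_cases h3 : a x
    · rw [ind_pos h3]; ring
    · rw [ind_neg h3] at h2 ⊢
      have := ind_le_one b x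
      linarith
  -- sums over a `κ'`-class of a `κ`-invariant function
  obtain ⟨Sa, hSa⟩ : ∃ Sa : (X → ℝ) → ℝ,
    Sa = fun φ => ∑ x, ind a x * φ x / ((fib κ (κ x)).card : ℝ) := ⟨_, rfl⟩
  obtain ⟨Sf, hSf⟩ : ∃ Sf : (X → ℝ) → ℝ,
    Sf = fun φ => ∑ x, φ x / ((fib κ (κ x)).card : ℝ) := ⟨_, rfl⟩
  have hsum : ∀ φ : X → ℝ, (∀ x y, κ x = κ y → φ x = φ y) → ∀ y,
      ∑ z ∈ fib κ' (κ' y), φ z = Sa φ + ind b y * Sf φ := by
    intro φ hφ y
    have h1 : ∑ z ∈ fib κ' (κ' y), φ z = ∑ z, (φ * ind (fun z => κ' z = κ' y)) z := by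
      rw [← Finset.sum_subset (Finset.subset_univ (fib κ' (κ' y)))]
      · exact Finset.sum_congr rfl fun z hz => by
          rw [Pi.mul_apply, ind_pos (D := fun z => κ' z = κ' y) (mem_fib.1 hz), mul_one]
      · intro z _ hz
        rw [Pi.mul_apply, ind_neg (D := fun z => κ' z = κ' y) (fun h => hz (mem_fib.2 h)),
          mul_zero]
    rw [h1, ← sum_avg κ, hSa, hSf]
    simp only
    rw [Finset.mul_sum, ← Finset.sum_add_distrib]
    refine Finset.sum_congr rfl fun x _ => ?_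
    rw [avg_mul_inv κ φ _ hφ, avg_apply, avgK, hm]; ring
  obtain ⟨P0, hP0⟩ : ∃ P0, P0 = Sa (fun _ => 1) := ⟨_, rfl⟩
  obtain ⟨P, hP⟩ : ∃ P, P = Sf (fun _ => 1) := ⟨_, rfl⟩
  have havg : ∀ φ : X → ℝ, (∀ x y, κ x = κ y → φ x = φ y) → ∀ y,
      avg κ' φ y = (Sa φ + ind b y * Sf φ) / (P0 + ind b y * P) := by
    intro φ hφ y
    rw [avg_apply, avgK, hsum φ hφ, hP0, hP, ← hsum (fun _ => 1) (fun _ _ _ => rfl)]
    simp
  obtain ⟨α, hα⟩ : ∃ α, α = avg κ f := ⟨_, rfl⟩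
  have hαinv : ∀ x y, κ x = κ y → α x = α y := fun x y h => hα ▸ avg_congr_key κ f h
  obtain ⟨c1, hc1⟩ : ∃ c1, c1 = Sa α / P0 := ⟨_, rfl⟩
  obtain ⟨γ, hγ⟩ : ∃ γ, γ = (Sa α + Sf α) / (P0 + P) - c1 := ⟨_, rfl⟩
  have i1 : ∀ y, avg κ' α y = c1 + γ * ind b y := by
    intro y
    rw [havg α hαinv]
    by_cases h : b y
    · rw [ind_pos h, hγ]; simp
    · rw [ind_neg h, hc1]; simp
  have hSaa : ∀ φ : X → ℝ, Sa (ind a * φ) = Sa φ := by
    intro φ; rw [hSa]
    exact Finset.sum_congr rfl fun x _ => by rw [Pi.mul_apply, ← mul_assoc, ind_mul_self]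
  have hSfa : ∀ φ : X → ℝ, Sf (ind a * φ) = Sa φ := by
    intro φ; rw [hSa, hSf]; rfl
  have i0 : ∀ φ : X → ℝ, (∀ x y, κ x = κ y → φ x = φ y) → ∀ y,
      avg κ' (ind D * φ) y = 2 * Sa φ / (P0 + P) * ind b y := by
    intro φ hφ y
    have : ind D * φ = ind b * (ind a * φ) := by
      funext x; simp only [Pi.mul_apply, hDab]; ring
    rw [this, avg_mul_inv κ' _ _ hbinv, havg _ (fun x y h => by
      simp only [Pi.mul_apply, hainv x y h, hφ x y h]), hSaa, hSfa]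
    by_cases h : b y
    · rw [ind_pos h]; ring_nf
    · rw [ind_neg h]; simp
  obtain ⟨d, hd⟩ : ∃ d, d = ∑ x, ind D x := ⟨_, rfl⟩
  obtain ⟨θ, hθ⟩ : ∃ θ, θ = 2 * P0 / (P0 + P) := ⟨_, rfl⟩
  have i3 : ∀ y, avg κ' (ind D) y = θ * ind b y := by
    intro y
    have := i0 (fun _ => 1) (fun _ _ _ => rfl) y
    rw [← hP0, ← hθ] at this
    have h2 : ind D * (fun _ => (1 : ℝ)) = ind D := by funext x; simp
    rwa [h2] at this
  have i2 : ip (ind D) α = c1 * d := by
    have h1 : ip (ind D) α = 2 * Sa α / (P0 + P) * ∑ y, ind b y := by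
      have : ip (ind D) α = ∑ y, avg κ' (ind D * α) y := by rw [sum_avg]; rfl
      rw [this, Finset.mul_sum]
      exact Finset.sum_congr rfl fun y _ => i0 α hαinv y
    have h2 : d = θ * ∑ y, ind b y := by
      rw [hd, ← sum_avg κ', Finset.mul_sum]
      exact Finset.sum_congr rfl fun y _ => i3 y
    rw [h1, h2, hθ, hc1]
    by_cases h0 : P0 = 0
    · have : Sa α = 0 := by
        rw [hP0, hSa] at h0
        rw [hSa]
        refine Finset.sum_eq_zero fun x hx => ?_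
        have := (Finset.sum_eq_zero_iff_of_nonneg (fun y _ => div_nonneg
          (mul_nonneg (ind_nonneg a y) zero_le_one) (Nat.cast_nonneg _))).1 h0 x hx
        rw [mul_one, div_eq_zero_iff] at this
        rcases this with h | h
        · rw [h]; simp
        · rw [h]; simp
      rw [this]; simp
    · field_simp
  obtain ⟨u, hu⟩ : ∃ u, u = hh κ f := ⟨_, rfl⟩
  obtain ⟨v, hv⟩ : ∃ v, v = hh κ' f := ⟨_, rfl⟩
  obtain ⟨w, hw⟩ : ∃ w, w = hh κ' u := ⟨_, rfl⟩
  rw [← hu, ← hv]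
  obtain ⟨U, hU⟩ : ∃ U, U = ip (ind D) u := ⟨_, rfl⟩
  obtain ⟨V, hV⟩ : ∃ V, V = ip (ind D) v := ⟨_, rfl⟩
  have hvw : v = w + α - c1 • (fun _ => (1 : ℝ)) - γ • ind b := by
    funext x
    have : avg κ' u x = avg κ' f x - avg κ' α x := by rw [hu, hh_eq, map_sub, hα]; rfl
    simp only [Pi.sub_apply, Pi.add_apply, Pi.smul_apply, smul_eq_mul]
    rw [hw, hh_apply, this, i1, hv, hh_apply, hu, hh_apply, hα]; ring
  have hub : ip u (ind b) = U := by
    have : ind b = ind D + (fun x => 1 - ind a x) := funext hor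
    rw [this, ip_add_right, hu, ip_inv_hh κ f (fun x => 1 - ind a x)
      (fun x y h => by simp only [hainv x y h]), hU, hu, ip_comm, add_zero]
  have j1 : ip u v = ip w w - γ * U := by
    rw [hvw, ip_sub_right, ip_sub_right, ip_add_right, ip_smul_right, ip_smul_right, hub]
    have h1 : ip u α = 0 := by rw [hu]; exact ip_inv_hh κ f _ hαinv
    have h2 : ip u (fun _ => (1 : ℝ)) = 0 := by rw [hu]; exact ip_inv_hh κ f _ fun _ _ _ => rfl
    rw [h1, h2, hw, ip_hh_self]; ring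
  have hDb : ip (ind D) (ind b) = d := by
    rw [hd]; exact Finset.sum_congr rfl fun x _ => by rw [hDab, mul_assoc, ind_mul_self]
  have hD1 : ip (ind D) (fun _ => (1 : ℝ)) = d := by rw [hd]; simp [ip]
  have hχ : hh κ' (ind D) = ind D - θ • ind b := by
    funext x; rw [hh_apply, i3]; rfl
  have j2 : ip (ind D) w = (1 - θ) * U := by
    rw [hw, ← ip_hh_left, hχ, ip_sub_left, ip_smul_left, ip_comm (ind b), hub, ← hU]; ring
  have j3 : V = (1 - θ) * U - γ * d := by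
    rw [hV, hvw, ip_sub_right, ip_sub_right, ip_add_right, ip_smul_right, ip_smul_right, j2, i2,
      hDb, hD1]; ring
  have j4 : ip (hh κ' (ind D)) (hh κ' (ind D)) = (1 - θ) * d := by
    rw [← ip_hh_self, hχ, ip_sub_right, ip_smul_right, hDb]
    have : ip (ind D) (ind D) = d := by
      rw [hd]; exact Finset.sum_congr rfl fun x _ => ind_mul_self _ _
    rw [this]; ring
  have j5 : ip (hh κ' (ind D)) w = (1 - θ) * U := by
    rw [ip_hh_left, hw, hh_hh, ← hw, j2]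
  have j6 := ip_sq_le (hh κ' (ind D)) w
  rw [j4, j5] at j6
  have hl1 := lossAt_nonneg κ D u
  have hl2 := lossAt_nonneg κ' D v
  have hd0 : 0 ≤ d := hd ▸ Finset.sum_nonneg fun x _ => ind_nonneg D x
  by_cases hdz : d = 0
  · have hU0 : U = 0 := by
      rw [hU]
      refine Finset.sum_eq_zero fun x hx => ?_
      have := (Finset.sum_eq_zero_iff_of_nonneg (fun y _ => ind_nonneg D y)).1 (hd ▸ hdz) x hx
      rw [this, zero_mul]
    have h1 : 0 ≤ ∑ x, lossAt κ D u x := Finset.sum_nonneg fun x _ => hl1 x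
    have h2 : 0 ≤ ∑ x, lossAt κ' D v x := Finset.sum_nonneg fun x _ => hl2 x
    rw [j1, hU0]
    have := ip_self_nonneg w
    linarith
  have hdpos : 0 < d := lt_of_le_of_ne hd0 (Ne.symm hdz)
  have k1 := loss_ge κ D u (U / d)
  have k2 := loss_ge κ' D v (V / d)
  rw [← hU, ← hd] at k1
  rw [← hV, ← hd] at k2
  have k3 : 2 * (U / d) * U - (U / d) ^ 2 * d = U ^ 2 / d := by field_simp; ring
  have k4 : 2 * (V / d) * V - (V / d) ^ 2 * d = V ^ 2 / d := by field_simp; ring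
  rw [k3] at k1
  rw [k4] at k2
  have hθ0 : 0 ≤ 1 - θ := by
    have := ip_self_nonneg (hh κ' (ind D))
    rw [j4] at this
    exact nonneg_of_mul_nonneg_left this hdpos
  have k5 : (1 - θ) * U ^ 2 / d ≤ ip w w := by
    rw [div_le_iff₀ hdpos]
    by_cases h0 : 1 - θ = 0
    · rw [h0, zero_mul]; exact mul_nonneg (ip_self_nonneg w) hd0
    · have hpos : 0 < 1 - θ := lt_of_le_of_ne hθ0 (Ne.symm h0)
      have : (1 - θ) * ((1 - θ) * U ^ 2) ≤ (1 - θ) * (ip w w * d) := by nlinarith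
      exact le_of_mul_le_mul_left this hpos
  have k6 : U * V / d = (1 - θ) * U ^ 2 / d - γ * U := by rw [j3]; field_simp
  have k7 : 0 ≤ U * V / d + (1 / 2) * (U ^ 2 / d + V ^ 2 / d) := by
    have : U * V / d + (1 / 2) * (U ^ 2 / d + V ^ 2 / d) = (U + V) ^ 2 / (2 * d) := by
      field_simp; ring
    rw [this]; positivity
  rw [j1]
  linarith

theorem lossAt_comp_inj {Ω : Type*} [Fintype Ω] (κ : Ω → K) (κ' : X → K')
    (j : X → Ω) (hj : Function.Injective j) (he : ∀ x y, κ (j x) = κ (j y) ↔ κ' x = κ' y)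
    (hsat : ∀ x y, κ y = κ (j x) → ∃ x', j x' = y) (D : Ω → Prop) (D' : X → Prop)
    (hD : ∀ x, D (j x) ↔ D' x) (f : Ω → ℝ) (x : X) :
    lossAt κ D (hh κ f) (j x) = lossAt κ' D' (hh κ' (f ∘ j)) x := by
  unfold lossAt
  rw [avg_comp_inj κ κ' j hj he hsat, avg_comp_inj κ κ' j hj he hsat]
  have h1 : ind D ∘ j = ind D' := funext fun y => ind_congr (hD y)
  have h2 : (ind D * hh κ f) ∘ j = ind D' * hh κ' (f ∘ j) := by
    funext y
    simp only [Function.comp_apply, Pi.mul_apply]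
    rw [hh_comp_inj κ κ' j hj he hsat, ind_congr (hD y)]
  rw [h1, h2]

/-- The same bound when the intersection pattern only holds inside the classes of a coarser key. -/
theorem block_fib {R : Type*} (ρ : X → R) (κ : X → K) (κ' : X → K') (a b : X → Prop)
    (hρ : ∀ x y, κ x = κ y → ρ x = ρ y) (hρ' : ∀ x y, κ' x = κ' y → ρ x = ρ y)
    (ha : ∀ x y, κ x = κ y → a x → a y) (hb : ∀ x y, κ' x = κ' y → b x → b y)
    (hm : ∀ x y, ρ x = ρ y →
      ∑ z ∈ fib κ (κ x), ind (fun z => κ' z = κ' y) z = ind a x + ind b y)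
    (f : X → ℝ) :
    0 ≤ ip (hh κ f) (hh κ' f) + (1 / 2) * (∑ x, lossAt κ (fun x => a x ∧ b x) (hh κ f) x +
      ∑ x, lossAt κ' (fun x => a x ∧ b x) (hh κ' f) x) := by
  classical
  have : ip (hh κ f) (hh κ' f) + (1 / 2) * (∑ x, lossAt κ (fun x => a x ∧ b x) (hh κ f) x +
      ∑ x, lossAt κ' (fun x => a x ∧ b x) (hh κ' f) x) =
      ∑ x, (hh κ f x * hh κ' f x + (1 / 2) * (lossAt κ (fun x => a x ∧ b x) (hh κ f) x +
        lossAt κ' (fun x => a x ∧ b x) (hh κ' f) x)) := by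
    rw [Finset.sum_add_distrib, ← Finset.mul_sum, Finset.sum_add_distrib]; rfl
  rw [this]
  refine sum_nonneg_of_fib ρ _ fun x0 => ?_
  let Y := {y : X // ρ y = ρ x0}
  let j : Y → X := Subtype.val
  have hj : Function.Injective j := Subtype.val_injective
  have hs1 : ∀ (x : Y) y, κ y = κ (j x) → ∃ x', j x' = y := fun x y h =>
    ⟨⟨y, (hρ _ _ h).trans x.2⟩, rfl⟩
  have hs2 : ∀ (x : Y) y, κ' y = κ' (j x) → ∃ x', j x' = y := fun x y h =>
    ⟨⟨y, (hρ' _ _ h).trans x.2⟩, rfl⟩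
  rw [sum_fib_eq_sum_inj ρ (ρ x0) j hj (fun y => ⟨fun h => ⟨⟨y, h⟩, rfl⟩, by
    rintro ⟨x, rfl⟩; exact x.2⟩)]
  have hcore := block_core (κ ∘ j) (κ' ∘ j) (a ∘ j) (b ∘ j) (fun x y h => ha _ _ h)
    (fun x y h => hb _ _ h) (fun x y => by
      have h1 := hm (j x) (j y) (x.2.trans y.2.symm)
      have h2 : fib κ (κ (j x)) = (fib (κ ∘ j) ((κ ∘ j) x)).map ⟨j, hj⟩ := by
        ext y
        simp only [mem_fib, Finset.mem_map, Function.Embedding.coeFn_mk, Function.comp_apply]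
        constructor
        · intro h
          obtain ⟨x', rfl⟩ := hs1 x y h
          exact ⟨x', h, rfl⟩
        · rintro ⟨x', h, rfl⟩
          exact h
      rw [h2, Finset.sum_map] at h1
      exact h1) (f ∘ j)
  have e1 : ∀ x, hh κ f (j x) = hh (κ ∘ j) (f ∘ j) x :=
    hh_comp_inj κ (κ ∘ j) j hj (fun _ _ => Iff.rfl) hs1 f
  have e2 : ∀ x, hh κ' f (j x) = hh (κ' ∘ j) (f ∘ j) x :=
    hh_comp_inj κ' (κ' ∘ j) j hj (fun _ _ => Iff.rfl) hs2 f
  have e3 := lossAt_comp_inj κ (κ ∘ j) j hj (fun _ _ => Iff.rfl) hs1 (fun x => a x ∧ b x)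
    (fun x => (a ∘ j) x ∧ (b ∘ j) x) (fun _ => Iff.rfl) f
  have e4 := lossAt_comp_inj κ' (κ' ∘ j) j hj (fun _ _ => Iff.rfl) hs2 (fun x => a x ∧ b x)
    (fun x => (a ∘ j) x ∧ (b ∘ j) x) (fun _ => Iff.rfl) f
  simp only [e1, e2, e3, e4]
  rw [Finset.sum_add_distrib, ← Finset.mul_sum, Finset.sum_add_distrib]
  exact hcore

theorem avg_tt (μ : X → K) (s : X → X) (hs : Function.Involutive s) (hμ : ∀ x, μ (s x) = μ x)
    (g : X → ℝ) : avg μ (tt s g) = 0 := by
  funext x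
  have h1 : tt s g = g - g ∘ hs.toPerm := rfl
  have h2 := avg_comp_equiv μ μ hs.toPerm (fun x y => by simp [hμ]) g x
  rw [h1, map_sub, Pi.sub_apply, ← h2, avg_congr_key μ g (x := hs.toPerm s x) (y := x) (hμ x)]
  simp

/-- With an involution preserving both keys, its Dirichlet form is gained. -/
theorem block_ineq {R : Type*} (ρ : X → R) (κ : X → K) (κ' : X → K') (a b : X → Prop)
    (hρ : ∀ x y, κ x = κ y → ρ x = ρ y) (hρ' : ∀ x y, κ' x = κ' y → ρ x = ρ y)
    (ha : ∀ x y, κ x = κ y → a x → a y) (hb : ∀ x y, κ' x = κ' y → b x → b y)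
    (hm : ∀ x y, ρ x = ρ y →
      ∑ z ∈ fib κ (κ x), ind (fun z => κ' z = κ' y) z = ind a x + ind b y)
    (s : X → X) (hs : Function.Involutive s) (hsκ : ∀ x, κ (s x) = κ x)
    (hsκ' : ∀ x, κ' (s x) = κ' x) (f : X → ℝ) :
    (1 / 4) * ∑ x, (f x - f (s x)) ^ 2 - (1 / 2) *
      (∑ x, lossAt κ (fun x => a x ∧ b x) (hh κ f) x +
        ∑ x, lossAt κ' (fun x => a x ∧ b x) (hh κ' f) x) ≤ ip (hh κ f) (hh κ' f) := by
  have keyK := avg_tt κ s hs hsκ
  have keyK' := avg_tt κ' s hs hsκ'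
  obtain ⟨fa, hfa⟩ : ∃ fa, fa = (1 / 2 : ℝ) • tt s f := ⟨_, rfl⟩
  have hD : ∀ x, ind (fun x => a x ∧ b x) (s x) = ind (fun x => a x ∧ b x) x := fun x =>
    ind_congr ⟨fun h => ⟨ha _ _ (hsκ x) h.1, hb _ _ (hsκ' x) h.2⟩,
      fun h => ⟨ha _ _ (hsκ x).symm h.1, hb _ _ (hsκ' x).symm h.2⟩⟩
  have hDfa : ind (fun x => a x ∧ b x) * fa =
      (1 / 2 : ℝ) • tt s (ind (fun x => a x ∧ b x) * f) := by
    funext x
    simp only [hfa, Pi.mul_apply, Pi.smul_apply, smul_eq_mul, tt_apply, hD]; ring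
  have e1 : hh κ f = hh κ (f - fa) + fa := by
    rw [map_sub, hh_eq κ fa, hfa, map_smul, keyK]; simp
  have e2 : hh κ' f = hh κ' (f - fa) + fa := by
    rw [map_sub, hh_eq κ' fa, hfa, map_smul, keyK']; simp
  have l1 : ∀ x, lossAt κ (fun x => a x ∧ b x) (hh κ f) x =
      lossAt κ (fun x => a x ∧ b x) (hh κ (f - fa)) x := by
    intro x; unfold lossAt
    rw [e1, mul_add, map_add, hDfa, map_smul, keyK]; simp
  have l2 : ∀ x, lossAt κ' (fun x => a x ∧ b x) (hh κ' f) x =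
      lossAt κ' (fun x => a x ∧ b x) (hh κ' (f - fa)) x := by
    intro x; unfold lossAt
    rw [e2, mul_add, map_add, hDfa, map_smul, keyK']; simp
  have hsym : ∀ x, (f - fa) (s x) = (f - fa) x := by
    intro x; simp only [hfa, Pi.sub_apply, Pi.smul_apply, smul_eq_mul, tt_apply, hs x]; ring
  have o1 : ip (hh κ (f - fa)) fa = 0 := by
    rw [hfa, ip_smul_right, ← ip_tt_left s hs, ← hfa]
    have : tt s (hh κ (f - fa)) = 0 := by
      funext x; rw [tt_apply, hh_apply, hh_apply, hsym, avg_congr_key κ _ (hsκ x)]; simp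
    rw [this]; simp [ip]
  have o2 : ip fa (hh κ' (f - fa)) = 0 := by
    rw [ip_comm, hfa, ip_smul_right, ← ip_tt_left s hs, ← hfa]
    have : tt s (hh κ' (f - fa)) = 0 := by
      funext x; rw [tt_apply, hh_apply, hh_apply, hsym, avg_congr_key κ' _ (hsκ' x)]; simp
    rw [this]; simp [ip]
  have o3 : ip fa fa = (1 / 4) * ∑ x, (f x - f (s x)) ^ 2 := by
    rw [hfa, ip_smul_left, ip_smul_right, ip_tt_eq_sum_sq]; ring
  have hcore := block_fib ρ κ κ' a b hρ hρ' ha hb hm (f - fa)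
  simp only [l1, l2]
  have e3 : ip (hh κ f) (hh κ' f) = ip (hh κ (f - fa)) (hh κ' (f - fa)) + ip fa fa := by
    conv_lhs => rw [e1, e2]
    rw [ip_add_left, ip_add_right, ip_add_right, o1, o2]; ring
  rw [e3, o3]
  linarith

end block

end Crest.Agent.R299
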