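import Crest.Agent.R299.Graph

/-!
Connectivity: a function that is constant on all pair classes is constant.
-/

set_option autoImplicit false
open Finset

namespace Crest.Agent.R299

variable {V : Type*} [Fintype V] [DecidableEq V] {d : V → ℕ}

omit [DecidableEq V] in
theorem cnt_eq_card (σ : V → Bool) : cnt σ = (univ.filter fun k => σ k = true).card := by
  rw [cnt, Finset.card_filter]
  exact Finset.sum_congr rfl fun k _ => by cases σ k <;> simp

/-- The number of neighbours inside `U` is determined by the cells that leave `U`. -/
theorem inner_deg_eq (U : Finset V) {A B : Gr d}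
    (h : ∀ u v, (u ∉ U ∨ v ∉ U) → A.1 u v = B.1 u v) (x : V) :
    (U.filter fun z => A.1 x z = true).card = (U.filter fun z => B.1 x z = true).card := by
  have key : ∀ C : Gr d, d x = (U.filter fun z => C.1 x z = true).card +
      (Uᶜ.filter fun z => C.1 x z = true).card := by
    intro C
    rw [← C.2.deg x, cnt_eq_card, ← Finset.card_union_of_disjoint
      (Finset.disjoint_filter_filter disjoint_compl_right), ← Finset.filter_union,
      Finset.union_compl]
  have h1 := key A
  have h2 := key B
  have : (Uᶜ.filter fun z => A.1 x z = true) = (Uᶜ.filter fun z => B.1 x z = true) :=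
    Finset.filter_congr fun z hz => by rw [h x z (Or.inr (Finset.mem_compl.1 hz))]
  rw [this] at h1
  omega

theorem exists_move (U : Finset V) (A : Gr d) {v x y : V} (hv : v ∈ U) (hy : y ∈ U)
    (h1 : A.1 v x = true) (h2 : A.1 v y = false) (hyv : y ≠ v)
    (hdeg : (U.filter fun z => A.1 x z = true).card ≤ (U.filter fun z => A.1 y z = true).card) :
    ∃ z ∈ U, Alt x y v z A := by
  have hxv : x ≠ v := by rintro rfl; simp [A.2.diag] at h1
  have hxy : x ≠ y := by rintro rfl; simp [h1] at h2
  by_contra hh
  push Not at hh
  have hsub : (U.filter fun z => A.1 y z = true).erase x ⊆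
      ((U.filter fun z => A.1 x z = true).erase y).erase v := by
    intro z hz
    simp only [Finset.mem_erase, Finset.mem_filter] at hz ⊢
    obtain ⟨z1, z2, z3⟩ := hz
    have z4 : z ≠ v := by rintro rfl; rw [A.2.symm, h2] at z3; simp at z3
    have z5 : z ≠ y := by rintro rfl; simp [A.2.diag] at z3
    refine ⟨z4, z5, z2, ?_⟩
    by_contra z6
    apply hh z z2
    refine ⟨⟨hxy, z4.symm, hxv.symm, hyv.symm, z1, z5⟩, ?_, ?_, ?_⟩
    · rw [A.2.symm x v, A.2.symm y v, h1, h2]; simp
    · rw [z3]; exact z6
    · rw [A.2.symm x v, h1]; exact fun e => z6 e.symm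
  have c1 := Finset.card_le_card hsub
  have m1 : v ∈ (U.filter fun z => A.1 x z = true).erase y := by
    simp [hyv.symm, hv, A.2.symm x v, h1]
  have c2 := Finset.card_erase_of_mem m1
  have c3 := Finset.card_pos.2 ⟨v, m1⟩
  by_cases hxy' : A.1 x y = true
  · have m2 : y ∈ (U.filter fun z => A.1 x z = true) := by simp [hy, hxy']
    have c4 := Finset.card_erase_of_mem m2
    have c5 := Finset.pred_card_le_card_erase (s := U.filter fun z => A.1 y z = true) (a := x)
    omega
  · have m2 : x ∉ (U.filter fun z => A.1 y z = true) := by
      simp only [Finset.mem_filter, A.2.symm y x, hxy']; simp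
    rw [Finset.erase_eq_of_notMem m2] at c1
    have c4 := Finset.card_erase_le (s := U.filter fun z => A.1 x z = true) (a := y)
    omega

theorem connect_aux (f : Gr d → ℝ) (hf : ∀ i j k l A, f (swi i j k l A) = f A) (U : Finset V) :
    ∀ A B : Gr d, (∀ u v, (u ∉ U ∨ v ∉ U) → A.1 u v = B.1 u v) → f A = f B := by
  induction U using Finset.induction_on with
  | empty =>
    intro A B h
    have : A = B := Subtype.ext (funext fun u => funext fun v => h u v (by simp))
    rw [this]
  | insert v U hvU ih =>
    suffices H : ∀ n, ∀ A B : Gr d,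
        (∀ u w, (u ∉ insert v U ∨ w ∉ insert v U) → A.1 u w = B.1 u w) →
        (univ.filter fun w => A.1 v w ≠ B.1 v w).card = n → f A = f B from
      fun A B h => H _ A B h rfl
    intro n
    induction n using Nat.strong_induction_on with
    | _ n ih2 =>
    intro A B h hn
    by_cases he : A.1 v = B.1 v
    · refine ih A B fun u w huw => ?_
      by_cases hu : u = v
      · rw [hu, he]
      by_cases hw : w = v
      · rw [hw, A.2.symm, B.2.symm, he]
      exact h u w (by simpa [hu, hw] using huw)
    have ex : ∀ x y : V → Bool, cnt x = cnt y → x ≠ y → ∃ k, x k = true ∧ y k = false := by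
      intro x y hxy hne
      by_contra hh
      push Not at hh
      apply hne
      have hle : ∀ k ∈ (univ : Finset V), (x k).toNat ≤ (y k).toNat := by
        intro k _
        have := hh k
        revert this; cases x k <;> cases y k <;> simp
      have := (Finset.sum_eq_sum_iff_of_le hle).1 hxy
      funext k
      have := this k (Finset.mem_univ k)
      revert this; cases x k <;> cases y k <;> simp
    have step : ∀ (A B : Gr d) (x y : V),
        (∀ u w, (u ∉ insert v U ∨ w ∉ insert v U) → A.1 u w = B.1 u w) →
        (univ.filter fun w => A.1 v w ≠ B.1 v w).card = n →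
        A.1 v x = true → B.1 v x = false → B.1 v y = true → A.1 v y = false →
        ((insert v U).filter fun z => A.1 x z = true).card ≤
          ((insert v U).filter fun z => A.1 y z = true).card → f A = f B := by
      intro A B x y h hn x1 x2 y1 y2 hdeg
      have hx : x ∈ insert v U := by
        by_contra hh; rw [h v x (Or.inr hh), x2] at x1; simp at x1
      have hy : y ∈ insert v U := by
        by_contra hh; rw [h v y (Or.inr hh), y1] at y2; simp at y2
      have hyv : y ≠ v := by rintro rfl; simp [B.2.diag] at y1
      obtain ⟨z, hz, halt⟩ := exists_move (insert v U) A (Finset.mem_insert_self v U) hy x1 y2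
        hyv hdeg
      rw [← hf x y v z A]
      have e := swi_of_alt halt
      obtain ⟨⟨a1, a2, a3, a4, a5, a6⟩, -⟩ := halt
      refine ih2 _ ?_ _ B (fun u w huw => ?_) rfl
      · rw [← hn]
        apply Finset.card_lt_card
        rw [Finset.ssubset_iff_of_subset]
        · exact ⟨x, by simp [x1, x2], by simp [e, tog, x1, x2]⟩
        · intro w hw
          simp only [Finset.mem_filter, Finset.mem_univ, true_and, e] at hw ⊢
          by_cases w1 : w = x
          · simp [w1, x1, x2]
          by_cases w2 : w = y
          · simp [w2, y1, y2]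
          simpa [tog, w1, w2, a3, a4] using hw
      · rw [e, ← h u w huw]
        unfold tog
        rw [if_neg]
        have hv := Finset.mem_insert_self v U
        rintro (⟨rfl | rfl, rfl | rfl⟩ | ⟨rfl | rfl, rfl | rfl⟩) <;> tauto
    have hcnt : cnt (A.1 v) = cnt (B.1 v) := (A.2.deg v).trans (B.2.deg v).symm
    obtain ⟨x, x1, x2⟩ := ex _ _ hcnt he
    obtain ⟨y, y1, y2⟩ := ex _ _ hcnt.symm (Ne.symm he)
    rcases le_total ((insert v U).filter fun z => A.1 x z = true).card
      ((insert v U).filter fun z => A.1 y z = true).card with hle | hle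
    · exact step A B x y h hn x1 x2 y1 y2 hle
    · rw [inner_deg_eq _ h, inner_deg_eq _ h] at hle
      refine (step B A y x (fun u w huw => (h u w huw).symm) ?_ y1 y2 x1 x2 hle).symm
      rw [← hn]; congr 1
      exact Finset.filter_congr fun w _ => ne_comm

theorem const_of_swi_inv (f : Gr d → ℝ) (hf : ∀ i j k l A, f (swi i j k l A) = f A) :
    ∃ a, ∀ A, f A = a := by
  by_cases hne : Nonempty (Gr d)
  · obtain ⟨A0⟩ := hne
    exact ⟨f A0, fun A => connect_aux f hf univ A A0 (by simp)⟩
  · exact ⟨0, fun A => absurd ⟨A⟩ hne⟩

end Crest.Agent.R299
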