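import Crest.Agent.R299.Johnson

/-!
A coupling between two-row configurations whose column sums differ in two columns.
-/

set_option autoImplicit false
open Finset

namespace Crest.Agent.R299

theorem bireg {Z Y : Type*} [Fintype Y] (A B : Finset Z) (P Q : Z → Y → Prop)
    [∀ z y, Decidable (P z y)] [∀ z y, Decidable (Q z y)] (T : Z → Y → Z) (m k : ℕ) (hm : 0 < m)
    (hA : ∀ z ∈ A, (univ.filter (P z)).card = m) (hB : ∀ z ∈ B, (univ.filter (Q z)).card = k)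
    (hT : ∀ z ∈ A, ∀ y, P z y → T z y ∈ B ∧ Q (T z y) y)
    (hT' : ∀ z ∈ B, ∀ y, Q z y → T z y ∈ A ∧ P (T z y) y)
    (hinv : ∀ z y, T (T z y) y = z) (ψ : Z → ℝ) (D : ℝ)
    (hD : ∀ z ∈ A, ∀ y, P z y → ψ z - ψ (T z y) ≤ D) (hB0 : B.Nonempty) :
    ∑ z ∈ A, ψ z ≤ A.card * ((∑ z ∈ B, ψ z) / B.card + D) := by
  classical
  have key : ∀ g : Z → ℝ, ∑ z ∈ A, ∑ y ∈ univ.filter (P z), g (T z y) = k * ∑ z ∈ B, g z := by
    intro g
    have h1 : k * ∑ z ∈ B, g z = ∑ z ∈ B, ∑ y ∈ univ.filter (Q z), g z := by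
      rw [Finset.mul_sum]
      refine Finset.sum_congr rfl fun z hz => ?_
      rw [Finset.sum_const, hB z hz, nsmul_eq_mul]
    rw [h1, Finset.sum_sigma', Finset.sum_sigma']
    refine Finset.sum_bij' (fun p _ => ⟨T p.1 p.2, p.2⟩) (fun p _ => ⟨T p.1 p.2, p.2⟩)
      ?_ ?_ ?_ ?_ ?_
    · rintro ⟨z, y⟩ hp
      simp only [Finset.mem_sigma, Finset.mem_filter, Finset.mem_univ, true_and] at hp ⊢
      exact hT z hp.1 y hp.2
    · rintro ⟨z, y⟩ hp
      simp only [Finset.mem_sigma, Finset.mem_filter, Finset.mem_univ, true_and] at hp ⊢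
      exact hT' z hp.1 y hp.2
    · rintro ⟨z, y⟩ _; simp [hinv]
    · rintro ⟨z, y⟩ _; simp [hinv]
    · rintro ⟨z, y⟩ _; rfl
  have h1 := key (fun _ => 1)
  have h2 := key ψ
  have h3 : ∑ z ∈ A, ∑ y ∈ univ.filter (P z), (1 : ℝ) = m * A.card := by
    rw [Finset.sum_congr rfl (g := fun _ => (m : ℝ)) (fun z hz => by
      rw [Finset.sum_const, hA z hz, nsmul_eq_mul, mul_one])]
    simp [mul_comm]
  rw [h3] at h1
  simp only [Finset.sum_const, nsmul_eq_mul, mul_one] at h1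
  have h4 : m * ∑ z ∈ A, ψ z ≤ k * ∑ z ∈ B, ψ z + m * A.card * D := by
    rw [← h2, ← h3, Finset.mul_sum, Finset.sum_mul, ← Finset.sum_add_distrib]
    refine Finset.sum_le_sum fun z hz => ?_
    have : (m : ℝ) * ψ z = ∑ y ∈ univ.filter (P z), ψ z := by
      rw [Finset.sum_const, hA z hz, nsmul_eq_mul]
    rw [this, Finset.sum_mul, ← Finset.sum_add_distrib]
    refine Finset.sum_le_sum fun y hy => ?_
    have := hD z hz y (Finset.mem_filter.1 hy).2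
    linarith
  have hBpos : (0 : ℝ) < B.card := by exact_mod_cast hB0.card_pos
  have hmpos : (0 : ℝ) < m := by exact_mod_cast hm
  have h5 : (k : ℝ) * ∑ z ∈ B, ψ z = m * A.card * ((∑ z ∈ B, ψ z) / B.card) := by
    rw [h1]; field_simp
  rw [h5] at h4
  refine le_of_mul_le_mul_left ?_ hmpos
  linarith

variable {ι : Type*} [Fintype ι] [DecidableEq ι]

theorem cnt_swap (σ : ι → Bool) (a b : ι) : cnt (σ ∘ Equiv.swap a b) = cnt σ :=
  Equiv.sum_comp (Equiv.swap a b) fun k => (σ k).toNat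

/-- Pairs of rows with given row sums and column sums. -/
def W2 (ρs ρt : ℕ) (η : ι → ℕ) : Finset ((ι → Bool) × (ι → Bool)) :=
  univ.filter fun p => cnt p.1 = ρs ∧ cnt p.2 = ρt ∧ ∀ k, (p.1 k).toNat + (p.2 k).toNat = η k

theorem mem_W2 {ρs ρt : ℕ} {η : ι → ℕ} {p : (ι → Bool) × (ι → Bool)} : p ∈ W2 ρs ρt η ↔
    cnt p.1 = ρs ∧ cnt p.2 = ρt ∧ ∀ k, (p.1 k).toNat + (p.2 k).toNat = η k := by
  simp [W2]

theorem card_only_right {ρs ρt : ℕ} {η : ι → ℕ} {p : (ι → Bool) × (ι → Bool)}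
    (hp : p ∈ W2 ρs ρt η) : (univ.filter fun y => p.1 y = false ∧ p.2 y = true).card =
      ρt - (univ.filter fun k => η k = 2).card := by
  obtain ⟨-, h2, h3⟩ := mem_W2.1 hp
  have : ρt = (univ.filter fun y => p.1 y = false ∧ p.2 y = true).card +
      (univ.filter fun k => η k = 2).card := by
    rw [← h2, cnt, Finset.card_filter, Finset.card_filter, ← Finset.sum_add_distrib]
    refine Finset.sum_congr rfl fun k _ => ?_
    rw [← h3 k]
    cases p.1 k <;> cases p.2 k <;> simp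
  omega

theorem card_only_left {ρs ρt : ℕ} {η : ι → ℕ} {p : (ι → Bool) × (ι → Bool)}
    (hp : p ∈ W2 ρs ρt η) : (univ.filter fun y => p.1 y = true ∧ p.2 y = false).card =
      ρs - (univ.filter fun k => η k = 2).card := by
  obtain ⟨h2, -, h3⟩ := mem_W2.1 hp
  have : ρs = (univ.filter fun y => p.1 y = true ∧ p.2 y = false).card +
      (univ.filter fun k => η k = 2).card := by
    rw [← h2, cnt, Finset.card_filter, Finset.card_filter, ← Finset.sum_add_distrib]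
    refine Finset.sum_congr rfl fun k _ => ?_
    rw [← h3 k]
    cases p.1 k <;> cases p.2 k <;> simp
  omega

theorem card_two_le {ρs ρt : ℕ} {η : ι → ℕ} {p : (ι → Bool) × (ι → Bool)}
    (hp : p ∈ W2 ρs ρt η) : (univ.filter fun k => η k = 2).card ≤ ρs ∧
      (univ.filter fun k => η k = 2).card ≤ ρt := by
  obtain ⟨h1, h2, h3⟩ := mem_W2.1 hp
  constructor
  · rw [← h1, cnt, Finset.card_filter]
    refine Finset.sum_le_sum fun k _ => ?_
    rw [← h3 k]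
    cases p.1 k <;> cases p.2 k <;> simp
  · rw [← h2, cnt, Finset.card_filter]
    refine Finset.sum_le_sum fun k _ => ?_
    rw [← h3 k]
    cases p.1 k <;> cases p.2 k <;> simp

omit [Fintype ι] in
theorem swap_swap_comp (σ : ι → Bool) (a b : ι) : (σ ∘ Equiv.swap a b) ∘ Equiv.swap a b = σ := by
  funext k; simp

/-- The coupling: moving one unit of column sum from `c` to `c'`. -/
theorem couple (ρs ρt : ℕ) (η η' : ι → ℕ) (c c' : ι) (hcc : c ≠ c') (h1 : η c = 1) (h2 : η c' = 1)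
    (h3 : η' c = 0) (h4 : η' c' = 2) (h5 : ∀ k, k ≠ c → k ≠ c' → η' k = η k)
    (ψ : (ι → Bool) × (ι → Bool) → ℝ) (D : ℝ)
    (hD1 : ∀ p ∈ W2 ρs ρt η, (p.1 ∘ Equiv.swap c c', p.2) ∈ W2 ρs ρt η' →
      ψ p - ψ (p.1 ∘ Equiv.swap c c', p.2) ≤ D)
    (hD2 : ∀ p ∈ W2 ρs ρt η, (p.1, p.2 ∘ Equiv.swap c c') ∈ W2 ρs ρt η' →
      ψ p - ψ (p.1, p.2 ∘ Equiv.swap c c') ≤ D)
    (hD3 : ∀ p ∈ W2 ρs ρt η, ∀ y, y ≠ c → y ≠ c' → η y = 1 →
      (p.1 ∘ Equiv.swap c y, p.2 ∘ Equiv.swap c' y) ∈ W2 ρs ρt η' →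
      ψ p - ψ (p.1 ∘ Equiv.swap c y, p.2 ∘ Equiv.swap c' y) ≤ D)
    (hD4 : ∀ p ∈ W2 ρs ρt η, ∀ y, y ≠ c → y ≠ c' → η y = 1 →
      (p.1 ∘ Equiv.swap c' y, p.2 ∘ Equiv.swap c y) ∈ W2 ρs ρt η' →
      ψ p - ψ (p.1 ∘ Equiv.swap c' y, p.2 ∘ Equiv.swap c y) ≤ D)
    (hne : (W2 ρs ρt η').Nonempty) :
    ∑ p ∈ W2 ρs ρt η, ψ p ≤ (W2 ρs ρt η).card *
      ((∑ p ∈ W2 ρs ρt η', ψ p) / (W2 ρs ρt η').card + D) := by
  obtain ⟨E, hE⟩ : ∃ E, E = (∑ p ∈ W2 ρs ρt η', ψ p) / (W2 ρs ρt η').card + D := ⟨_, rfl⟩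
  have hcc' := hcc.symm
  have hlt : (univ.filter fun k => η k = 2).card < (univ.filter fun k => η' k = 2).card := by
    apply Finset.card_lt_card
    rw [Finset.ssubset_iff_of_subset]
    · exact ⟨c', by simp [h4], by simp [h2]⟩
    · intro k hk
      simp only [Finset.mem_filter, Finset.mem_univ, true_and] at hk ⊢
      rw [h5 k (by rintro rfl; omega) (by rintro rfl; omega), hk]
  obtain ⟨p0, hp0⟩ := hne
  have hle := card_two_le hp0
  -- facts on members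
  have fW : ∀ p ∈ W2 ρs ρt η, (p.2 c = !p.1 c) ∧ (p.2 c' = !p.1 c') := by
    intro p hp
    have a1 := (mem_W2.1 hp).2.2 c
    have a2 := (mem_W2.1 hp).2.2 c'
    rw [h1] at a1; rw [h2] at a2
    revert a1 a2
    cases p.1 c <;> cases p.2 c <;> cases p.1 c' <;> cases p.2 c' <;> simp
  have fW' : ∀ p ∈ W2 ρs ρt η', p.1 c = false ∧ p.2 c = false ∧ p.1 c' = true ∧ p.2 c' = true := by
    intro p hp
    have a1 := (mem_W2.1 hp).2.2 c
    have a2 := (mem_W2.1 hp).2.2 c'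
    rw [h3] at a1; rw [h4] at a2
    revert a1 a2
    cases p.1 c <;> cases p.2 c <;> cases p.1 c' <;> cases p.2 c' <;> simp
  have fwd10 : ∀ p ∈ W2 ρs ρt η, p.1 c = true → p.1 c' = false →
      (p.1 ∘ Equiv.swap c c', p.2) ∈ W2 ρs ρt η' := by
    intro p hp a1 a2
    obtain ⟨b1, b2⟩ := fW p hp
    obtain ⟨q1, q2, q3⟩ := mem_W2.1 hp
    refine mem_W2.2 ⟨by rw [cnt_swap, q1], q2, fun k => ?_⟩
    by_cases k1 : k = c
    · subst k1; simp [*]
    by_cases k2 : k = c'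
    · subst k2; simp [*]
    simp [Equiv.swap_apply_of_ne_of_ne k1 k2, h5 k k1 k2, q3]
  have bwd10 : ∀ p ∈ W2 ρs ρt η', (p.1 ∘ Equiv.swap c c', p.2) ∈ W2 ρs ρt η := by
    intro p hp
    obtain ⟨b1, b2, b3, b4⟩ := fW' p hp
    obtain ⟨q1, q2, q3⟩ := mem_W2.1 hp
    refine mem_W2.2 ⟨by rw [cnt_swap, q1], q2, fun k => ?_⟩
    by_cases k1 : k = c
    · subst k1; simp [*]
    by_cases k2 : k = c'
    · subst k2; simp [*]
    simp [Equiv.swap_apply_of_ne_of_ne k1 k2, ← h5 k k1 k2, q3]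
  have fwd01 : ∀ p ∈ W2 ρs ρt η, p.1 c = false → p.1 c' = true →
      (p.1, p.2 ∘ Equiv.swap c c') ∈ W2 ρs ρt η' := by
    intro p hp a1 a2
    obtain ⟨b1, b2⟩ := fW p hp
    obtain ⟨q1, q2, q3⟩ := mem_W2.1 hp
    refine mem_W2.2 ⟨q1, by rw [cnt_swap, q2], fun k => ?_⟩
    by_cases k1 : k = c
    · subst k1; simp [*]
    by_cases k2 : k = c'
    · subst k2; simp [*]
    simp [Equiv.swap_apply_of_ne_of_ne k1 k2, h5 k k1 k2, q3]
  have bwd01 : ∀ p ∈ W2 ρs ρt η', (p.1, p.2 ∘ Equiv.swap c c') ∈ W2 ρs ρt η := by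
    intro p hp
    obtain ⟨b1, b2, b3, b4⟩ := fW' p hp
    obtain ⟨q1, q2, q3⟩ := mem_W2.1 hp
    refine mem_W2.2 ⟨q1, by rw [cnt_swap, q2], fun k => ?_⟩
    by_cases k1 : k = c
    · subst k1; simp [*]
    by_cases k2 : k = c'
    · subst k2; simp [*]
    simp [Equiv.swap_apply_of_ne_of_ne k1 k2, ← h5 k k1 k2, q3]
  have fwd11 : ∀ p ∈ W2 ρs ρt η, p.1 c = true → p.1 c' = true → ∀ y, p.1 y = false →
      p.2 y = true → y ≠ c ∧ y ≠ c' ∧ η y = 1 ∧
        (p.1 ∘ Equiv.swap c y, p.2 ∘ Equiv.swap c' y) ∈ W2 ρs ρt η' := by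
    intro p hp a1 a2 y a3 a4
    obtain ⟨b1, b2⟩ := fW p hp
    obtain ⟨q1, q2, q3⟩ := mem_W2.1 hp
    have y1 : y ≠ c := by rintro rfl; simp [a1] at a3
    have y2 : y ≠ c' := by rintro rfl; simp [a2] at a3
    have y3 : η y = 1 := by rw [← q3 y, a3, a4]; rfl
    refine ⟨y1, y2, y3, mem_W2.2 ⟨by rw [cnt_swap, q1], by rw [cnt_swap, q2], fun k => ?_⟩⟩
    by_cases k1 : k = c
    · subst k1; simp [Equiv.swap_apply_of_ne_of_ne hcc y1.symm, *]
    by_cases k2 : k = c'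
    · subst k2; simp [Equiv.swap_apply_of_ne_of_ne hcc' y2.symm, *]
    by_cases k3 : k = y
    · subst k3; simp [h5 k k1 k2, *]
    simp [Equiv.swap_apply_of_ne_of_ne k1 k3, Equiv.swap_apply_of_ne_of_ne k2 k3, h5 k k1 k2, q3]
  have bwd11 : ∀ p ∈ W2 ρs ρt η', ∀ y, p.1 y = true → p.2 y = false → y ≠ c ∧ y ≠ c' ∧
        (p.1 ∘ Equiv.swap c y, p.2 ∘ Equiv.swap c' y) ∈ W2 ρs ρt η := by
    intro p hp y a3 a4
    obtain ⟨b1, b2, b3, b4⟩ := fW' p hp
    obtain ⟨q1, q2, q3⟩ := mem_W2.1 hp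
    have y1 : y ≠ c := by rintro rfl; simp [b1] at a3
    have y2 : y ≠ c' := by rintro rfl; simp [b4] at a4
    have y3 : η y = 1 := by rw [← h5 y y1 y2, ← q3 y, a3, a4]; rfl
    refine ⟨y1, y2, mem_W2.2 ⟨by rw [cnt_swap, q1], by rw [cnt_swap, q2], fun k => ?_⟩⟩
    by_cases k1 : k = c
    · subst k1; simp [Equiv.swap_apply_of_ne_of_ne hcc y1.symm, *]
    by_cases k2 : k = c'
    · subst k2; simp [Equiv.swap_apply_of_ne_of_ne hcc' y2.symm, *]
    by_cases k3 : k = y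
    · subst k3; simp [*]
    simp [Equiv.swap_apply_of_ne_of_ne k1 k3, Equiv.swap_apply_of_ne_of_ne k2 k3, ← h5 k k1 k2, q3]
  have fwd00 : ∀ p ∈ W2 ρs ρt η, p.1 c = false → p.1 c' = false → ∀ y, p.1 y = true →
      p.2 y = false → y ≠ c ∧ y ≠ c' ∧ η y = 1 ∧
        (p.1 ∘ Equiv.swap c' y, p.2 ∘ Equiv.swap c y) ∈ W2 ρs ρt η' := by
    intro p hp a1 a2 y a3 a4
    obtain ⟨b1, b2⟩ := fW p hp
    obtain ⟨q1, q2, q3⟩ := mem_W2.1 hp
    have y1 : y ≠ c := by rintro rfl; simp [a1] at a3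
    have y2 : y ≠ c' := by rintro rfl; simp [a2] at a3
    have y3 : η y = 1 := by rw [← q3 y, a3, a4]; rfl
    refine ⟨y1, y2, y3, mem_W2.2 ⟨by rw [cnt_swap, q1], by rw [cnt_swap, q2], fun k => ?_⟩⟩
    by_cases k1 : k = c
    · subst k1; simp [Equiv.swap_apply_of_ne_of_ne hcc y1.symm, *]
    by_cases k2 : k = c'
    · subst k2; simp [Equiv.swap_apply_of_ne_of_ne hcc' y2.symm, *]
    by_cases k3 : k = y
    · subst k3; simp [h5 k k1 k2, *]
    simp [Equiv.swap_apply_of_ne_of_ne k1 k3, Equiv.swap_apply_of_ne_of_ne k2 k3, h5 k k1 k2, q3]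
  have bwd00 : ∀ p ∈ W2 ρs ρt η', ∀ y, p.1 y = false → p.2 y = true → y ≠ c ∧ y ≠ c' ∧
        (p.1 ∘ Equiv.swap c' y, p.2 ∘ Equiv.swap c y) ∈ W2 ρs ρt η := by
    intro p hp y a3 a4
    obtain ⟨b1, b2, b3, b4⟩ := fW' p hp
    obtain ⟨q1, q2, q3⟩ := mem_W2.1 hp
    have y1 : y ≠ c := by rintro rfl; simp [b2] at a4
    have y2 : y ≠ c' := by rintro rfl; simp [b3] at a3
    have y3 : η y = 1 := by rw [← h5 y y1 y2, ← q3 y, a3, a4]; rfl
    refine ⟨y1, y2, mem_W2.2 ⟨by rw [cnt_swap, q1], by rw [cnt_swap, q2], fun k => ?_⟩⟩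
    by_cases k1 : k = c
    · subst k1; simp [Equiv.swap_apply_of_ne_of_ne hcc y1.symm, *]
    by_cases k2 : k = c'
    · subst k2; simp [Equiv.swap_apply_of_ne_of_ne hcc' y2.symm, *]
    by_cases k3 : k = y
    · subst k3; simp [*]
    simp [Equiv.swap_apply_of_ne_of_ne k1 k3, Equiv.swap_apply_of_ne_of_ne k2 k3, ← h5 k k1 k2, q3]
  have g10 := bireg (Y := Unit) ((W2 ρs ρt η).filter fun p => p.1 c = true ∧ p.1 c' = false)
    (W2 ρs ρt η') (fun _ _ => True) (fun _ _ => True) (fun p _ => (p.1 ∘ Equiv.swap c c', p.2))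
    1 1 one_pos (by simp) (by simp)
    (fun p hp _ _ => by
      rw [Finset.mem_filter] at hp; exact ⟨fwd10 p hp.1 hp.2.1 hp.2.2, trivial⟩)
    (fun p hp _ _ => by
      obtain ⟨b1, b2, b3, b4⟩ := fW' p hp
      exact ⟨Finset.mem_filter.2 ⟨bwd10 p hp, by simp [*], by simp [*]⟩, trivial⟩)
    (fun p _ => by simp [swap_swap_comp]) ψ D
    (fun p hp _ _ => by
      rw [Finset.mem_filter] at hp; exact hD1 p hp.1 (fwd10 p hp.1 hp.2.1 hp.2.2)) ⟨p0, hp0⟩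
  have g01 := bireg (Y := Unit) ((W2 ρs ρt η).filter fun p => p.1 c = false ∧ p.1 c' = true)
    (W2 ρs ρt η') (fun _ _ => True) (fun _ _ => True) (fun p _ => (p.1, p.2 ∘ Equiv.swap c c'))
    1 1 one_pos (by simp) (by simp)
    (fun p hp _ _ => by
      rw [Finset.mem_filter] at hp; exact ⟨fwd01 p hp.1 hp.2.1 hp.2.2, trivial⟩)
    (fun p hp _ _ => by
      obtain ⟨b1, b2, b3, b4⟩ := fW' p hp
      exact ⟨Finset.mem_filter.2 ⟨bwd01 p hp, by simp [*], by simp [*]⟩, trivial⟩)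
    (fun p _ => by simp [swap_swap_comp]) ψ D
    (fun p hp _ _ => by
      rw [Finset.mem_filter] at hp; exact hD2 p hp.1 (fwd01 p hp.1 hp.2.1 hp.2.2)) ⟨p0, hp0⟩
  have g11 := bireg (Y := ι) ((W2 ρs ρt η).filter fun p => p.1 c = true ∧ p.1 c' = true)
    (W2 ρs ρt η') (fun p y => p.1 y = false ∧ p.2 y = true)
    (fun p y => p.1 y = true ∧ p.2 y = false)
    (fun p y => (p.1 ∘ Equiv.swap c y, p.2 ∘ Equiv.swap c' y))
    (ρt - (univ.filter fun k => η k = 2).card) (ρs - (univ.filter fun k => η' k = 2).card)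
    (by omega) (fun p hp => card_only_right (Finset.mem_filter.1 hp).1)
    (fun p hp => card_only_left hp)
    (fun p hp y hy => by
      rw [Finset.mem_filter] at hp
      obtain ⟨y1, y2, y3, y4⟩ := fwd11 p hp.1 hp.2.1 hp.2.2 y hy.1 hy.2
      obtain ⟨b1, b2⟩ := fW p hp.1
      exact ⟨y4, by simp [hp.2.1], by simp [b2, hp.2.2]⟩)
    (fun p hp y hy => by
      obtain ⟨b1, b2, b3, b4⟩ := fW' p hp
      obtain ⟨y1, y2, y4⟩ := bwd11 p hp y hy.1 hy.2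
      exact ⟨Finset.mem_filter.2 ⟨y4, by simp [hy.1],
        by simp [Equiv.swap_apply_of_ne_of_ne hcc' y2.symm, b3]⟩, by simp [b1], by simp [b4]⟩)
    (fun p _ => by simp [swap_swap_comp]) ψ D
    (fun p hp y hy => by
      rw [Finset.mem_filter] at hp
      obtain ⟨y1, y2, y3, y4⟩ := fwd11 p hp.1 hp.2.1 hp.2.2 y hy.1 hy.2
      exact hD3 p hp.1 y y1 y2 y3 y4) ⟨p0, hp0⟩
  have g00 := bireg (Y := ι) ((W2 ρs ρt η).filter fun p => p.1 c = false ∧ p.1 c' = false)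
    (W2 ρs ρt η') (fun p y => p.1 y = true ∧ p.2 y = false)
    (fun p y => p.1 y = false ∧ p.2 y = true)
    (fun p y => (p.1 ∘ Equiv.swap c' y, p.2 ∘ Equiv.swap c y))
    (ρs - (univ.filter fun k => η k = 2).card) (ρt - (univ.filter fun k => η' k = 2).card)
    (by omega) (fun p hp => card_only_left (Finset.mem_filter.1 hp).1)
    (fun p hp => card_only_right hp)
    (fun p hp y hy => by
      rw [Finset.mem_filter] at hp
      obtain ⟨y1, y2, y3, y4⟩ := fwd00 p hp.1 hp.2.1 hp.2.2 y hy.1 hy.2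
      obtain ⟨b1, b2⟩ := fW p hp.1
      exact ⟨y4, by simp [hp.2.2], by simp [b1, hp.2.1]⟩)
    (fun p hp y hy => by
      obtain ⟨b1, b2, b3, b4⟩ := fW' p hp
      obtain ⟨y1, y2, y4⟩ := bwd00 p hp y hy.1 hy.2
      exact ⟨Finset.mem_filter.2 ⟨y4,
        by simp [Equiv.swap_apply_of_ne_of_ne hcc y1.symm, b1], by simp [hy.1]⟩,
        by simp [b3], by simp [b2]⟩)
    (fun p _ => by simp [swap_swap_comp]) ψ D
    (fun p hp y hy => by
      rw [Finset.mem_filter] at hp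
      obtain ⟨y1, y2, y3, y4⟩ := fwd00 p hp.1 hp.2.1 hp.2.2 y hy.1 hy.2
      exact hD4 p hp.1 y y1 y2 y3 y4) ⟨p0, hp0⟩
  · rw [← hE] at g10 g01 g11 g00 ⊢
    have split : ∀ g : (ι → Bool) × (ι → Bool) → ℝ, ∑ p ∈ W2 ρs ρt η, g p =
        ∑ p ∈ (W2 ρs ρt η).filter (fun p => p.1 c = true ∧ p.1 c' = false), g p +
        ∑ p ∈ (W2 ρs ρt η).filter (fun p => p.1 c = false ∧ p.1 c' = true), g p +
        ∑ p ∈ (W2 ρs ρt η).filter (fun p => p.1 c = true ∧ p.1 c' = true), g p +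
        ∑ p ∈ (W2 ρs ρt η).filter (fun p => p.1 c = false ∧ p.1 c' = false), g p := by
      intro g
      simp only [Finset.sum_filter, ← Finset.sum_add_distrib]
      refine Finset.sum_congr rfl fun p _ => ?_
      cases p.1 c <;> cases p.1 c' <;> simp
    have s1 := split (fun _ => 1)
    simp only [Finset.sum_const, nsmul_eq_mul, mul_one] at s1
    rw [split ψ, s1]
    linarith

end Crest.Agent.R299
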