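import Crest.Agent.R299.Graph

/-!
Two disjoint pairs of vertices: the lower bound for the inner product of the two projections.
-/

set_option autoImplicit false
set_option linter.unusedSectionVars false
open Finset

namespace Crest.Agent.R299

theorem pat_count (x1 x2 x3 x4 y1 y2 y3 y4 : Bool)
    (h : x1.toNat + x3.toNat + (x2.toNat + x4.toNat) =
      y1.toNat + y3.toNat + (y2.toNat + y4.toNat)) :
    (univ.filter fun p : Bool × Bool × Bool × Bool =>
      p.1.toNat + p.2.1.toNat = y1.toNat + y2.toNat ∧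
      p.2.2.1.toNat + p.2.2.2.toNat = y3.toNat + y4.toNat ∧
      p.1.toNat + p.2.2.1.toNat = x1.toNat + x3.toNat ∧
      p.2.1.toNat + p.2.2.2.toNat = x2.toNat + x4.toNat).card =
    (if (x1 ≠ x3 ∧ x2 ≠ x4) ∨ x1.toNat + x3.toNat + (x2.toNat + x4.toNat) ≠ 2 then 1 else 0) +
      (if y1 ≠ y2 ∧ y3 ≠ y4 then 1 else 0) := by
  revert x1 x2 x3 x4 y1 y2 y3 y4
  decide

variable {V : Type*} [Fintype V] [DecidableEq V] {d : V → ℕ}

/-- The graph with pattern `p` between `{i, j}` and `{k, l}`, the other cells crossing `{i, j}`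
taken from `y` and all remaining cells from `x`. -/
def glue (i j k l : V) (x y : V → V → Bool) (p : Bool × Bool × Bool × Bool) : V → V → Bool :=
  fun u v =>
    if (u = i ∧ v = k) ∨ (u = k ∧ v = i) then p.1
    else if (u = i ∧ v = l) ∨ (u = l ∧ v = i) then p.2.1
    else if (u = j ∧ v = k) ∨ (u = k ∧ v = j) then p.2.2.1
    else if (u = j ∧ v = l) ∨ (u = l ∧ v = j) then p.2.2.2
    else if ((u = i ∨ u = j) ↔ (v = i ∨ v = j)) then x u v else y u v

/-- The data fixed by trades in both pairs. -/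
def key2 (i j k l : V) (A : Gr d) : (V → V → Bool) × (V → ℕ) × ℕ :=
  (fun u v => if ((u = i ∨ u = j) ↔ (v = i ∨ v = j)) ∧ ((u = k ∨ u = l) ↔ (v = k ∨ v = l))
      then A.1 u v else false,
    fun c => if c ≠ i ∧ c ≠ j ∧ c ≠ k ∧ c ≠ l then (A.1 i c).toNat + (A.1 j c).toNat else 0,
    (A.1 i k).toNat + (A.1 j k).toNat + ((A.1 i l).toNat + (A.1 j l).toNat))

theorem key2_eq_iff {i j k l : V} {A B : Gr d} : key2 i j k l A = key2 i j k l B ↔
    (∀ u v, ((u = i ∨ u = j) ↔ (v = i ∨ v = j)) → ((u = k ∨ u = l) ↔ (v = k ∨ v = l)) →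
      A.1 u v = B.1 u v) ∧
    (∀ c, c ≠ i → c ≠ j → c ≠ k → c ≠ l →
      (A.1 i c).toNat + (A.1 j c).toNat = (B.1 i c).toNat + (B.1 j c).toNat) ∧
    (A.1 i k).toNat + (A.1 j k).toNat + ((A.1 i l).toNat + (A.1 j l).toNat) =
      (B.1 i k).toNat + (B.1 j k).toNat + ((B.1 i l).toNat + (B.1 j l).toNat) := by
  unfold key2
  rw [Prod.mk.injEq, Prod.mk.injEq]
  refine and_congr ?_ (and_congr ?_ Iff.rfl)
  · constructor
    · intro h u v h1 h2
      have := congrFun (congrFun h u) v
      rwa [if_pos ⟨h1, h2⟩, if_pos ⟨h1, h2⟩] at this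
    · intro h; funext u v
      split_ifs with h1
      · exact h u v h1.1 h1.2
      · rfl
  · constructor
    · intro h c h1 h2 h3 h4
      have := congrFun h c
      rwa [if_pos ⟨h1, h2, h3, h4⟩, if_pos ⟨h1, h2, h3, h4⟩] at this
    · intro h; funext c
      split_ifs with h1
      · exact h c h1.1 h1.2.1 h1.2.2.1 h1.2.2.2
      · rfl

section dist
variable {i j k l : V} (h1 : i ≠ j) (h2 : k ≠ l) (h3 : k ≠ i) (h4 : k ≠ j) (h5 : l ≠ i)
  (h6 : l ≠ j)
include h1 h2 h3 h4 h5 h6

theorem isGr_glue {x y : Gr d} (hxy : key2 i j k l x = key2 i j k l y)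
    {p : Bool × Bool × Bool × Bool}
    (p1 : p.1.toNat + p.2.1.toNat = (y.1 i k).toNat + (y.1 i l).toNat)
    (p2 : p.2.2.1.toNat + p.2.2.2.toNat = (y.1 j k).toNat + (y.1 j l).toNat)
    (p3 : p.1.toNat + p.2.2.1.toNat = (x.1 i k).toNat + (x.1 j k).toNat)
    (p4 : p.2.1.toNat + p.2.2.2.toNat = (x.1 i l).toNat + (x.1 j l).toNat) :
    IsGr d (glue i j k l x.1 y.1 p) := by
  obtain ⟨a1, a2, -⟩ := key2_eq_iff.1 hxy
  have h1' := h1.symm; have h2' := h2.symm; have h3' := h3.symm; have h4' := h4.symm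
  have h5' := h5.symm; have h6' := h6.symm
  refine ⟨fun u v => ?_, fun v => ?_, fun v => ?_⟩
  · unfold glue
    rw [x.2.symm u v, y.2.symm u v]
    refine if_congr (by tauto) rfl (if_congr (by tauto) rfl (if_congr (by tauto) rfl
      (if_congr (by tauto) rfl (if_congr Iff.comm rfl rfl))))
  · unfold glue
    rw [if_neg, if_neg, if_neg, if_neg, if_pos Iff.rfl, x.2.diag] <;>
      rintro (⟨rfl, h⟩ | ⟨rfl, h⟩) <;> simp_all
  · by_cases hv : v = i ∨ v = j
    · have := cnt_two (σ := glue i j k l x.1 y.1 p v) (τ := y.1 v) h2 (fun w w1 w2 => by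
        by_cases hw : w = i ∨ w = j
        · rw [← a1 v w (by simp [hv, hw]) (by
            rcases hv with rfl | rfl <;> simp [*])]
          rcases hv with rfl | rfl <;> simp [glue, *]
        · rcases hv with rfl | rfl <;> simp [glue, *])
      have e : (glue i j k l x.1 y.1 p v k).toNat + (glue i j k l x.1 y.1 p v l).toNat =
          (y.1 v k).toNat + (y.1 v l).toNat := by
        rcases hv with rfl | rfl
        · simp [glue, *]
        · simp [glue, *]
      rw [y.2.deg] at this
      omega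
    push Not at hv
    obtain ⟨v1, v2⟩ := hv
    have := cnt_two (σ := glue i j k l x.1 y.1 p v) (τ := x.1 v) h1 (fun w w1 w2 => by
      simp [glue, *])
    have e : (glue i j k l x.1 y.1 p v i).toNat + (glue i j k l x.1 y.1 p v j).toNat =
        (x.1 v i).toNat + (x.1 v j).toNat := by
      rw [x.2.symm v i, x.2.symm v j]
      by_cases v3 : v = k
      · subst v3; simp [glue, *]
      by_cases v4 : v = l
      · subst v4; simp [glue, *]
      rw [a2 v v1 v2 v3 v4, y.2.symm i v, y.2.symm j v]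
      simp [glue, *]
    rw [x.2.deg] at this
    omega

theorem key2_of_key_left (x y : Gr d) (h : key i j x = key i j y) :
    key2 i j k l x = key2 i j k l y := by
  refine key2_eq_iff.2 ⟨fun u v a _ => key_eq_iff.1 h u v a,
    fun c a b _ _ => colsum_of_key h1 h a b, ?_⟩
  rw [colsum_of_key h1 h h3 h4, colsum_of_key h1 h h5 h6]

theorem key2_of_key_right (x y : Gr d) (h : key k l x = key k l y) :
    key2 i j k l x = key2 i j k l y := by
  refine key2_eq_iff.2 ⟨fun u v _ a => key_eq_iff.1 h u v a, fun c _ _ a b => ?_, ?_⟩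
  · rw [key_eq_iff.1 h i c (by simp [h3.symm, h5.symm, a, b]),
      key_eq_iff.1 h j c (by simp [h4.symm, h6.symm, a, b])]
  · have e1 := colsum_of_key h2 h h3.symm h5.symm
    have e2 := colsum_of_key h2 h h4.symm h6.symm
    rw [x.2.symm k, x.2.symm l, y.2.symm k, y.2.symm l] at e1 e2
    omega

theorem four_count (x y : Gr d) (hxy : key2 i j k l x = key2 i j k l y) :
    ∑ z ∈ fib (key i j) (key i j x), ind (fun z : Gr d => key k l z = key k l y) z =
      ind (fun A : Gr d => (A.1 i k ≠ A.1 j k ∧ A.1 i l ≠ A.1 j l) ∨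
        (A.1 i k).toNat + (A.1 j k).toNat + ((A.1 i l).toNat + (A.1 j l).toNat) ≠ 2) x +
      ind (fun A : Gr d => A.1 i k ≠ A.1 i l ∧ A.1 j k ≠ A.1 j l) y := by
  classical
  obtain ⟨a1, a2, a3⟩ := key2_eq_iff.1 hxy
  have h1' := h1.symm; have h2' := h2.symm; have h3' := h3.symm; have h4' := h4.symm
  have h5' := h5.symm; have h6' := h6.symm
  have hc := pat_count (x.1 i k) (x.1 i l) (x.1 j k) (x.1 j l) (y.1 i k) (y.1 i l) (y.1 j k)
    (y.1 j l) a3
  have e1 : ∑ z ∈ fib (key i j) (key i j x), ind (fun z : Gr d => key k l z = key k l y) z =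
      (((fib (key i j) (key i j x)).filter fun z : Gr d => key k l z = key k l y).card : ℝ) := by
    rw [Finset.card_filter]
    push_cast
    refine Finset.sum_congr rfl fun z _ => ?_
    unfold ind; congr
  have e2 : ((fib (key i j) (key i j x)).filter fun z : Gr d => key k l z = key k l y).card =
      (univ.filter fun p : Bool × Bool × Bool × Bool =>
      p.1.toNat + p.2.1.toNat = (y.1 i k).toNat + (y.1 i l).toNat ∧
      p.2.2.1.toNat + p.2.2.2.toNat = (y.1 j k).toNat + (y.1 j l).toNat ∧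
      p.1.toNat + p.2.2.1.toNat = (x.1 i k).toNat + (x.1 j k).toNat ∧
      p.2.1.toNat + p.2.2.2.toNat = (x.1 i l).toNat + (x.1 j l).toNat).card := by
    refine Finset.card_bij' (fun z _ => (z.1 i k, z.1 i l, z.1 j k, z.1 j l))
      (fun p hp => ⟨glue i j k l x.1 y.1 p, by
        simp only [Finset.mem_filter, Finset.mem_univ, true_and] at hp
        exact isGr_glue h1 h2 h3 h4 h5 h6 hxy hp.1 hp.2.1 hp.2.2.1 hp.2.2.2⟩) ?_ ?_ ?_ ?_
    · intro z hz
      simp only [Finset.mem_filter, mem_fib, Finset.mem_univ, true_and] at hz ⊢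
      have b1 := colsum_of_key h2 hz.2 h3' h5'
      have b2 := colsum_of_key h2 hz.2 h4' h6'
      rw [z.2.symm k, z.2.symm l, y.2.symm k, y.2.symm l] at b1 b2
      exact ⟨b1, b2, colsum_of_key h1 hz.1 h3 h4, colsum_of_key h1 hz.1 h5 h6⟩
    · intro p hp
      simp only [Finset.mem_filter, mem_fib]
      constructor
      · rw [key_eq_iff]
        intro u v huv
        show glue i j k l x.1 y.1 p u v = x.1 u v
        unfold glue
        rw [if_neg, if_neg, if_neg, if_neg, if_pos huv] <;>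
          rintro (⟨rfl, rfl⟩ | ⟨rfl, rfl⟩) <;> simp_all
      · rw [key_eq_iff]
        intro u v huv
        show glue i j k l x.1 y.1 p u v = y.1 u v
        unfold glue
        rw [if_neg, if_neg, if_neg, if_neg]
        · split_ifs with h
          · exact a1 u v h huv
          · rfl
        all_goals rintro (⟨rfl, rfl⟩ | ⟨rfl, rfl⟩) <;> simp_all
    · intro z hz
      simp only [Finset.mem_filter, mem_fib] at hz
      apply Subtype.ext; funext u v
      show glue i j k l x.1 y.1 _ u v = z.1 u v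
      unfold glue
      split_ifs with c1 c2 c3 c4 c5
      · rcases c1 with ⟨rfl, rfl⟩ | ⟨rfl, rfl⟩
        · rfl
        · exact z.2.symm _ _
      · rcases c2 with ⟨rfl, rfl⟩ | ⟨rfl, rfl⟩
        · rfl
        · exact z.2.symm _ _
      · rcases c3 with ⟨rfl, rfl⟩ | ⟨rfl, rfl⟩
        · rfl
        · exact z.2.symm _ _
      · rcases c4 with ⟨rfl, rfl⟩ | ⟨rfl, rfl⟩
        · rfl
        · exact z.2.symm _ _
      · exact (key_eq_iff.1 hz.1 u v c5).symm
      · refine (key_eq_iff.1 hz.2 u v ?_).symm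
        by_cases hu : u = i ∨ u = j
        · rcases hu with rfl | rfl <;> simp_all
        · have hv : v = i ∨ v = j := by tauto
          rcases hv with rfl | rfl <;> simp_all
    · intro p hp
      simp [glue, *]
  rw [e1, e2, hc]
  push_cast
  unfold ind
  congr

/-- Two disjoint pairs. -/
theorem four_ineq (f : Gr d → ℝ) :
    (1 / 4) * ∑ A, (f A - f (swi i j k l A)) ^ 2 - (1 / 2) *
      (∑ A, lossAt (key i j) (Alt i j k l) (hh (key i j) f) A +
        ∑ A, lossAt (key k l) (Alt k l i j) (hh (key k l) f) A) ≤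
      ip (hh (key i j) f) (hh (key k l) f) := by
  have := block_ineq (key2 i j k l) (key i j) (key k l)
    (fun A : Gr d => (A.1 i k ≠ A.1 j k ∧ A.1 i l ≠ A.1 j l) ∨
        (A.1 i k).toNat + (A.1 j k).toNat + ((A.1 i l).toNat + (A.1 j l).toNat) ≠ 2)
    (fun A : Gr d => A.1 i k ≠ A.1 i l ∧ A.1 j k ≠ A.1 j l)
    (key2_of_key_left h1 h2 h3 h4 h5 h6) (key2_of_key_right h1 h2 h3 h4 h5 h6)
    (fun x y h => by
      have b1 := colsum_of_key h1 h h3 h4
      have b2 := colsum_of_key h1 h h5 h6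
      revert b1 b2
      cases x.1 i k <;> cases x.1 j k <;> cases x.1 i l <;> cases x.1 j l <;>
        cases y.1 i k <;> cases y.1 j k <;> cases y.1 i l <;> cases y.1 j l <;> simp)
    (fun x y h => by
      have b1 := colsum_of_key h2 h h3.symm h5.symm
      have b2 := colsum_of_key h2 h h4.symm h6.symm
      rw [x.2.symm k, x.2.symm l, y.2.symm k, y.2.symm l] at b1 b2
      revert b1 b2
      cases x.1 i k <;> cases x.1 j k <;> cases x.1 i l <;> cases x.1 j l <;>
        cases y.1 i k <;> cases y.1 j k <;> cases y.1 i l <;> cases y.1 j l <;> simp)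
    (four_count h1 h2 h3 h4 h5 h6) (swi i j k l) (swi_invol i j k l) (key_swi_left i j k l)
    (key_swi_right i j k l) f
  have e : (fun A : Gr d => ((A.1 i k ≠ A.1 j k ∧ A.1 i l ≠ A.1 j l) ∨
        (A.1 i k).toNat + (A.1 j k).toNat + ((A.1 i l).toNat + (A.1 j l).toNat) ≠ 2) ∧
      (A.1 i k ≠ A.1 i l ∧ A.1 j k ≠ A.1 j l)) = Alt i j k l := by
    funext A
    apply propext
    unfold Alt
    simp only [h1, h2, h3, h4, h5, h6, ne_eq, not_false_eq_true, and_self, true_and]
    cases A.1 i k <;> cases A.1 j k <;> cases A.1 i l <;> cases A.1 j l <;> simp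
  rw [e] at this
  rw [← alt_comm i j k l]
  exact this

end dist

end Crest.Agent.R299
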