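import Crest.Agent.R299.Couple

/-!
The three-row inequality: for 0-1 arrays with three rows and prescribed margins, the three
projections `h r = 1 - E[· | row r]` satisfy `L ≤ L²` for `L = h 0 + h 1 + h 2`.
-/

set_option autoImplicit false
open Finset

namespace Crest.Agent.R299

theorem abs_avg_le {Ω K : Type*} [Fintype Ω] (κ : Ω → K) (g : Ω → ℝ) (x : Ω) (m : ℝ)
    (h : ∀ y, κ y = κ x → |g y| ≤ m) : |avg κ g x| ≤ m := by
  have hpos : (0 : ℝ) < (fib κ (κ x)).card := by exact_mod_cast card_fib_pos κ x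
  rw [avg_apply, avgK, abs_div, abs_of_pos hpos, div_le_iff₀ hpos]
  refine (Finset.abs_sum_le_sum_abs _ _).trans ?_
  refine (Finset.sum_le_sum (g := fun _ => m) fun y hy => h y (mem_fib.1 hy)).trans ?_
  simp [mul_comm]

variable {ι : Type*} [Fintype ι] [DecidableEq ι]

/-- Three rows with prescribed row sums and column sums. -/
def Feas3 (ρ : Fin 3 → ℕ) (κ : ι → ℕ) (M : Fin 3 → ι → Bool) : Prop :=
  (∀ r, cnt (M r) = ρ r) ∧ ∀ c, ∑ r, (M r c).toNat = κ c

/-- The type of feasible three-row arrays. -/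
abbrev Tri (ρ : Fin 3 → ℕ) (κ : ι → ℕ) := {M : Fin 3 → ι → Bool // Feas3 ρ κ M}

noncomputable instance instFintypeTri (ρ : Fin 3 → ℕ) (κ : ι → ℕ) : Fintype (Tri ρ κ) :=
  Fintype.ofFinite _

variable {ρ : Fin 3 → ℕ} {κ : ι → ℕ}

/-- The row `r` of an array. -/
def row (r : Fin 3) (M : Tri ρ κ) : ι → Bool := M.1 r

theorem sum3 {β : Type*} [AddCommMonoid β] (r : Fin 3) (g : Fin 3 → β) :
    ∑ i, g i = g r + g (r + 1) + g (r + 2) := by
  rw [Fin.sum_univ_three]
  fin_cases r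
  · rfl
  · show g 0 + g 1 + g 2 = g 1 + g 2 + g 0
    abel
  · show g 0 + g 1 + g 2 = g 2 + g 0 + g 1
    abel

/-- The array with rows `x, y, z` in positions `r, r + 1, r + 2`. -/
def mk3 {β : Type*} (r : Fin 3) (x y z : β) : Fin 3 → β :=
  fun i => if i = r then x else if i = r + 1 then y else z

@[simp] theorem mk3_0 {β : Type*} (r : Fin 3) (x y z : β) : mk3 r x y z r = x := by simp [mk3]

@[simp] theorem mk3_1 {β : Type*} (r : Fin 3) (x y z : β) : mk3 r x y z (r + 1) = y := by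
  fin_cases r <;> rfl

@[simp] theorem mk3_2 {β : Type*} (r : Fin 3) (x y z : β) : mk3 r x y z (r + 2) = z := by
  fin_cases r <;> rfl

theorem fin3_cases (r i : Fin 3) : i = r ∨ i = r + 1 ∨ i = r + 2 := by
  revert r i; decide

theorem feas_mk3 (r : Fin 3) {x : ι → Bool} (hx : cnt x = ρ r) {η : ι → ℕ}
    (hη : ∀ k, κ k = (x k).toNat + η k) {p : (ι → Bool) × (ι → Bool)}
    (hp : p ∈ W2 (ρ (r + 1)) (ρ (r + 2)) η) : Feas3 ρ κ (mk3 r x p.1 p.2) := by
  obtain ⟨q1, q2, q3⟩ := mem_W2.1 hp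
  refine ⟨fun i => ?_, fun c => ?_⟩
  · rcases fin3_cases r i with rfl | rfl | rfl
    · simpa using hx
    · simpa using q1
    · simpa using q2
  · rw [sum3 r, mk3_0, mk3_1, mk3_2, hη, ← q3, add_assoc]

theorem sum_fib_row (r : Fin 3) {x : ι → Bool} (hx : cnt x = ρ r) {η : ι → ℕ}
    (hη : ∀ k, κ k = (x k).toNat + η k) (g : (ι → Bool) × (ι → Bool) → ℝ) :
    ∑ M ∈ fib (row (ρ := ρ) (κ := κ) r) x, g (M.1 (r + 1), M.1 (r + 2)) =
      ∑ p ∈ W2 (ρ (r + 1)) (ρ (r + 2)) η, g p := by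
  refine Finset.sum_bij' (fun M _ => (M.1 (r + 1), M.1 (r + 2)))
    (fun p hp => ⟨mk3 r x p.1 p.2, feas_mk3 r hx hη hp⟩) ?_ ?_ ?_ ?_ ?_
  · intro M hM
    have h0 : M.1 r = x := (mem_fib (κ := row r)).1 hM
    refine mem_W2.2 ⟨M.2.1 _, M.2.1 _, fun k => ?_⟩
    have := M.2.2 k
    rw [sum3 r, h0, hη] at this
    simp only
    omega
  · intro p hp
    simp [row]
  · intro M hM
    have h0 : M.1 r = x := (mem_fib (κ := row r)).1 hM
    apply Subtype.ext; funext i
    rcases fin3_cases r i with rfl | rfl | rfl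
    · simp [h0]
    · simp
    · simp
  · intro p hp; simp
  · intro M hM; rfl

theorem avg_row_eq (r : Fin 3) (M : Tri ρ κ) {η : ι → ℕ}
    (hη : ∀ k, κ k = (M.1 r k).toNat + η k) (g : (ι → Bool) × (ι → Bool) → ℝ) :
    avg (row r) (fun M' : Tri ρ κ => g (M'.1 (r + 1), M'.1 (r + 2))) M =
      (∑ p ∈ W2 (ρ (r + 1)) (ρ (r + 2)) η, g p) / (W2 (ρ (r + 1)) (ρ (r + 2)) η).card := by
  have h1 := sum_fib_row r (M.2.1 r) hη g
  have h2 := sum_fib_row r (M.2.1 r) hη (fun _ => 1)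
  simp only [Finset.sum_const, nsmul_eq_mul, mul_one] at h2
  rw [avg_apply, avgK, ← h1, ← h2]
  rfl

/-- Exchanging two columns with the same column sum. -/
def colSwap {a b : ι} (h : κ a = κ b) (M : Tri ρ κ) : Tri ρ κ :=
  ⟨fun r => M.1 r ∘ Equiv.swap a b, fun r => by rw [cnt_swap, M.2.1], fun c => by
    simp only [Function.comp_apply]
    rw [M.2.2, Equiv.swap_apply_def]
    split_ifs with h1 h2
    · rw [h1, h]
    · rw [h2, h]
    · rfl⟩

theorem colSwap_invol {a b : ι} (h : κ a = κ b) :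
    Function.Involutive (colSwap (ρ := ρ) h) := by
  intro M; apply Subtype.ext; funext r; exact swap_swap_comp _ _ _

omit [Fintype ι] in
theorem comp_swap_of_eq {σ : ι → Bool} {a b : ι} (h : σ a = σ b) : σ ∘ Equiv.swap a b = σ := by
  funext m
  simp only [Function.comp_apply, Equiv.swap_apply_def]
  split_ifs <;> simp_all

section eigen
variable (φ : Fin 3 → (ι → Bool) → ℝ) (ν : ℝ) (hν : 1 < ν)
  (heq : ∀ (r : Fin 3) (M : Tri ρ κ), ν * φ r (M.1 r) =
    avg (row r) (fun M' : Tri ρ κ => φ (r + 1) (M'.1 (r + 1)) + φ (r + 2) (M'.1 (r + 2))) M)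
include hν heq

theorem step_pure {a b : ι} (hab : κ a = κ b) (r : Fin 3) (M : Tri ρ κ) :
    φ r (M.1 r ∘ Equiv.swap a b) = φ r (M.1 r) := by
  let q : Fin 3 × Tri ρ κ → ℝ := fun p => φ p.1 (p.2.1 p.1) - φ p.1 (p.2.1 p.1 ∘ Equiv.swap a b)
  obtain ⟨⟨r0, M0⟩, -, hmax⟩ := Finset.exists_max_image Finset.univ (fun p => |q p|)
    ⟨(r, M), Finset.mem_univ _⟩
  have hmax' : ∀ r M, |q (r, M)| ≤ |q (r0, M0)| := fun r M => hmax _ (Finset.mem_univ _)
  have hz : ∀ r (M : Tri ρ κ), M.1 r a = M.1 r b → q (r, M) = 0 := by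
    intro r M h; simp only [q]; rw [comp_swap_of_eq h, sub_self]
  have h0 : q (r0, M0) = 0 := by
    by_contra hne
    have hd : M0.1 r0 a ≠ M0.1 r0 b := fun h => hne (hz _ _ h)
    have e1 := heq r0 M0
    have e2 := heq r0 (colSwap hab M0)
    have e3 := avg_comp_equiv (row r0) (row r0) (colSwap_invol (ρ := ρ) hab).toPerm
      (fun x y => by
        show x.1 r0 ∘ Equiv.swap a b = y.1 r0 ∘ Equiv.swap a b ↔ x.1 r0 = y.1 r0
        constructor
        · intro h; rw [← swap_swap_comp (x.1 r0) a b, h, swap_swap_comp]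
        · intro h; rw [h])
      (fun M' : Tri ρ κ => φ (r0 + 1) (M'.1 (r0 + 1)) + φ (r0 + 2) (M'.1 (r0 + 2))) M0
    have e4 : ν * q (r0, M0) =
        avg (row r0) (fun M' : Tri ρ κ => q (r0 + 1, M') + q (r0 + 2, M')) M0 := by
      have : (fun M' : Tri ρ κ => q (r0 + 1, M') + q (r0 + 2, M')) =
          (fun M' : Tri ρ κ => φ (r0 + 1) (M'.1 (r0 + 1)) + φ (r0 + 2) (M'.1 (r0 + 2))) -
          (fun M' : Tri ρ κ => φ (r0 + 1) (M'.1 (r0 + 1)) + φ (r0 + 2) (M'.1 (r0 + 2))) ∘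
            (colSwap_invol (ρ := ρ) hab).toPerm := by
        funext M'
        simp only [q, Pi.sub_apply, Function.comp_apply, Function.Involutive.coe_toPerm, colSwap]
        ring
      rw [this, map_sub, Pi.sub_apply, ← e3, ← e1]
      simp only [Function.Involutive.coe_toPerm]
      rw [← e2]
      simp only [q, colSwap]; ring
    have e5 : |avg (row r0) (fun M' : Tri ρ κ => q (r0 + 1, M') + q (r0 + 2, M')) M0| ≤
        |q (r0, M0)| := by
      refine abs_avg_le _ _ _ _ fun M' hM' => ?_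
      have h1 : M'.1 r0 = M0.1 r0 := hM'
      have s1 := M'.2.2 a
      have s2 := M'.2.2 b
      rw [sum3 r0, h1] at s1 s2
      have : M'.1 (r0 + 1) a = M'.1 (r0 + 1) b ∨ M'.1 (r0 + 2) a = M'.1 (r0 + 2) b := by
        rw [hab, ← s2] at s1
        revert s1 hd
        cases M0.1 r0 a <;> cases M0.1 r0 b <;> cases M'.1 (r0 + 1) a <;>
          cases M'.1 (r0 + 1) b <;> cases M'.1 (r0 + 2) a <;> cases M'.1 (r0 + 2) b <;> simp
      rcases this with h | h
      · rw [hz _ _ h, zero_add]; exact hmax' _ _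
      · rw [hz _ _ h, add_zero]; exact hmax' _ _
    rw [← e4, abs_mul, abs_of_pos (by linarith : 0 < ν)] at e5
    have : 0 < |q (r0, M0)| := abs_pos.2 hne
    nlinarith
  have := hmax' r M
  rw [h0, abs_zero] at this
  have h1 : q (r, M) = 0 := abs_nonpos_iff.1 this
  simp only [q] at h1
  linarith

theorem step_mixed (D : ℝ)
    (hD : ∀ (r : Fin 3) (M M' : Tri ρ κ) (a b : ι), M'.1 r = M.1 r ∘ Equiv.swap a b →
      |φ r (M.1 r) - φ r (M'.1 r)| ≤ D)
    (r : Fin 3) (M0 M1 : Tri ρ κ) (c c' : ι) (h01 : M1.1 r = M0.1 r ∘ Equiv.swap c c')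
    (hc : M0.1 r c = false) (hc' : M0.1 r c' = true) (k1 : κ c = 1) (k2 : κ c' = 2) :
    ν * |φ r (M0.1 r) - φ r (M1.1 r)| ≤ D := by
  have hcc : c ≠ c' := by rintro rfl; simp [hc] at hc'
  have hle : ∀ (M : Tri ρ κ) k, (M.1 r k).toNat ≤ κ k := by
    intro M k; have := M.2.2 k; rw [sum3 r] at this; omega
  obtain ⟨η, hη⟩ : ∃ η : ι → ℕ, ∀ k, κ k = (M0.1 r k).toNat + η k :=
    ⟨fun k => κ k - (M0.1 r k).toNat, fun k => by have := hle M0 k; simp only; omega⟩
  obtain ⟨η', hη'⟩ : ∃ η : ι → ℕ, ∀ k, κ k = (M1.1 r k).toNat + η k :=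
    ⟨fun k => κ k - (M1.1 r k).toNat, fun k => by have := hle M1 k; simp only; omega⟩
  have a1 : η c = 1 := by have := hη c; rw [hc, k1] at this; simpa using this.symm
  have a2 : η c' = 1 := by have := hη c'; rw [hc', k2] at this; simp at this; omega
  have a3 : η' c = 0 := by
    have := hη' c; rw [h01, k1] at this; simp [hc'] at this; omega
  have a4 : η' c' = 2 := by
    have := hη' c'; rw [h01, k2] at this; simp [hc] at this; omega
  have a5 : ∀ k, k ≠ c → k ≠ c' → η' k = η k := by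
    intro k h1 h2
    have b1 := hη k
    have b2 := hη' k
    rw [h01, Function.comp_apply, Equiv.swap_apply_of_ne_of_ne h1 h2] at b2
    omega
  have mem0 : ∀ {M : Tri ρ κ} {η : ι → ℕ}, (∀ k, κ k = (M.1 r k).toNat + η k) →
      (M.1 (r + 1), M.1 (r + 2)) ∈ W2 (ρ (r + 1)) (ρ (r + 2)) η := by
    intro M η h
    refine mem_W2.2 ⟨M.2.1 _, M.2.1 _, fun k => ?_⟩
    have := M.2.2 k
    rw [sum3 r, h] at this
    simp only
    omega
  let ψ : (ι → Bool) × (ι → Bool) → ℝ := fun p => φ (r + 1) p.1 + φ (r + 2) p.2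
  have bs : ∀ p ∈ W2 (ρ (r + 1)) (ρ (r + 2)) η, ∀ p' ∈ W2 (ρ (r + 1)) (ρ (r + 2)) η', ∀ a b,
      p'.1 = p.1 ∘ Equiv.swap a b → |φ (r + 1) p.1 - φ (r + 1) p'.1| ≤ D := by
    intro p hp p' hp' a b h
    have := hD (r + 1) ⟨_, feas_mk3 r (M0.2.1 r) hη hp⟩ ⟨_, feas_mk3 r (M1.2.1 r) hη' hp'⟩ a b
      (by simpa using h)
    simpa using this
  have bt : ∀ p ∈ W2 (ρ (r + 1)) (ρ (r + 2)) η, ∀ p' ∈ W2 (ρ (r + 1)) (ρ (r + 2)) η', ∀ a b,
      p'.2 = p.2 ∘ Equiv.swap a b → |φ (r + 2) p.2 - φ (r + 2) p'.2| ≤ D := by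
    intro p hp p' hp' a b h
    have := hD (r + 2) ⟨_, feas_mk3 r (M0.2.1 r) hη hp⟩ ⟨_, feas_mk3 r (M1.2.1 r) hη' hp'⟩ a b
      (by simpa using h)
    simpa using this
  have ps : ∀ p ∈ W2 (ρ (r + 1)) (ρ (r + 2)) η, ∀ a b, κ a = κ b →
      φ (r + 1) (p.1 ∘ Equiv.swap a b) = φ (r + 1) p.1 := by
    intro p hp a b h
    have := step_pure φ ν hν heq h (r + 1) ⟨_, feas_mk3 r (M0.2.1 r) hη hp⟩
    simpa using this
  have pt : ∀ p ∈ W2 (ρ (r + 1)) (ρ (r + 2)) η, ∀ a b, κ a = κ b →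
      φ (r + 2) (p.2 ∘ Equiv.swap a b) = φ (r + 2) p.2 := by
    intro p hp a b h
    have := step_pure φ ν hν heq h (r + 2) ⟨_, feas_mk3 r (M0.2.1 r) hη hp⟩
    simpa using this
  have ky : ∀ y, η y = 1 → κ y = 1 ∨ κ y = 2 := by
    intro y h
    have := hη y
    rw [h] at this
    revert this; cases M0.1 r y <;> simp <;> omega
  have d1 : ∀ p ∈ W2 (ρ (r + 1)) (ρ (r + 2)) η,
      (p.1 ∘ Equiv.swap c c', p.2) ∈ W2 (ρ (r + 1)) (ρ (r + 2)) η' →
      |ψ p - ψ (p.1 ∘ Equiv.swap c c', p.2)| ≤ D := by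
    intro p hp hp'
    have := bs p hp _ hp' c c' rfl
    simpa [ψ] using this
  have d2 : ∀ p ∈ W2 (ρ (r + 1)) (ρ (r + 2)) η,
      (p.1, p.2 ∘ Equiv.swap c c') ∈ W2 (ρ (r + 1)) (ρ (r + 2)) η' →
      |ψ p - ψ (p.1, p.2 ∘ Equiv.swap c c')| ≤ D := by
    intro p hp hp'
    have := bt p hp _ hp' c c' rfl
    simpa [ψ] using this
  have d3 : ∀ p ∈ W2 (ρ (r + 1)) (ρ (r + 2)) η, ∀ y, y ≠ c → y ≠ c' → η y = 1 →
      (p.1 ∘ Equiv.swap c y, p.2 ∘ Equiv.swap c' y) ∈ W2 (ρ (r + 1)) (ρ (r + 2)) η' →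
      |ψ p - ψ (p.1 ∘ Equiv.swap c y, p.2 ∘ Equiv.swap c' y)| ≤ D := by
    intro p hp y _ _ hy hp'
    rcases ky y hy with h | h
    · have := bt p hp _ hp' c' y rfl
      simpa [ψ, ps p hp c y (k1.trans h.symm)] using this
    · have := bs p hp _ hp' c y rfl
      simpa [ψ, pt p hp c' y (k2.trans h.symm)] using this
  have d4 : ∀ p ∈ W2 (ρ (r + 1)) (ρ (r + 2)) η, ∀ y, y ≠ c → y ≠ c' → η y = 1 →
      (p.1 ∘ Equiv.swap c' y, p.2 ∘ Equiv.swap c y) ∈ W2 (ρ (r + 1)) (ρ (r + 2)) η' →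
      |ψ p - ψ (p.1 ∘ Equiv.swap c' y, p.2 ∘ Equiv.swap c y)| ≤ D := by
    intro p hp y _ _ hy hp'
    rcases ky y hy with h | h
    · have := bs p hp _ hp' c' y rfl
      simpa [ψ, pt p hp c y (k1.trans h.symm)] using this
    · have := bt p hp _ hp' c y rfl
      simpa [ψ, ps p hp c' y (k2.trans h.symm)] using this
  have hne' : (W2 (ρ (r + 1)) (ρ (r + 2)) η').Nonempty := ⟨_, mem0 hη'⟩
  have hne : (W2 (ρ (r + 1)) (ρ (r + 2)) η).Nonempty := ⟨_, mem0 hη⟩
  have u1 := couple _ _ η η' c c' hcc a1 a2 a3 a4 a5 ψ D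
    (fun p hp h => (le_abs_self _).trans (d1 p hp h))
    (fun p hp h => (le_abs_self _).trans (d2 p hp h))
    (fun p hp y b1 b2 b3 h => (le_abs_self _).trans (d3 p hp y b1 b2 b3 h))
    (fun p hp y b1 b2 b3 h => (le_abs_self _).trans (d4 p hp y b1 b2 b3 h)) hne'
  have u2 := couple _ _ η η' c c' hcc a1 a2 a3 a4 a5 (fun p => -ψ p) D
    (fun p hp h => by have := neg_abs_le (ψ p - _) |>.trans' (neg_le_neg (d1 p hp h)); linarith)
    (fun p hp h => by have := neg_abs_le (ψ p - _) |>.trans' (neg_le_neg (d2 p hp h)); linarith)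
    (fun p hp y b1 b2 b3 h => by
      have := neg_abs_le (ψ p - _) |>.trans' (neg_le_neg (d3 p hp y b1 b2 b3 h)); linarith)
    (fun p hp y b1 b2 b3 h => by
      have := neg_abs_le (ψ p - _) |>.trans' (neg_le_neg (d4 p hp y b1 b2 b3 h)); linarith) hne'
  have e0 : ν * φ r (M0.1 r) = _ := (heq r M0).trans (avg_row_eq r M0 hη ψ)
  have e1 : ν * φ r (M1.1 r) = _ := (heq r M1).trans (avg_row_eq r M1 hη' ψ)
  have hpos : (0 : ℝ) < (W2 (ρ (r + 1)) (ρ (r + 2)) η).card := by exact_mod_cast hne.card_pos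
  simp only [Finset.sum_neg_distrib, neg_div] at u2
  rw [← e1] at u1 u2
  rw [eq_div_iff hpos.ne'] at e0
  rw [← e0] at u1 u2
  have v1 : ν * φ r (M0.1 r) ≤ ν * φ r (M1.1 r) + D := by
    refine le_of_mul_le_mul_left ?_ hpos; linarith
  have v2 : -(ν * φ r (M0.1 r)) ≤ -(ν * φ r (M1.1 r)) + D := by
    refine le_of_mul_le_mul_left ?_ hpos; linarith
  rw [← abs_of_pos (by linarith : 0 < ν), ← abs_mul, abs_le]
  constructor <;> linarith

theorem step_swap (r : Fin 3) (M M' : Tri ρ κ) (a b : ι) (h : M'.1 r = M.1 r ∘ Equiv.swap a b) :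
    φ r (M.1 r) = φ r (M'.1 r) := by
  classical
  let S : Finset (Fin 3 × Tri ρ κ × Tri ρ κ) :=
    univ.filter fun p => ∃ a b, p.2.2.1 p.1 = p.2.1.1 p.1 ∘ Equiv.swap a b
  let q : Fin 3 × Tri ρ κ × Tri ρ κ → ℝ := fun p => |φ p.1 (p.2.1.1 p.1) - φ p.1 (p.2.2.1 p.1)|
  obtain ⟨⟨r0, M0, M1⟩, hmem, hmax⟩ := Finset.exists_max_image S q
    ⟨(r, M, M'), by simp only [S, Finset.mem_filter, Finset.mem_univ, true_and]; exact ⟨a, b, h⟩⟩
  simp only [S, Finset.mem_filter, Finset.mem_univ, true_and] at hmem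
  obtain ⟨c, c', hc⟩ := hmem
  obtain ⟨D, hDdef⟩ : ∃ D, D = |φ r0 (M0.1 r0) - φ r0 (M1.1 r0)| := ⟨_, rfl⟩
  have hD : ∀ (r : Fin 3) (M M' : Tri ρ κ) (a b : ι), M'.1 r = M.1 r ∘ Equiv.swap a b →
      |φ r (M.1 r) - φ r (M'.1 r)| ≤ D := by
    intro r M M' a b h
    rw [hDdef]
    exact hmax (r, M, M') (by
      simp only [S, Finset.mem_filter, Finset.mem_univ, true_and]; exact ⟨a, b, h⟩)
  have hD0 : D = 0 := by
    by_contra hne
    have hDpos : 0 < D := lt_of_le_of_ne (hDdef ▸ abs_nonneg _) (Ne.symm hne)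
    have n1 : M0.1 r0 c ≠ M0.1 r0 c' := by
      intro h; apply hne; rw [hDdef, hc, comp_swap_of_eq h]; simp
    have n2 : κ c ≠ κ c' := by
      intro h; apply hne; rw [hDdef, hc, step_pure φ ν hν heq h]; simp
    have hc2 : M0.1 r0 = M1.1 r0 ∘ Equiv.swap c c' := by rw [hc, swap_swap_comp]
    have f1 : M1.1 r0 c = M0.1 r0 c' := by rw [hc]; simp
    have f2 : M1.1 r0 c' = M0.1 r0 c := by rw [hc]; simp
    have bd : ∀ k, M0.1 r0 k ≠ M1.1 r0 k → κ k = 1 ∨ κ k = 2 := by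
      intro k hk
      have s0 := M0.2.2 k
      have s1 := M1.2.2 k
      rw [sum3 r0] at s0 s1
      have := Bool.toNat_le (M0.1 (r0 + 1) k)
      have := Bool.toNat_le (M0.1 (r0 + 2) k)
      have := Bool.toNat_le (M1.1 (r0 + 1) k)
      have := Bool.toNat_le (M1.1 (r0 + 2) k)
      revert s0 s1 hk
      cases M0.1 r0 k <;> cases M1.1 r0 k <;> simp <;> omega
    have b1 := bd c (by rw [f1]; exact n1)
    have b2 := bd c' (by rw [f2]; exact n1.symm)
    have key : ν * D ≤ D := by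
      cases h0 : M0.1 r0 c
      · have h1 : M0.1 r0 c' = true := by revert n1; rw [h0]; cases M0.1 r0 c' <;> simp
        rcases b1 with b1 | b1
        · have := step_mixed φ ν hν heq D hD r0 M0 M1 c c' hc h0 h1 b1 (by omega)
          rwa [← hDdef] at this
        · have := step_mixed φ ν hν heq D hD r0 M1 M0 c' c (by rw [Equiv.swap_comm]; exact hc2)
            (f2.trans h0) (f1.trans h1) (by omega) b1
          rwa [abs_sub_comm, ← hDdef] at this
      · have h1 : M0.1 r0 c' = false := by revert n1; rw [h0]; cases M0.1 r0 c' <;> simp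
        rcases b1 with b1 | b1
        · have := step_mixed φ ν hν heq D hD r0 M1 M0 c c' hc2 (f1.trans h1) (f2.trans h0) b1
            (by omega)
          rwa [abs_sub_comm, ← hDdef] at this
        · have := step_mixed φ ν hν heq D hD r0 M0 M1 c' c (by rw [Equiv.swap_comm]; exact hc)
            h1 h0 (by omega) b1
          rwa [← hDdef] at this
    nlinarith
  have := hD r M M' a b h
  rw [hD0] at this
  have := abs_nonpos_iff.1 this
  linarith

theorem step_fiber (r : Fin 3) (n : ℕ) : ∀ (M M' : Tri ρ κ), M.1 r = M'.1 r →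
    (univ.filter fun k => M.1 (r + 1) k ≠ M'.1 (r + 1) k).card = n →
    φ (r + 1) (M.1 (r + 1)) + φ (r + 2) (M.1 (r + 2)) =
      φ (r + 1) (M'.1 (r + 1)) + φ (r + 2) (M'.1 (r + 2)) := by
  induction n using Nat.strong_induction_on with
  | _ n ih =>
  intro M M' h0 hn
  have hcol : ∀ k, (M.1 (r + 1) k).toNat + (M.1 (r + 2) k).toNat =
      (M'.1 (r + 1) k).toNat + (M'.1 (r + 2) k).toNat := by
    intro k
    have s0 := M.2.2 k
    have s1 := M'.2.2 k
    rw [sum3 r] at s0 s1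
    rw [h0] at s0
    omega
  by_cases he : M.1 (r + 1) = M'.1 (r + 1)
  · have : M.1 (r + 2) = M'.1 (r + 2) := by
      funext k
      have := hcol k
      rw [he] at this
      revert this
      cases M.1 (r + 2) k <;> cases M'.1 (r + 2) k <;> simp
    rw [he, this]
  have hcnt : cnt (M.1 (r + 1)) = cnt (M'.1 (r + 1)) := (M.2.1 _).trans (M'.2.1 _).symm
  have ex : ∀ x y : ι → Bool, cnt x = cnt y → x ≠ y → ∃ k, x k = true ∧ y k = false := by
    intro x y hxy hne
    by_contra hh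
    push Not at hh
    apply hne
    have hle : ∀ k ∈ (univ : Finset ι), (x k).toNat ≤ (y k).toNat := by
      intro k _
      have := hh k
      revert this; cases x k <;> cases y k <;> simp
    have := (Finset.sum_eq_sum_iff_of_le hle).1 hxy
    funext k
    have := this k (Finset.mem_univ k)
    revert this; cases x k <;> cases y k <;> simp
  obtain ⟨c, c1, c2⟩ := ex _ _ hcnt he
  obtain ⟨c', c3, c4⟩ := ex _ _ hcnt.symm (Ne.symm he)
  have c5 : M.1 (r + 2) c = false := by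
    have := hcol c; rw [c1, c2] at this
    revert this; cases M.1 (r + 2) c <;> cases M'.1 (r + 2) c <;> simp
  have c6 : M.1 (r + 2) c' = true := by
    have := hcol c'; rw [c3, c4] at this
    revert this; cases M.1 (r + 2) c' <;> cases M'.1 (r + 2) c' <;> simp
  have hcc : c ≠ c' := by rintro rfl; simp [c1] at c4
  let N : Tri ρ κ := ⟨mk3 r (M.1 r) (M.1 (r + 1) ∘ Equiv.swap c c') (M.1 (r + 2) ∘ Equiv.swap c c'),
    fun i => by
      rcases fin3_cases r i with rfl | rfl | rfl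
      · simpa using M.2.1 i
      · simpa [cnt_swap] using M.2.1 (r + 1)
      · simpa [cnt_swap] using M.2.1 (r + 2),
    fun k => by
      rw [← M.2.2 k, sum3 r, sum3 r (fun i => (M.1 i k).toNat), mk3_0, mk3_1, mk3_2]
      by_cases k1 : k = c
      · subst k1; simp [*]
      by_cases k2 : k = c'
      · subst k2; simp [*]
      simp [Equiv.swap_apply_of_ne_of_ne k1 k2]⟩
  have n0 : N.1 r = M.1 r := mk3_0 _ _ _ _
  have n1 : N.1 (r + 1) = M.1 (r + 1) ∘ Equiv.swap c c' := mk3_1 _ _ _ _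
  have n2 : N.1 (r + 2) = M.1 (r + 2) ∘ Equiv.swap c c' := mk3_2 _ _ _ _
  rw [step_swap φ ν hν heq (r + 1) M N c c' n1, step_swap φ ν hν heq (r + 2) M N c c' n2]
  refine ih _ ?_ N M' (n0.trans h0) rfl
  rw [← hn]
  apply Finset.card_lt_card
  rw [Finset.ssubset_iff_of_subset]
  · exact ⟨c, by simp [c1, c2], by simp [n1, c4, c2]⟩
  · intro k hk
    simp only [Finset.mem_filter, Finset.mem_univ, true_and, n1] at hk ⊢
    by_cases k1 : k = c
    · subst k1; simp [c1, c2]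
    by_cases k2 : k = c'
    · subst k2; simp [c3, c4]
    simpa [Equiv.swap_apply_of_ne_of_ne k1 k2] using hk

end eigen

/-- The three-row inequality. -/
theorem three_row (f : Tri ρ κ → ℝ) :
    0 ≤ ip (hh (row 0) f) (hh (row 1) f) + ip (hh (row 1) f) (hh (row 2) f) +
      ip (hh (row 2) f) (hh (row 0) f) := by
  let A : (Tri ρ κ → ℝ) →ₗ[ℝ] (Tri ρ κ → ℝ) := ∑ r, hh (row r)
  have hA : ∀ f, A f = ∑ r, hh (row r) f := fun f => by simp [A, LinearMap.sum_apply]
  have hsym : ∀ f g, ip (A f) g = ip f (A g) := by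
    intro f g
    rw [hA, hA, ip_sum_left, ip_sum_right]
    exact Finset.sum_congr rfl fun r _ => ip_hh_left _ _ _
  have := form_of_eigen A hsym 1 (fun μ v hv hAv => by
    by_contra hh0
    push Not at hh0
    have hμ0 : 0 < μ := by nlinarith [sq_nonneg μ]
    have hμ1 : μ < 1 := by nlinarith
    let φ : Fin 3 → (ι → Bool) → ℝ := fun r => avgK (row r) v
    have hsum : ∀ (r : Fin 3) (M : Tri ρ κ), φ r (M.1 r) +
        (φ (r + 1) (M.1 (r + 1)) + φ (r + 2) (M.1 (r + 2))) = (3 - μ) * v M := by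
      intro r M
      have := congrFun hAv M
      rw [hA, Finset.sum_apply, sum3 r] at this
      simp only [hh_apply, avg_apply, Pi.smul_apply, smul_eq_mul, row] at this
      simp only [φ]
      linarith
    have heq : ∀ (r : Fin 3) (M : Tri ρ κ), (2 - μ) * φ r (M.1 r) = avg (row r)
        (fun M' : Tri ρ κ => φ (r + 1) (M'.1 (r + 1)) + φ (r + 2) (M'.1 (r + 2))) M := by
      intro r M
      have : (fun M' : Tri ρ κ => φ (r + 1) (M'.1 (r + 1)) + φ (r + 2) (M'.1 (r + 2))) =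
          (3 - μ) • v - avg (row r) v := by
        funext M'
        have := hsum r M'
        simp only [Pi.sub_apply, Pi.smul_apply, smul_eq_mul, avg_apply, row]
        simp only [φ] at this ⊢
        linarith
      rw [this, map_sub, map_smul, avg_avg]
      simp only [Pi.sub_apply, Pi.smul_apply, smul_eq_mul, avg_apply, row, φ]
      ring
    have hinv : ∀ (r : Fin 3) (M M' : Tri ρ κ), row r M = row r M' → v M = v M' := by
      intro r M M' h
      have h1 := step_fiber φ (2 - μ) (by linarith) heq r _ M M' h rfl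
      have h2 := hsum r M
      have h3 := hsum r M'
      have h4 : M.1 r = M'.1 r := h
      rw [h1, h4, h3] at h2
      have : (3 - μ) ≠ 0 := by linarith
      exact (mul_left_cancel₀ this h2).symm
    have : A v = 0 := by
      rw [hA]
      exact Finset.sum_eq_zero fun r _ => by rw [hh_eq, avg_of_inv _ _ (hinv r), sub_self]
    rw [hAv] at this
    rcases smul_eq_zero.1 this with h | h
    · linarith
    · exact hv h) f
  rw [hA, Fin.sum_univ_three] at this
  simp only [ip_add_left, ip_add_right, ip_hh_self] at this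
  rw [ip_comm (hh (row 1) f) (hh (row 0) f), ip_comm (hh (row 2) f) (hh (row 1) f),
    ip_comm (hh (row 0) f) (hh (row 2) f)] at this
  linarith

end Crest.Agent.R299
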