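import Crest.Agent.R299.Graph
import Crest.Agent.R299.ThreeRow

/-!
Three vertices: the trades among them form a three-row system with one extra column.
-/

set_option autoImplicit false
open Finset

namespace Crest.Agent.R299

variable {V : Type*} [Fintype V] [DecidableEq V] {d : V → ℕ}
variable {W : Type*} [Fintype W] [DecidableEq W]

/-- The adjacency built from a three-row array and a graph on the other vertices. -/
def edit3 (B : W → W → Bool) (M : Fin 3 → Option W → Bool) : Fin 3 ⊕ W → Fin 3 ⊕ W → Bool
  | Sum.inl r, Sum.inl s => if r = s then false else !M (-(r + s)) none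
  | Sum.inl r, Sum.inr c => M r (some c)
  | Sum.inr c, Sum.inl r => M r (some c)
  | Sum.inr c, Sum.inr c' => B c c'

/-- The three-row array of a graph. -/
def rows3 (e : Fin 3 ⊕ W ≃ V) (A : V → V → Bool) : Fin 3 → Option W → Bool
  | r, none => !A (e (Sum.inl (r + 1))) (e (Sum.inl (r + 2)))
  | r, some c => A (e (Sum.inl r)) (e (Sum.inr c))

omit [DecidableEq V] [DecidableEq W] in
theorem cnt_equiv (e : Fin 3 ⊕ W ≃ V) (σ : V → Bool) (r : Fin 3) :
    cnt σ = (σ (e (Sum.inl r))).toNat + (σ (e (Sum.inl (r + 1)))).toNat +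
      (σ (e (Sum.inl (r + 2)))).toNat + ∑ c, (σ (e (Sum.inr c))).toNat := by
  rw [cnt, ← Equiv.sum_comp e (fun k => (σ k).toNat), Fintype.sum_sum_type, sum3 r]

omit [DecidableEq W] in
theorem cnt_option (σ : Option W → Bool) :
    cnt σ = (σ none).toNat + ∑ c, (σ (some c)).toNat := by
  rw [cnt, Fintype.sum_option]

theorem toNat_not (b : Bool) : (!b).toNat + b.toNat = 1 := by cases b <;> rfl

theorem triple_ineq' (e : Fin 3 ⊕ W ≃ V) (f : Gr d → ℝ) :
    0 ≤ ip (hh (key (e (Sum.inl 1)) (e (Sum.inl 2))) f)
          (hh (key (e (Sum.inl 2)) (e (Sum.inl 0))) f) +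
        ip (hh (key (e (Sum.inl 2)) (e (Sum.inl 0))) f)
          (hh (key (e (Sum.inl 0)) (e (Sum.inl 1))) f) +
        ip (hh (key (e (Sum.inl 0)) (e (Sum.inl 1))) f)
          (hh (key (e (Sum.inl 1)) (e (Sum.inl 2))) f) := by
  let K : Fin 3 → Gr d → V → V → Bool := fun r => key (e (Sum.inl (r + 1))) (e (Sum.inl (r + 2)))
  show 0 ≤ ip (hh (K 0) f) (hh (K 1) f) + ip (hh (K 1) f) (hh (K 2) f) +
    ip (hh (K 2) f) (hh (K 0) f)
  let R : Gr d → W → W → Bool := fun A c c' => A.1 (e (Sum.inr c)) (e (Sum.inr c'))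
  unfold ip
  rw [← Finset.sum_add_distrib, ← Finset.sum_add_distrib]
  refine sum_nonneg_of_fib R _ fun A0 => ?_
  let ρ : Fin 3 → ℕ := fun r => cnt (rows3 e A0.1 r)
  let κ : Option W → ℕ := fun c => ∑ r, (rows3 e A0.1 r c).toNat
  have f1 : ∀ r : Fin 3, r + 1 + 1 = r + 2 := by decide
  have f2 : ∀ r : Fin 3, r + 1 + 2 = r := by decide
  have f3 : ∀ r : Fin 3, r + 2 + 1 = r := by decide
  have f4 : ∀ r : Fin 3, r + 2 + 2 = r + 1 := by decide
  have f5 : ∀ r : Fin 3, -(r + (r + 1)) = r + 2 := by decide
  have f6 : ∀ r : Fin 3, -(r + (r + 2)) = r + 1 := by decide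
  have f7 : ∀ r : Fin 3, r ≠ r + 1 := by decide
  have f8 : ∀ r : Fin 3, r ≠ r + 2 := by decide
  have f9 : ∀ r : Fin 3, -(r + 1 + (r + 2)) = r := by decide
  have f10 : ∀ r : Fin 3, r + 1 ≠ r + 2 := by decide
  have f11 : ∀ r s s' : Fin 3, (s = r + 1 ∨ s = r + 2 ↔ s' = r + 1 ∨ s' = r + 2) →
      s = s' ∨ -(s + s') = r := by decide
  have f12 : ∀ r s : Fin 3, ¬(s = r + 1 ∨ s = r + 2) → s = r := by decide
  -- degrees in terms of the array
  have dg1 : ∀ (A : Gr d) (r : Fin 3), d (e (Sum.inl r)) + ∑ s, (rows3 e A.1 s none).toNat =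
      2 + cnt (rows3 e A.1 r) := by
    intro A r
    rw [← A.2.deg, cnt_equiv e _ r, cnt_option, sum3 r, A.2.diag]
    simp only [rows3, f1, f2, f3, f4]
    have a1 := toNat_not (A.1 (e (Sum.inl r)) (e (Sum.inl (r + 1))))
    have a2 := toNat_not (A.1 (e (Sum.inl r)) (e (Sum.inl (r + 2))))
    rw [A.2.symm (e (Sum.inl (r + 2))) (e (Sum.inl r))]
    simp only [Bool.toNat_false]
    omega
  have dg2 : ∀ (A : Gr d) (c : W), d (e (Sum.inr c)) =
      ∑ r, (rows3 e A.1 r (some c)).toNat + ∑ c', (R A c c').toNat := by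
    intro A c
    rw [← A.2.deg, cnt_equiv e _ 0, sum3 0]
    simp only [rows3, R, A.2.symm (e (Sum.inr c)) (e (Sum.inl _))]
  have tot : ∀ M : Fin 3 → Option W → Bool, ∑ r, cnt (M r) =
      ∑ r, (M r none).toNat + ∑ c, ∑ r, (M r (some c)).toNat := by
    intro M
    simp only [cnt_option, Finset.sum_add_distrib]
    rw [Finset.sum_comm (s := (univ : Finset W))]
  have feas : ∀ A : Gr d, R A = R A0 → Feas3 ρ κ (rows3 e A.1) := by
    intro A hA
    have c1 : ∀ c, ∑ r, (rows3 e A.1 r (some c)).toNat = ∑ r, (rows3 e A0.1 r (some c)).toNat := by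
      intro c
      have a1 := dg2 A c
      have a2 := dg2 A0 c
      rw [hA] at a1
      omega
    have c2 : ∑ r, (rows3 e A.1 r none).toNat = ∑ r, (rows3 e A0.1 r none).toNat := by
      have a1 := tot (rows3 e A.1)
      have a2 := tot (rows3 e A0.1)
      simp only [c1] at a1
      rw [Fin.sum_univ_three] at a1 a2
      have := dg1 A 0; have := dg1 A 1; have := dg1 A 2
      have := dg1 A0 0; have := dg1 A0 1; have := dg1 A0 2
      omega
    refine ⟨fun r => ?_, fun c => ?_⟩
    · have := dg1 A r; have := dg1 A0 r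
      simp only [ρ]; omega
    · cases c
      · exact c2
      · exact c1 _
  have isg : ∀ M : Tri ρ κ, IsGr d (fun u v => edit3 (R A0) M.1 (e.symm u) (e.symm v)) := by
    intro M
    refine ⟨fun u v => ?_, fun v => ?_, fun v => ?_⟩
    · rcases e.symm u with r | c <;> rcases e.symm v with s | c'
      · simp only [edit3, add_comm r s, eq_comm (a := r)]
      · rfl
      · rfl
      · exact A0.2.symm _ _
    · rcases e.symm v with r | c
      · simp [edit3]
      · exact A0.2.diag _
    · obtain ⟨w, rfl⟩ := e.surjective v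
      rcases w with r | c
      · have a1 := dg1 A0 r
        have a2 := M.2.1 r
        have a3 := M.2.2 none
        rw [cnt_option] at a2
        rw [sum3 r] at a3
        rw [cnt_equiv e _ r]
        simp only [Equiv.symm_apply_apply, edit3, f5, f6, f7, f8, ↓reduceIte, Bool.toNat_false]
        have b1 := toNat_not (M.1 (r + 1) none)
        have b2 := toNat_not (M.1 (r + 2) none)
        simp only [ρ, κ] at a2 a3
        omega
      · have a1 := dg2 A0 c
        have a3 := M.2.2 (some c)
        rw [sum3 0] at a3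
        rw [cnt_equiv e _ 0]
        simp only [Equiv.symm_apply_apply, edit3]
        simp only [κ] at a3
        omega
  let j : Tri ρ κ → Gr d := fun M => ⟨_, isg M⟩
  have jval : ∀ M a b, (j M).1 (e a) (e b) = edit3 (R A0) M.1 a b := by
    intro M a b; simp [j]
  have jrows : ∀ M, rows3 e (j M).1 = M.1 := by
    intro M; funext r c
    cases c
    · simp [rows3, jval, edit3, f9, f10]
    · simp [rows3, jval, edit3]
  have jinj : Function.Injective j := by
    intro M M' h
    apply Subtype.ext
    rw [← jrows M, h, jrows]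
  have jr : ∀ y, R y = R A0 ↔ ∃ M, j M = y := by
    intro y
    constructor
    · intro h
      refine ⟨⟨_, feas y h⟩, Subtype.ext ?_⟩
      funext u v
      obtain ⟨a, rfl⟩ := e.surjective u
      obtain ⟨b, rfl⟩ := e.surjective v
      rw [jval]
      rcases a with r | c <;> rcases b with s | c'
      · rcases fin3_cases r s with rfl | rfl | rfl
        · simp [edit3, y.2.diag]
        · simp only [edit3, f7, ↓reduceIte, f5, rows3, f3, f4, Bool.not_not]
        · simp only [edit3, f8, ↓reduceIte, f6, rows3, f1, f2, Bool.not_not]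
          exact y.2.symm _ _
      · rfl
      · exact y.2.symm _ _
      · exact (congrFun (congrFun h c) c').symm
    · rintro ⟨M, rfl⟩
      funext c c'
      exact jval M _ _
  have je : ∀ r M M', K r (j M) = K r (j M') ↔ row r M = row r M' := by
    intro r M M'
    rw [key_eq_iff]
    constructor
    · intro h
      funext c
      cases c with
      | none =>
        have := h (e (Sum.inl (r + 1))) (e (Sum.inl (r + 2))) (by simp)
        simpa [jval, edit3, f9, f10, row] using this
      | some c =>
        have := h (e (Sum.inl r)) (e (Sum.inr c)) (by simp [f7, f8])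
        simpa [jval, edit3, row] using this
    · intro h u v huv
      have h' : M.1 r = M'.1 r := h
      obtain ⟨a, rfl⟩ := e.surjective u
      obtain ⟨b, rfl⟩ := e.surjective v
      rw [jval, jval]
      simp only [EmbeddingLike.apply_eq_iff_eq] at huv
      rcases a with s | c <;> rcases b with s' | c'
      · simp only [Sum.inl.injEq] at huv
        have : s = s' ∨ -(s + s') = r := f11 r s s' huv
        rcases this with rfl | h2
        · simp [edit3]
        · simp only [edit3, h2, h']
      · have : s = r := by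
          simp only [Sum.inl.injEq, reduceCtorEq, or_self, iff_false] at huv
          exact f12 r s huv
        simp only [edit3, this, h']
      · have : s' = r := by
          simp only [Sum.inl.injEq, reduceCtorEq, or_self, false_iff] at huv
          exact f12 r s' huv
        simp only [edit3, this, h']
      · rfl
  have jsat : ∀ r M y, K r y = K r (j M) → ∃ M', j M' = y := by
    intro r M y h
    rw [← jr, ← (jr (j M)).2 ⟨M, rfl⟩]
    funext c c'
    exact key_eq_iff.1 h _ _ (by simp)
  rw [sum_fib_eq_sum_inj R _ j jinj jr]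
  simp only [fun r => hh_comp_inj (K r) (row r) j jinj (je r) (jsat r) f]
  have := three_row (f ∘ j)
  unfold ip at this
  rwa [← Finset.sum_add_distrib, ← Finset.sum_add_distrib] at this

/-- Three distinct vertices. -/
theorem triple_ineq {i j k : V} (hij : i ≠ j) (hjk : j ≠ k) (hik : i ≠ k) (f : Gr d → ℝ) :
    0 ≤ ip (hh (key i j) f) (hh (key i k) f) + ip (hh (key j k) f) (hh (key j i) f) +
      ip (hh (key k i) f) (hh (key k j) f) := by
  classical
  let t : Fin 3 → V := ![i, j, k]
  have ht : Function.Injective t := by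
    have := hij.symm; have := hjk.symm; have := hik.symm
    intro a b; fin_cases a <;> fin_cases b <;> simp [t, *]
  let e : Fin 3 ⊕ ((Set.range t)ᶜ : Set V) ≃ V :=
    (Equiv.sumCongr (Equiv.ofInjective t ht) (Equiv.refl _)).trans (Equiv.Set.sumCompl _)
  have := triple_ineq' e f
  have e0 : e (Sum.inl 0) = i := rfl
  have e1 : e (Sum.inl 1) = j := rfl
  have e2 : e (Sum.inl 2) = k := rfl
  rw [e0, e1, e2] at this
  rw [key_comm i k, key_comm j i, key_comm k j, ip_comm (hh (key i j) f),
    ip_comm (hh (key j k) f), ip_comm (hh (key k i) f) (hh (key j k) f)]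
  linarith

end Crest.Agent.R299
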