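import Crest.Agent.R299.Four
import Crest.Agent.R299.Triple
import Crest.Agent.R299.Connect

/-!
The Poincaré inequality for the switch graph.
-/

set_option autoImplicit false
open Finset

namespace Crest.Agent.R299

variable {V : Type*} [Fintype V] [DecidableEq V] {d : V → ℕ}

theorem switch_gap (f : Gr d → ℝ) (hf : ∑ A, f A = 0) :
    8 * ip f f ≤ ∑ i, ∑ j, ∑ k, ∑ l, ∑ A, (f A - f (swi i j k l A)) ^ 2 := by
  let G : V → V → (Gr d → ℝ) →ₗ[ℝ] (Gr d → ℝ) := fun i j => if i = j then 0 else hh (key i j)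
  have Gself : ∀ i f, G i i f = 0 := fun i f => by simp [G]
  have Gne : ∀ {i j}, i ≠ j → G i j = hh (key i j) := fun h => by simp [G, h]
  have Gcomm : ∀ i j, G i j = G j i := fun i j => by simp only [G, eq_comm (a := i), key_comm i j]
  have Gsym : ∀ i j f g, ip (G i j f) g = ip f (G i j g) := by
    intro i j f g
    by_cases h : i = j
    · subst h; simp [Gself, ip]
    · rw [Gne h, ip_hh_left]
  have Gidem : ∀ i j f, ip f (G i j f) = ip (G i j f) (G i j f) := by
    intro i j f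
    by_cases h : i = j
    · subst h; simp [Gself, ip]
    · rw [Gne h, ip_hh_self]
  let H : (Gr d → ℝ) →ₗ[ℝ] (Gr d → ℝ) := ∑ i, ∑ j, G i j
  have hH : ∀ f, H f = ∑ i, ∑ j, G i j f := fun f => by simp [H, LinearMap.sum_apply]
  have hHip : ∀ f, ip f (H f) = ∑ i, ∑ j, ip (G i j f) (G i j f) := by
    intro f; rw [hH, ip_sum_right]
    refine Finset.sum_congr rfl fun i _ => ?_
    rw [ip_sum_right]
    exact Finset.sum_congr rfl fun j _ => Gidem _ _ _
  have hsym : ∀ f g, ip (H f) g = ip f (H g) := by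
    intro f g
    rw [hH, hH, ip_sum_left, ip_sum_right]
    refine Finset.sum_congr rfl fun k _ => ?_
    rw [ip_sum_left, ip_sum_right]
    exact Finset.sum_congr rfl fun l _ => Gsym _ _ _ _
  have hpos : ∀ f, 0 ≤ ip f (H f) := by
    intro f; rw [hHip]
    exact Finset.sum_nonneg fun _ _ => Finset.sum_nonneg fun _ _ => ip_self_nonneg _
  have hform : ∀ f, 2 * ip f (H f) ≤ ip (H f) (H f) := by
    intro f
    have e0 : ip (H f) (H f) = ∑ i, ∑ j, ∑ k, ∑ l, ip (G i j f) (G k l f) := by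
      rw [hH, ip_sum_left]
      refine Finset.sum_congr rfl fun i _ => ?_
      rw [ip_sum_left]
      refine Finset.sum_congr rfl fun j _ => ?_
      rw [ip_sum_right]
      exact Finset.sum_congr rfl fun k _ => ip_sum_right _ _ _
    rw [e0, pair_expand (fun i j k l => ip (G i j f) (G k l f))
      (fun i j k l => by rw [Gcomm i j]) (fun i j k l => by rw [Gcomm k l])
      (fun i k l => by rw [Gself]; simp [ip]) (fun i j k => by rw [Gself]; simp [ip]), ← hHip]
    have e3 := triple_sym (fun i j k => ip (G i j f) (G i k f))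
      (fun i k => by rw [Gself]; simp [ip]) (fun i j => by rw [Gself]; simp [ip])
    have e5 : 0 ≤ ∑ i, ∑ j, ∑ k, (if i ≠ j ∧ j ≠ k ∧ i ≠ k then
        ip (G i j f) (G i k f) + ip (G j k f) (G j i f) + ip (G k i f) (G k j f) else 0) := by
      refine Finset.sum_nonneg fun i _ => Finset.sum_nonneg fun j _ => Finset.sum_nonneg
        fun k _ => ?_
      split_ifs with h
      · rw [Gne h.1, Gne h.2.1, Gne h.2.2, Gne h.1.symm, Gne h.2.1.symm, Gne h.2.2.symm]
        exact triple_ineq h.1 h.2.1 h.2.2 f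
      · exact le_rfl
    obtain ⟨a, ha⟩ : ∃ a : V → V → V → V → ℝ,
      a = fun i j k l => ∑ A, (f A - f (swi i j k l A)) ^ 2 := ⟨_, rfl⟩
    obtain ⟨b, hb⟩ : ∃ b : V → V → V → V → ℝ,
      b = fun i j k l => ∑ A, lossAt (key i j) (Alt i j k l) (hh (key i j) f) A := ⟨_, rfl⟩
    have hz : ∀ i j k l, ¬ (i ≠ j ∧ k ≠ l ∧ k ≠ i ∧ k ≠ j ∧ l ≠ i ∧ l ≠ j) →
        a i j k l = 0 ∧ b i j k l = 0 := by
      intro i j k l h
      have hn : ∀ A : Gr d, ¬ Alt i j k l A := fun A hA => h hA.1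
      have hi : ind (Alt (d := d) i j k l) = 0 := funext fun A => ind_neg (hn A)
      constructor
      · rw [ha]; exact Finset.sum_eq_zero fun A _ => by rw [swi_of_not (hn A)]; simp
      · rw [hb]; exact Finset.sum_eq_zero fun A _ => by simp [lossAt, hi]
    have e6 : ∀ i j k l, (1 / 4) * a i j k l - (1 / 2) * (b i j k l + b k l i j) ≤
        (if k ≠ i ∧ k ≠ j ∧ l ≠ i ∧ l ≠ j then ip (G i j f) (G k l f) else 0) := by
      intro i j k l
      by_cases h : i ≠ j ∧ k ≠ l ∧ k ≠ i ∧ k ≠ j ∧ l ≠ i ∧ l ≠ j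
      · obtain ⟨h1, h2, h3, h4, h5, h6⟩ := h
        rw [if_pos ⟨h3, h4, h5, h6⟩, Gne h1, Gne h2, ha, hb]
        exact four_ineq h1 h2 h3 h4 h5 h6 f
      · have h' : ¬ (k ≠ l ∧ i ≠ j ∧ i ≠ k ∧ i ≠ l ∧ j ≠ k ∧ j ≠ l) := fun g =>
          h ⟨g.2.1, g.1, g.2.2.1.symm, g.2.2.2.2.1.symm, g.2.2.2.1.symm, g.2.2.2.2.2.symm⟩
        rw [(hz i j k l h).1, (hz i j k l h).2, (hz k l i j h').2]
        split_ifs with h2
        · by_cases hij : i = j
          · subst hij; simp [Gself, ip]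
          by_cases hkl : k = l
          · subst hkl; simp [Gself, ip]
          exact absurd ⟨hij, hkl, h2⟩ h
        · simp
    have e7 : ∀ i j, ∑ k, ∑ l, b i j k l ≤ (1 / 4) * ∑ k, ∑ l, a i j k l := by
      intro i j
      by_cases hij : i = j
      · have : ∀ k l, a i j k l = 0 ∧ b i j k l = 0 := fun k l => hz i j k l (by simp [hij])
        simp [this]
      · rw [ha, hb]; exact (pair_bounds hij f).1
    have e8 : ∑ i, ∑ j, ∑ k, ∑ l, ((1 / 4) * a i j k l - (1 / 2) * (b i j k l + b k l i j)) =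
        (1 / 4) * ∑ i, ∑ j, ∑ k, ∑ l, a i j k l - ∑ i, ∑ j, ∑ k, ∑ l, b i j k l := by
      simp only [Finset.sum_sub_distrib, ← Finset.mul_sum, Finset.sum_add_distrib]
      rw [← sum4_swap b]; ring
    have e9 : ∑ i, ∑ j, ∑ k, ∑ l, b i j k l ≤ (1 / 4) * ∑ i, ∑ j, ∑ k, ∑ l, a i j k l := by
      rw [Finset.mul_sum]
      refine Finset.sum_le_sum fun i _ => ?_
      rw [Finset.mul_sum]
      exact Finset.sum_le_sum fun j _ => e7 i j
    have e10 : ∑ i, ∑ j, ∑ k, ∑ l, ((1 / 4) * a i j k l - (1 / 2) * (b i j k l + b k l i j)) ≤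
        ∑ i, ∑ j, ∑ k, ∑ l,
          (if k ≠ i ∧ k ≠ j ∧ l ≠ i ∧ l ≠ j then ip (G i j f) (G k l f) else 0) :=
      Finset.sum_le_sum fun i _ => Finset.sum_le_sum fun j _ => Finset.sum_le_sum fun k _ =>
        Finset.sum_le_sum fun l _ => e6 i j k l
    linarith
  have hker : ∀ v, H v = 0 → ∃ a, ∀ A, v A = a := by
    intro v hv
    apply const_of_swi_inv
    intro i j k l A
    by_cases halt : Alt i j k l A
    · have h0 : ∑ i, ∑ j, ip (G i j v) (G i j v) = 0 := by rw [← hHip, hv]; simp [ip]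
      have h1 := (Finset.sum_eq_zero_iff_of_nonneg (fun i _ => Finset.sum_nonneg fun j _ =>
        ip_self_nonneg _)).1 h0 i (Finset.mem_univ _)
      have h2 := (Finset.sum_eq_zero_iff_of_nonneg (fun j _ => ip_self_nonneg _)).1 h1 j
        (Finset.mem_univ _)
      rw [Gne halt.1.1] at h2
      exact inv_of_hh_eq_zero _ _ (eq_zero_of_ip_self _ h2.le) (key_swi_left i j k l A)
    · rw [swi_of_not halt]
  have h1 := gap_of_form H hsym 2 hpos hform hker f hf
  have h2 : ip f (H f) ≤ (1 / 4) * ∑ i, ∑ j, ∑ k, ∑ l, ∑ A, (f A - f (swi i j k l A)) ^ 2 := by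
    rw [hHip, Finset.mul_sum]
    refine Finset.sum_le_sum fun i _ => ?_
    rw [Finset.mul_sum]
    refine Finset.sum_le_sum fun j _ => ?_
    by_cases hij : i = j
    · subst hij; rw [Gself]; simp only [ip, Pi.zero_apply, mul_zero, Finset.sum_const_zero]
      positivity
    · rw [Gne hij]; exact (pair_bounds hij f).2
  linarith

end Crest.Agent.R299
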