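import Crest.Agent.R299.Block

/-!
Graphs with prescribed degrees as symmetric Boolean matrices, the pair classes, the switch, and
the slice inequalities transported to the pair classes.
-/

set_option autoImplicit false
open Finset

namespace Crest.Agent.R299

theorem sum_cyc' {α β γ : Type*} [Fintype α] [Fintype β] [Fintype γ] (F : α → β → γ → ℝ) :
    ∑ a, ∑ b, ∑ c, F a b c = ∑ c, ∑ a, ∑ b, F a b c := by
  calc ∑ a, ∑ b, ∑ c, F a b c = ∑ a, ∑ c, ∑ b, F a b c :=
        Finset.sum_congr rfl fun _ _ => Finset.sum_comm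
    _ = _ := Finset.sum_comm

variable {V : Type*} [Fintype V] [DecidableEq V]

/-- A symmetric Boolean matrix with zero diagonal and row sums `d`. -/
structure IsGr (d : V → ℕ) (A : V → V → Bool) : Prop where
  symm : ∀ u v, A u v = A v u
  diag : ∀ v, A v v = false
  deg : ∀ v, cnt (A v) = d v

/-- Graphs with degree vector `d`. -/
abbrev Gr (d : V → ℕ) := {A : V → V → Bool // IsGr d A}

noncomputable instance instFintypeGr (d : V → ℕ) : Fintype (Gr d) := Fintype.ofFinite _

variable {d : V → ℕ}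

/-- The part of the graph that a trade between `i` and `j` leaves fixed. -/
def key (i j : V) (A : Gr d) : V → V → Bool :=
  fun u v => if ((u = i ∨ u = j) ↔ (v = i ∨ v = j)) then A.1 u v else false

theorem key_eq_iff {i j : V} {A B : Gr d} : key i j A = key i j B ↔
    ∀ u v, ((u = i ∨ u = j) ↔ (v = i ∨ v = j)) → A.1 u v = B.1 u v := by
  constructor
  · intro h u v huv
    have := congrFun (congrFun h u) v
    simpa [key, huv] using this
  · intro h
    funext u v
    unfold key
    split_ifs with huv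
    · exact h u v huv
    · rfl

theorem key_comm (i j : V) : key (d := d) i j = key j i := by
  funext A u v; simp only [key, or_comm]

theorem cnt_two {σ τ : V → Bool} {k l : V} (hkl : k ≠ l) (h : ∀ v, v ≠ k → v ≠ l → σ v = τ v) :
    cnt σ + ((τ k).toNat + (τ l).toNat) = cnt τ + ((σ k).toNat + (σ l).toNat) := by
  have key : ∀ μ : V → Bool, cnt μ = (μ k).toNat + ((μ l).toNat +
      ∑ v ∈ (univ.erase k).erase l, (μ v).toNat) := by
    intro μ
    rw [cnt, Finset.add_sum_erase _ (fun v => (μ v).toNat) (by simp [hkl.symm]),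
      Finset.add_sum_erase _ (fun v => (μ v).toNat) (Finset.mem_univ k)]
  have : ∑ v ∈ (univ.erase k).erase l, (σ v).toNat = ∑ v ∈ (univ.erase k).erase l, (τ v).toNat :=
    Finset.sum_congr rfl fun v hv => by
      simp only [Finset.mem_erase] at hv
      rw [h v hv.2.1 hv.1]
  rw [key σ, key τ, this]; ring

/-- A trade between `i` and `j` keeps the number of neighbours of `c` in `{i, j}`. -/
theorem colsum_of_key {i j : V} (hij : i ≠ j) {A B : Gr d} (h : key i j A = key i j B) {c : V}
    (hci : c ≠ i) (hcj : c ≠ j) :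
    (A.1 i c).toNat + (A.1 j c).toNat = (B.1 i c).toNat + (B.1 j c).toNat := by
  have := cnt_two (σ := A.1 c) (τ := B.1 c) hij
    (fun v h1 h2 => key_eq_iff.1 h c v (by simp [hci, hcj, h1, h2]))
  rw [A.2.deg, B.2.deg, A.2.symm c i, A.2.symm c j, B.2.symm c i, B.2.symm c j] at this
  omega

/-- Four distinct vertices on which the graph alternates along the cycle `i k j l`. -/
def Alt (i j k l : V) (A : Gr d) : Prop :=
  (i ≠ j ∧ k ≠ l ∧ k ≠ i ∧ k ≠ j ∧ l ≠ i ∧ l ≠ j) ∧
    A.1 i k ≠ A.1 j k ∧ A.1 i l ≠ A.1 j l ∧ A.1 i k ≠ A.1 i l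

instance (i j k l : V) (A : Gr d) : Decidable (Alt i j k l A) := by
  unfold Alt; infer_instance

/-- Toggling the four cells between `{i, j}` and `{k, l}`. -/
def tog (i j k l : V) (A : V → V → Bool) : V → V → Bool := fun u v =>
  if ((u = i ∨ u = j) ∧ (v = k ∨ v = l)) ∨ ((u = k ∨ u = l) ∧ (v = i ∨ v = j)) then !A u v
  else A u v

theorem isGr_tog {i j k l : V} {A : Gr d} (h : Alt i j k l A) : IsGr d (tog i j k l A.1) := by
  obtain ⟨⟨h1, h2, h3, h4, h5, h6⟩, a1, a2, a3⟩ := h
  have h1' := h1.symm; have h2' := h2.symm; have h3' := h3.symm; have h4' := h4.symm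
  have h5' := h5.symm; have h6' := h6.symm
  refine ⟨fun u v => ?_, fun v => ?_, fun v => ?_⟩
  · unfold tog
    rw [A.2.symm u v]
    congr 1
    apply propext; tauto
  · unfold tog
    rw [if_neg, A.2.diag]
    rintro (⟨rfl | rfl, h | h⟩ | ⟨rfl | rfl, h | h⟩) <;> simp_all
  · rw [← A.2.deg v]
    by_cases hv : v = i ∨ v = j
    · have := cnt_two (σ := tog i j k l A.1 v) (τ := A.1 v) h2 (fun w w1 w2 => by
        rcases hv with rfl | rfl <;> simp [tog, *])
      have e : (tog i j k l A.1 v k).toNat + (tog i j k l A.1 v l).toNat =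
          (A.1 v k).toNat + (A.1 v l).toNat := by
        rcases hv with rfl | rfl
        · simp only [tog, true_or, or_true, and_self, ↓reduceIte]
          revert a3; cases A.1 v k <;> cases A.1 v l <;> simp
        · simp only [tog, true_or, or_true, and_self, ↓reduceIte]
          revert a1 a2 a3
          cases A.1 v k <;> cases A.1 v l <;> cases A.1 i k <;> cases A.1 i l <;> simp
      omega
    by_cases hv' : v = k ∨ v = l
    · have := cnt_two (σ := tog i j k l A.1 v) (τ := A.1 v) h1 (fun w w1 w2 => by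
        rcases hv' with rfl | rfl <;> simp [tog, *])
      have e : (tog i j k l A.1 v i).toNat + (tog i j k l A.1 v j).toNat =
          (A.1 v i).toNat + (A.1 v j).toNat := by
        rw [A.2.symm v i, A.2.symm v j]
        rcases hv' with rfl | rfl
        · simp only [tog, true_or, or_true, and_self, ↓reduceIte, A.2.symm v i, A.2.symm v j]
          revert a1; cases A.1 i v <;> cases A.1 j v <;> simp
        · simp only [tog, true_or, or_true, and_self, ↓reduceIte, A.2.symm v i, A.2.symm v j]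
          revert a2; cases A.1 i v <;> cases A.1 j v <;> simp
      omega
    · congr 1; funext w; simp [tog, hv, hv']

/-- The switch along the cycle `i k j l` (the identity when it is not available). -/
def swi (i j k l : V) (A : Gr d) : Gr d :=
  if h : Alt i j k l A then ⟨tog i j k l A.1, isGr_tog h⟩ else A

theorem swi_of_alt {i j k l : V} {A : Gr d} (h : Alt i j k l A) :
    (swi i j k l A).1 = tog i j k l A.1 := by simp [swi, h]

theorem swi_of_not {i j k l : V} {A : Gr d} (h : ¬ Alt i j k l A) : swi i j k l A = A := by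
  simp [swi, h]

theorem alt_swi {i j k l : V} {A : Gr d} (h : Alt i j k l A) : Alt i j k l (swi i j k l A) := by
  have e := swi_of_alt h
  obtain ⟨hd, a1, a2, a3⟩ := h
  refine ⟨hd, ?_⟩
  rw [e]
  simp only [tog, true_or, or_true, and_self, ↓reduceIte]
  revert a1 a2 a3
  cases A.1 j k <;> cases A.1 j l <;> cases A.1 i k <;> cases A.1 i l <;> simp

theorem swi_invol (i j k l : V) : Function.Involutive (swi (d := d) i j k l) := by
  intro A
  by_cases h : Alt i j k l A
  · apply Subtype.ext
    rw [swi_of_alt (alt_swi h), swi_of_alt h]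
    funext u v
    unfold tog
    split_ifs <;> simp
  · rw [swi_of_not h, swi_of_not h]

theorem key_swi_left (i j k l : V) (A : Gr d) : key i j (swi i j k l A) = key i j A := by
  by_cases h : Alt i j k l A
  · rw [key_eq_iff]
    intro u v huv
    rw [swi_of_alt h]
    obtain ⟨⟨h1, h2, h3, h4, h5, h6⟩, -⟩ := h
    unfold tog
    rw [if_neg]
    rintro (⟨a, rfl | rfl⟩ | ⟨rfl | rfl, a⟩) <;> simp_all
  · rw [swi_of_not h]

theorem key_swi_right (i j k l : V) (A : Gr d) : key k l (swi i j k l A) = key k l A := by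
  by_cases h : Alt i j k l A
  · rw [key_eq_iff]
    intro u v huv
    rw [swi_of_alt h]
    obtain ⟨⟨h1, h2, h3, h4, h5, h6⟩, -⟩ := h
    have h3' := h3.symm; have h4' := h4.symm; have h5' := h5.symm; have h6' := h6.symm
    unfold tog
    rw [if_neg]
    rintro (⟨rfl | rfl, a⟩ | ⟨a, rfl | rfl⟩) <;> simp_all
  · rw [swi_of_not h]

omit [DecidableEq V] in
theorem alt_comm (i j k l : V) : Alt (d := d) i j k l = Alt k l i j := by
  have : ∀ (i j k l : V) (A : Gr d), Alt i j k l A → Alt k l i j A := by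
    rintro i j k l A ⟨⟨h1, h2, h3, h4, h5, h6⟩, a1, a2, a3⟩
    refine ⟨⟨h2, h1, h3.symm, h5.symm, h4.symm, h6.symm⟩, ?_⟩
    rw [A.2.symm k i, A.2.symm l i, A.2.symm k j, A.2.symm l j]
    revert a1 a2 a3
    cases A.1 j k <;> cases A.1 j l <;> cases A.1 i k <;> cases A.1 i l <;> simp
  funext A
  exact propext ⟨this _ _ _ _ A, this _ _ _ _ A⟩

omit [DecidableEq V] in
theorem sum_eq_sum_subtype (p : V → Prop) [DecidablePred p] (g : V → ℝ)
    (h : ∀ k, ¬ p k → g k = 0) : ∑ k, g k = ∑ k : {k // p k}, g k.1 := by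
  rw [← Finset.sum_subtype (univ.filter p) (by simp) g, Finset.sum_filter]
  refine Finset.sum_congr rfl fun k _ => ?_
  split_ifs with hk
  · rfl
  · exact h k hk

/-- The pair classes are slices. -/
theorem pair_bounds {i j : V} (hij : i ≠ j) (f : Gr d → ℝ) :
    ∑ k, ∑ l, ∑ A, lossAt (key i j) (Alt i j k l) (hh (key i j) f) A ≤
        (1 / 4) * ∑ k, ∑ l, ∑ A, (f A - f (swi i j k l A)) ^ 2 ∧
      ip (hh (key i j) f) (hh (key i j) f) ≤
        (1 / 4) * ∑ k, ∑ l, ∑ A, (f A - f (swi i j k l A)) ^ 2 := by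
  classical
  have main : ∀ A0 : Gr d,
      ∑ A ∈ fib (key i j) (key i j A0),
          ∑ k, ∑ l, lossAt (key i j) (Alt i j k l) (hh (key i j) f) A ≤
        ∑ A ∈ fib (key i j) (key i j A0), (1 / 4) * ∑ k, ∑ l, (f A - f (swi i j k l A)) ^ 2 ∧
      ∑ A ∈ fib (key i j) (key i j A0), hh (key i j) f A * hh (key i j) f A ≤
        ∑ A ∈ fib (key i j) (key i j A0), (1 / 4) * ∑ k, ∑ l, (f A - f (swi i j k l A)) ^ 2 := by
    intro A0
    let p : V → Prop := fun k => k ≠ i ∧ k ≠ j ∧ A0.1 i k ≠ A0.1 j k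
    let ι := {k // p k}
    let F := {A : Gr d // key i j A = key i j A0}
    have hout : ∀ (A : F) k, k ≠ i → k ≠ j → ¬ p k →
        A.1.1 i k = A0.1 i k ∧ A.1.1 j k = A0.1 i k := by
      intro A k h1 h2 h3
      have := colsum_of_key hij A.2 h1 h2
      simp only [p, h1, h2, ne_eq, not_false_eq_true, true_and, not_not] at h3
      rw [← h3] at this
      revert this
      cases A.1.1 i k <;> cases A.1.1 j k <;> cases A0.1 i k <;> simp
    have hin : ∀ (A : F) (k : ι), A.1.1 j k.1 = !A.1.1 i k.1 := by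
      intro A k
      have := colsum_of_key hij A.2 k.2.1 k.2.2.1
      have h3 := k.2.2.2
      revert this h3
      cases A.1.1 i k <;> cases A.1.1 j k <;> cases A0.1 i k <;> cases A0.1 j k <;> simp
    have hcnt : ∀ A : F, cnt (fun k : ι => A.1.1 i k.1) = cnt (fun k : ι => A0.1 i k.1) := by
      intro A
      have h1 : ∀ B : Gr d, d i = cnt (fun k : ι => B.1 i k.1) +
          ∑ k : {k // ¬ p k}, (B.1 i k.1).toNat := by
        intro B
        rw [← B.2.deg i, cnt, cnt]
        exact (Fintype.sum_subtype_add_sum_subtype p fun k => (B.1 i k).toNat).symm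
      have h2 : ∑ k : {k // ¬ p k}, (A.1.1 i k.1).toNat = ∑ k : {k // ¬ p k}, (A0.1 i k.1).toNat := by
        refine Finset.sum_congr rfl fun k _ => ?_
        by_cases k1 : k.1 = i
        · rw [k1, A.1.2.diag, A0.2.diag]
        by_cases k2 : k.1 = j
        · rw [k2, key_eq_iff.1 A.2 i j (by simp)]
        rw [(hout A k.1 k1 k2 k.2).1]
      have := h1 A.1
      have := h1 A0
      omega
    let α := cnt (fun k : ι => A0.1 i k.1)
    let x : F → Slice ι α := fun A => ⟨fun k => A.1.1 i k.1, hcnt A⟩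
    have xinj : Function.Injective x := by
      intro A B hAB
      have h0 : ∀ k : ι, A.1.1 i k.1 = B.1.1 i k.1 := fun k => congrFun (congrArg Subtype.val hAB) k
      have hk : key i j A.1 = key i j B.1 := A.2.trans B.2.symm
      have h1 : ∀ u v, (u = i ∨ u = j) → ¬ (v = i ∨ v = j) → A.1.1 u v = B.1.1 u v := by
        intro u v hu hv
        push Not at hv
        by_cases hp : p v
        · rcases hu with rfl | rfl
          · exact h0 ⟨v, hp⟩
          · rw [hin A ⟨v, hp⟩, hin B ⟨v, hp⟩, h0]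
        · rcases hu with rfl | rfl
          · rw [(hout A v hv.1 hv.2 hp).1, (hout B v hv.1 hv.2 hp).1]
          · rw [(hout A v hv.1 hv.2 hp).2, (hout B v hv.1 hv.2 hp).2]
      apply Subtype.ext; apply Subtype.ext; funext u v
      by_cases hu : u = i ∨ u = j <;> by_cases hv : v = i ∨ v = j
      · exact key_eq_iff.1 hk u v (by simp [hu, hv])
      · exact h1 u v hu hv
      · rw [A.1.2.symm, B.1.2.symm]; exact h1 v u hv hu
      · exact key_eq_iff.1 hk u v (by simp [hu, hv])
    let sF : V → V → F → F := fun k l A => ⟨swi i j k l A.1, (key_swi_left _ _ _ _ _).trans A.2⟩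
    have halt : ∀ (A : F) (k l : ι), Alt i j k.1 l.1 A.1 ↔ Dif k l (x A) := by
      intro A k l
      constructor
      · intro h; exact h.2.2.2
      · intro h
        have h' : A.1.1 i k.1 ≠ A.1.1 i l.1 := h
        refine ⟨⟨hij, ?_, k.2.1, k.2.2.1, l.2.1, l.2.2.1⟩, ?_, ?_, h'⟩
        · intro e; rw [e] at h'; exact h' rfl
        · rw [hin]; simp
        · rw [hin]; simp
    have hnalt : ∀ (A : F) (k l : V), (¬ p k ∨ ¬ p l) → ¬ Alt i j k l A.1 := by
      rintro A k l (h | h) ⟨⟨h1, h2, h3, h4, h5, h6⟩, a1, a2, a3⟩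
      · exact a1 ((hout A k h3 h4 h).1.trans (hout A k h3 h4 h).2.symm)
      · exact a2 ((hout A l h5 h6 h).1.trans (hout A l h5 h6 h).2.symm)
    have hxs : ∀ (A : F) (k l : ι), x (sF k.1 l.1 A) = sw k l (x A) := by
      intro A k l
      by_cases h : Alt i j k.1 l.1 A.1
      · apply Subtype.ext; funext m
        have h' : A.1.1 i k.1 ≠ A.1.1 i l.1 := h.2.2.2
        show (swi i j k.1 l.1 A.1).1 i m.1 = A.1.1 i (Equiv.swap k l m).1
        rw [swi_of_alt h]
        by_cases m1 : m = k
        · subst m1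
          simp only [tog, true_or, and_self, ↓reduceIte, Equiv.swap_apply_left]
          revert h'; cases A.1.1 i m.1 <;> cases A.1.1 i l.1 <;> simp
        by_cases m2 : m = l
        · subst m2
          simp only [tog, true_or, or_true, and_self, ↓reduceIte, Equiv.swap_apply_right]
          revert h'; cases A.1.1 i m.1 <;> cases A.1.1 i k.1 <;> simp
        have m3 : m.1 ≠ k.1 := fun e => m1 (Subtype.ext e)
        have m4 : m.1 ≠ l.1 := fun e => m2 (Subtype.ext e)
        rw [Equiv.swap_apply_of_ne_of_ne m1 m2]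
        simp [tog, m3, m4, m.2.1, m.2.2.1]
      · have : sF k.1 l.1 A = A := Subtype.ext (swi_of_not h)
        rw [this, sw_of_eq]
        rw [halt] at h
        exact not_not.1 h
    have xsurj : Function.Surjective x := by
      obtain ⟨a, ha⟩ := const_of_sw_inv (ind (fun σ => ∃ A, x A = σ)) (fun k l σ => ind_congr (by
        constructor
        · rintro ⟨A, hA⟩
          exact ⟨sF k.1 l.1 A, by rw [hxs, hA, sw_invol]⟩
        · rintro ⟨A, hA⟩
          exact ⟨sF k.1 l.1 A, by rw [hxs, hA]⟩))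
      intro σ
      by_contra hne
      have h1 := ha σ
      have h2 := ha (x ⟨A0, rfl⟩)
      rw [ind_neg (D := fun σ => ∃ A, x A = σ) hne] at h1
      rw [ind_pos (D := fun σ => ∃ A, x A = σ) ⟨_, rfl⟩] at h2
      linarith
    let e : F ≃ Slice ι α := Equiv.ofBijective x ⟨xinj, xsurj⟩
    let jj : Slice ι α → Gr d := fun σ => (e.symm σ).1
    have jinj : Function.Injective jj := Subtype.val_injective.comp e.symm.injective
    have jr : ∀ y, key i j y = key i j A0 ↔ ∃ σ, jj σ = y := fun y =>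
      ⟨fun h => ⟨e ⟨y, h⟩, by simp [jj]⟩, by rintro ⟨σ, rfl⟩; exact (e.symm σ).2⟩
    have je : ∀ σ τ, key i j (jj σ) = key i j (jj τ) ↔ (fun _ => ()) σ = (fun _ => ()) τ :=
      fun σ τ => ⟨fun _ => rfl, fun _ => (e.symm σ).2.trans (e.symm τ).2.symm⟩
    have jsat : ∀ σ y, key i j y = key i j (jj σ) → ∃ τ, jj τ = y := fun σ y h =>
      (jr y).1 (h.trans (e.symm σ).2)
    have xe : ∀ σ, x (e.symm σ) = σ := fun σ => e.apply_symm_apply σ
    have jsw : ∀ σ (k l : ι), swi i j k.1 l.1 (jj σ) = jj (sw k l σ) := by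
      intro σ k l
      have : sF k.1 l.1 (e.symm σ) = e.symm (sw k l σ) := by
        apply xinj; rw [hxs, xe, xe]
      exact congrArg Subtype.val this
    rw [sum_fib_eq_sum_inj _ _ jj jinj jr, sum_fib_eq_sum_inj _ _ jj jinj jr,
      sum_fib_eq_sum_inj _ _ jj jinj jr]
    have hb := slice_bounds (f ∘ jj)
    have r1 : ∑ σ, (1 / 4 : ℝ) * ∑ k, ∑ l, (f (jj σ) - f (swi i j k l (jj σ))) ^ 2 =
        (1 / 4) * ∑ k : ι, ∑ l : ι, ∑ σ, ((f ∘ jj) σ - (f ∘ jj) (sw k l σ)) ^ 2 := by
      rw [← Finset.mul_sum, sum_cyc' (fun (k l : ι) σ => ((f ∘ jj) σ - (f ∘ jj) (sw k l σ)) ^ 2)]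
      congr 1
      refine Finset.sum_congr rfl fun σ _ => ?_
      rw [sum_eq_sum_subtype p _ (fun k hk => Finset.sum_eq_zero fun l _ => by
        rw [swi_of_not (hnalt (e.symm σ) k l (Or.inl hk))]; simp [jj])]
      refine Finset.sum_congr rfl fun k _ => ?_
      rw [sum_eq_sum_subtype p _ (fun l hl => by
        rw [swi_of_not (hnalt (e.symm σ) k l (Or.inr hl))]; simp [jj])]
      exact Finset.sum_congr rfl fun l _ => by rw [jsw]; rfl
    have hz : ∀ σ (k l : V), (¬ p k ∨ ¬ p l) →
        lossAt (key i j) (Alt i j k l) (hh (key i j) f) (jj σ) = 0 := by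
      intro σ k l h
      rw [lossAt_comp_inj _ _ jj jinj je jsat _ (fun _ => False)
        (fun τ => ⟨hnalt (e.symm τ) k l h, False.elim⟩)]
      have : ind (fun _ : Slice ι α => False) = 0 := funext fun _ => ind_neg id
      simp [lossAt, this]
    have r2 : ∑ σ, ∑ k, ∑ l, lossAt (key i j) (Alt i j k l) (hh (key i j) f) (jj σ) =
        ∑ k : ι, ∑ l : ι, ∑ σ, lossAt (fun _ => ()) (Dif k l) (hh (fun _ => ()) (f ∘ jj)) σ := by
      rw [sum_cyc' (fun (k l : ι) σ =>
        lossAt (fun _ => ()) (Dif k l) (hh (fun _ => ()) (f ∘ jj)) σ)]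
      refine Finset.sum_congr rfl fun σ _ => ?_
      rw [sum_eq_sum_subtype p _ (fun k hk => Finset.sum_eq_zero fun l _ => hz σ k l (Or.inl hk))]
      refine Finset.sum_congr rfl fun k _ => ?_
      rw [sum_eq_sum_subtype p _ (fun l hl => hz σ k l (Or.inr hl))]
      refine Finset.sum_congr rfl fun l _ => ?_
      exact lossAt_comp_inj _ _ jj jinj je jsat _ _
        (fun τ => by have := halt (e.symm τ) k l; rwa [xe] at this) f σ
    have r3 : ∑ σ, hh (key i j) f (jj σ) * hh (key i j) f (jj σ) =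
        ip (hh (fun _ => ()) (f ∘ jj)) (hh (fun _ => ()) (f ∘ jj)) :=
      Finset.sum_congr rfl fun σ _ => by rw [hh_comp_inj _ _ jj jinj je jsat]
    rw [r1, r2, r3]
    exact hb
  have hfin : ∀ φ ψ : Gr d → ℝ, (∀ A0 : Gr d, ∑ A ∈ fib (key i j) (key i j A0), φ A ≤
      ∑ A ∈ fib (key i j) (key i j A0), ψ A) → ∑ A, φ A ≤ ∑ A, ψ A := by
    intro φ ψ h
    have := sum_nonneg_of_fib (key i j) (fun A => ψ A - φ A) (fun A0 => by
      rw [Finset.sum_sub_distrib]; linarith [h A0])
    rw [Finset.sum_sub_distrib] at this; linarith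
  have f1 := hfin _ _ fun A0 => (main A0).1
  have f2 := hfin _ _ fun A0 => (main A0).2
  rw [← Finset.mul_sum] at f1 f2
  rw [sum_cyc' (fun k l A => lossAt (key i j) (Alt i j k l) (hh (key i j) f) A),
    sum_cyc' (fun k l A => (f A - f (swi i j k l A)) ^ 2)]
  exact ⟨f1, f2⟩

end Crest.Agent.R299
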