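import Mathlib

/-!
Expansion of a double sum over ordered pairs according to how the two pairs meet.
-/

set_option autoImplicit false
open Finset

namespace Crest.Agent.R299

variable {V : Type*} [Fintype V] [DecidableEq V]

omit [DecidableEq V] in
theorem sum_cyc (F : V → V → V → ℝ) :
    ∑ i, ∑ j, ∑ k, F i j k = ∑ i, ∑ j, ∑ k, F j k i := by
  calc ∑ i, ∑ j, ∑ k, F i j k = ∑ i, ∑ k, ∑ j, F i j k :=
        Finset.sum_congr rfl fun _ _ => Finset.sum_comm
    _ = _ := Finset.sum_comm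

omit [DecidableEq V] in
theorem sum4_swap (F : V → V → V → V → ℝ) :
    ∑ i, ∑ j, ∑ k, ∑ l, F i j k l = ∑ i, ∑ j, ∑ k, ∑ l, F k l i j := by
  calc ∑ i, ∑ j, ∑ k, ∑ l, F i j k l = ∑ p : V × V, ∑ q : V × V, F p.1 p.2 q.1 q.2 := by
        simp only [Fintype.sum_prod_type]
    _ = ∑ q : V × V, ∑ p : V × V, F p.1 p.2 q.1 q.2 := Finset.sum_comm
    _ = _ := by simp only [Fintype.sum_prod_type]

theorem pair_expand (Φ : V → V → V → V → ℝ) (h1 : ∀ i j k l, Φ i j k l = Φ j i k l)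
    (h2 : ∀ i j k l, Φ i j k l = Φ i j l k) (h3 : ∀ i k l, Φ i i k l = 0)
    (h4 : ∀ i j k, Φ i j k k = 0) :
    ∑ i, ∑ j, ∑ k, ∑ l, Φ i j k l = 2 * ∑ i, ∑ j, Φ i j i j +
      4 * ∑ i, ∑ j, ∑ k, (if j ≠ k then Φ i j i k else 0) +
      ∑ i, ∑ j, ∑ k, ∑ l, (if k ≠ i ∧ k ≠ j ∧ l ≠ i ∧ l ≠ j then Φ i j k l else 0) := by
  have hpt : ∀ i j k l, Φ i j k l =
      (if k = i then (if l = j then Φ i j i j else 0) else 0) +
      (if k = j then (if l = i then Φ i j i j else 0) else 0) +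
      (if k = i then (if j ≠ l then Φ i j i l else 0) else 0) +
      (if k = j then (if i ≠ l then Φ j i j l else 0) else 0) +
      (if l = i then (if j ≠ k then Φ i j i k else 0) else 0) +
      (if l = j then (if i ≠ k then Φ j i j k else 0) else 0) +
      (if k ≠ i ∧ k ≠ j ∧ l ≠ i ∧ l ≠ j then Φ i j k l else 0) := by
    intro i j k l
    by_cases hij : i = j
    · subst hij; simp [h3]
    by_cases hkl : k = l
    · subst hkl
      by_cases hki : k = i
      · subst hki; simp [h4, hij]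
      by_cases hkj : k = j
      · subst hkj; simp [h4, hki]
      simp [h4, hki, hkj]
    have hji : ¬ j = i := fun h => hij h.symm
    have hlk : ¬ l = k := fun h => hkl h.symm
    by_cases hki : k = i
    · subst hki
      by_cases hlj : l = j
      · subst hlj; simp [hij, hji]
      · have : ¬ j = l := fun h => hlj h.symm
        simp [hij, hlj, hlk, this]
    by_cases hkj : k = j
    · subst hkj
      by_cases hli : l = i
      · subst hli; simp [hij, hji, h2 l k k l]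
      · have : ¬ i = l := fun h => hli h.symm
        simp [hki, hli, hlk, this, h1 i k k l]
    have hik : ¬ i = k := fun h => hki h.symm
    have hjk : ¬ j = k := fun h => hkj h.symm
    by_cases hli : l = i
    · subst hli; simp [hki, hkj, hij, hjk, h2 l j k l]
    by_cases hlj : l = j
    · subst hlj; simp [hki, hkj, hji, hik, h1 i l k l, h2 l i k l]
    simp [hki, hkj, hli, hlj]
  have e1 : ∑ i, ∑ j, ∑ k, ∑ l, (if k = i then (if l = j then Φ i j i j else 0) else 0) =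
      ∑ i, ∑ j, Φ i j i j := by simp
  have e2 : ∑ i, ∑ j, ∑ k, ∑ l, (if k = j then (if l = i then Φ i j i j else 0) else 0) =
      ∑ i, ∑ j, Φ i j i j := by simp
  have e3 : ∑ i, ∑ j, ∑ k, ∑ l, (if k = i then (if j ≠ l then Φ i j i l else 0) else 0) =
      ∑ i, ∑ j, ∑ k, (if j ≠ k then Φ i j i k else 0) := by
    refine Finset.sum_congr rfl fun i _ => Finset.sum_congr rfl fun j _ => ?_
    rw [Finset.sum_comm]; simp
  have e4 : ∑ i, ∑ j, ∑ k, ∑ l, (if k = j then (if i ≠ l then Φ j i j l else 0) else 0) =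
      ∑ i, ∑ j, ∑ k, (if j ≠ k then Φ i j i k else 0) := by
    rw [Finset.sum_comm]
    refine Finset.sum_congr rfl fun i _ => Finset.sum_congr rfl fun j _ => ?_
    rw [Finset.sum_comm]; simp
  have e5 : ∑ i, ∑ j, ∑ k, ∑ l, (if l = i then (if j ≠ k then Φ i j i k else 0) else 0) =
      ∑ i, ∑ j, ∑ k, (if j ≠ k then Φ i j i k else 0) := by
    refine Finset.sum_congr rfl fun i _ => Finset.sum_congr rfl fun j _ => ?_
    simp
  have e6 : ∑ i, ∑ j, ∑ k, ∑ l, (if l = j then (if i ≠ k then Φ j i j k else 0) else 0) =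
      ∑ i, ∑ j, ∑ k, (if j ≠ k then Φ i j i k else 0) := by
    rw [Finset.sum_comm]
    refine Finset.sum_congr rfl fun i _ => Finset.sum_congr rfl fun j _ => ?_
    simp
  rw [Finset.sum_congr rfl fun i _ => Finset.sum_congr rfl fun j _ => Finset.sum_congr rfl
    fun k _ => Finset.sum_congr rfl fun l _ => hpt i j k l]
  simp only [Finset.sum_add_distrib]
  rw [e1, e2, e3, e4, e5, e6]; ring

/-- Symmetrising the overlapping terms over the three cyclic rotations of a triple. -/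
theorem triple_sym (Ψ : V → V → V → ℝ) (h1 : ∀ i k, Ψ i i k = 0) (h2 : ∀ i j, Ψ i j i = 0) :
    3 * ∑ i, ∑ j, ∑ k, (if j ≠ k then Ψ i j k else 0) =
      ∑ i, ∑ j, ∑ k, (if i ≠ j ∧ j ≠ k ∧ i ≠ k then Ψ i j k + Ψ j k i + Ψ k i j else 0) := by
  have e0 : ∀ i j k, (if j ≠ k then Ψ i j k else 0) =
      (if i ≠ j ∧ j ≠ k ∧ i ≠ k then Ψ i j k else 0) := by
    intro i j k
    by_cases hij : i = j
    · subst hij; simp [h1]
    by_cases hik : i = k
    · subst hik; simp [h2]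
    simp [hij, hik]
  simp only [e0]
  have e1 := sum_cyc (fun i j k => if i ≠ j ∧ j ≠ k ∧ i ≠ k then Ψ i j k else 0)
  have e2 := sum_cyc (fun i j k => if j ≠ k ∧ k ≠ i ∧ j ≠ i then Ψ j k i else 0)
  have e3 : ∀ i j k, (if i ≠ j ∧ j ≠ k ∧ i ≠ k then Ψ i j k + Ψ j k i + Ψ k i j else 0) =
      (if i ≠ j ∧ j ≠ k ∧ i ≠ k then Ψ i j k else 0) +
      (if j ≠ k ∧ k ≠ i ∧ j ≠ i then Ψ j k i else 0) +
      (if k ≠ i ∧ i ≠ j ∧ k ≠ j then Ψ k i j else 0) := by
    intro i j k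
    by_cases hij : i = j
    · subst hij; simp
    by_cases hik : i = k
    · subst hik; simp
    by_cases hjk : j = k
    · subst hjk; simp
    have := Ne.symm hij
    have := Ne.symm hik
    have := Ne.symm hjk
    simp [*]
  simp only [e3, Finset.sum_add_distrib]
  have e4 : ∑ i, ∑ j, ∑ k, (if j ≠ k ∧ k ≠ i ∧ j ≠ i then Ψ j k i else 0) =
      ∑ i, ∑ j, ∑ k, (if i ≠ j ∧ j ≠ k ∧ i ≠ k then Ψ i j k else 0) := e1.symm
  have e5 : ∑ i, ∑ j, ∑ k, (if k ≠ i ∧ i ≠ j ∧ k ≠ j then Ψ k i j else 0) =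
      ∑ i, ∑ j, ∑ k, (if j ≠ k ∧ k ≠ i ∧ j ≠ i then Ψ j k i else 0) := e2.symm
  rw [e5, e4]; ring

end Crest.Agent.R299
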