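import Crest.Agent.R299.Basic
import Crest.Agent.R299.Pairs

/-!
The spectral gap of the transposition walk on a slice of the Boolean cube.
-/

set_option autoImplicit false
open Finset

namespace Crest.Agent.R299

section invol
variable {X : Type*} [Fintype X]

theorem sum_comp_invol (a : X → X) (ha : Function.Involutive a) (φ : X → ℝ) :
    ∑ x, φ (a x) = ∑ x, φ x := Equiv.sum_comp ha.toPerm φ

/-- `1 - τ` for a self-map `τ`. -/
def tt (a : X → X) : (X → ℝ) →ₗ[ℝ] (X → ℝ) where
  toFun f x := f x - f (a x)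
  map_add' f g := by funext x; simp; ring
  map_smul' c f := by funext x; simp; ring

omit [Fintype X] in
theorem tt_apply (a : X → X) (f : X → ℝ) (x : X) : tt a f x = f x - f (a x) := rfl

theorem ip_tt_left (a : X → X) (ha : Function.Involutive a) (f g : X → ℝ) :
    ip (tt a f) g = ip f (tt a g) := by
  have := sum_comp_invol a ha (fun x => f x * g (a x))
  simp only [ha _] at this
  simp only [ip, tt_apply, sub_mul, mul_sub, Finset.sum_sub_distrib, this]

omit [Fintype X] in
theorem tt_tt (a : X → X) (ha : Function.Involutive a) (f : X → ℝ) :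
    tt a (tt a f) = (2 : ℝ) • tt a f := by
  funext x; simp only [tt_apply, ha _, Pi.smul_apply, smul_eq_mul]; ring

theorem ip_tt_tt (a : X → X) (ha : Function.Involutive a) (f : X → ℝ) :
    ip (tt a f) (tt a f) = 2 * ip f (tt a f) := by
  rw [ip_tt_left a ha, tt_tt a ha, ip_smul_right]

theorem ip_tt_comm_nonneg (a b : X → X) (ha : Function.Involutive a) (hb : Function.Involutive b)
    (hab : ∀ x, a (b x) = b (a x)) (f : X → ℝ) : 0 ≤ ip (tt a f) (tt b f) := by
  have hc : ∀ g : X → ℝ, tt a (tt b g) = tt b (tt a g) := by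
    intro g; funext x; simp only [tt_apply, hab]; ring
  have h1 : ip (tt a (tt b f)) (tt a (tt b f)) = 4 * ip (tt a f) (tt b f) := by
    rw [ip_tt_tt a ha, hc, ← ip_tt_left b hb, tt_tt b hb, ip_smul_left, ip_comm (tt b f)]
    ring
  have := ip_self_nonneg (tt a (tt b f))
  linarith

theorem ip_tt_eq_sum_sq (a : X → X) (f : X → ℝ) :
    ip (tt a f) (tt a f) = ∑ x, (f x - f (a x)) ^ 2 := by
  simp only [ip, tt_apply, sq]

end invol

section slice
variable {ι : Type*} [Fintype ι] [DecidableEq ι]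

/-- The number of `true` coordinates. -/
def cnt (σ : ι → Bool) : ℕ := ∑ k, (σ k).toNat

/-- The slice of the cube with `α` coordinates equal to `true`. -/
abbrev Slice (ι : Type*) [Fintype ι] (α : ℕ) := {σ : ι → Bool // cnt σ = α}

variable {α : ℕ}

/-- Permuting the coordinates. -/
def act (π : Equiv.Perm ι) (σ : Slice ι α) : Slice ι α :=
  ⟨σ.1 ∘ π, (Equiv.sum_comp π fun k => (σ.1 k).toNat).trans σ.2⟩

omit [DecidableEq ι] in
@[simp] theorem act_val (π : Equiv.Perm ι) (σ : Slice ι α) (k : ι) :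
    (act π σ).1 k = σ.1 (π k) := rfl

/-- Exchanging two coordinates. -/
def sw (k l : ι) (σ : Slice ι α) : Slice ι α := act (Equiv.swap k l) σ

@[simp] theorem sw_val (k l : ι) (σ : Slice ι α) (m : ι) :
    (sw k l σ).1 m = σ.1 (Equiv.swap k l m) := rfl

theorem sw_invol (k l : ι) : Function.Involutive (sw k l : Slice ι α → Slice ι α) := by
  intro σ; apply Subtype.ext; funext m; simp

theorem sw_self (k : ι) (σ : Slice ι α) : sw k k σ = σ := by
  apply Subtype.ext; funext m; simp

theorem sw_comm (k l : ι) : (sw k l : Slice ι α → Slice ι α) = sw l k := by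
  funext σ; unfold sw; rw [Equiv.swap_comm]

theorem sw_of_eq {k l : ι} {σ : Slice ι α} (h : σ.1 k = σ.1 l) : sw k l σ = σ := by
  apply Subtype.ext; funext m
  simp only [sw_val, Equiv.swap_apply_def]
  split_ifs <;> simp_all

theorem sw_sw_comm {i j k l : ι} (h1 : k ≠ i) (h2 : k ≠ j) (h3 : l ≠ i) (h4 : l ≠ j)
    (σ : Slice ι α) : sw i j (sw k l σ) = sw k l (sw i j σ) := by
  apply Subtype.ext; funext m
  simp only [sw_val, Equiv.swap_apply_def]
  split_ifs <;> simp_all

theorem sw_triple_inv {i j k : ι} (hij : i ≠ j) (hjk : j ≠ k) (hik : i ≠ k) (g : Slice ι α → ℝ)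
    (σ : Slice ι α) :
    g (sw i j (sw i j σ)) + g (sw j k (sw i j σ)) + g (sw k i (sw i j σ)) =
      g (sw i j σ) + g (sw j k σ) + g (sw k i σ) := by
  by_cases h : σ.1 i = σ.1 j
  · rw [sw_of_eq h]; rw [sw_of_eq h]
  rw [sw_invol i j σ]
  by_cases h2 : σ.1 k = σ.1 i
  · have e1 : sw k i σ = σ := sw_of_eq h2
    have e2 : sw j k (sw i j σ) = sw i j σ := sw_of_eq (by
      simp [Equiv.swap_apply_def, hik.symm, hjk.symm, h2])
    have e3 : sw k i (sw i j σ) = sw j k σ := by
      apply Subtype.ext; funext m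
      simp only [sw_val, Equiv.swap_apply_def]
      split_ifs <;> simp_all
    rw [e1, e2, e3]; ring
  · have h3 : σ.1 j = σ.1 k := by
      revert h h2; cases σ.1 i <;> cases σ.1 j <;> cases σ.1 k <;> simp
    have e1 : sw j k σ = σ := sw_of_eq h3
    have e2 : sw k i (sw i j σ) = sw i j σ := sw_of_eq (by
      simp [Equiv.swap_apply_def, hik.symm, hjk.symm, h3])
    have e3 : sw j k (sw i j σ) = sw k i σ := by
      apply Subtype.ext; funext m
      simp only [sw_val, Equiv.swap_apply_def]
      split_ifs <;> simp_all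
    rw [e1, e2, e3]; ring

theorem sw_triple {i j k : ι} (hij : i ≠ j) (hjk : j ≠ k) (hik : i ≠ k) (g : Slice ι α → ℝ) :
    2 * (ip (tt (sw i j) g) (tt (sw i k) g) + ip (tt (sw j k) g) (tt (sw j i) g) +
      ip (tt (sw k i) g) (tt (sw k j) g)) =
      ip g (tt (sw i j) g) + ip g (tt (sw j k) g) + ip g (tt (sw k i) g) := by
  set a := tt (sw i j) g with ha
  set b := tt (sw j k) g with hb
  set c := tt (sw k i) g with hc
  have e1 : tt (sw i k) g = c := by rw [hc, sw_comm]
  have e2 : tt (sw j i) g = a := by rw [ha, sw_comm]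
  have e3 : tt (sw k j) g = b := by rw [hb, sw_comm]
  rw [e1, e2, e3]
  have key : ∀ {i j k : ι}, i ≠ j → j ≠ k → i ≠ k →
      tt (sw i j) (tt (sw i j) g + tt (sw j k) g + tt (sw k i) g) = (3 : ℝ) • tt (sw i j) g := by
    intro i j k hij hjk hik
    funext σ
    have := sw_triple_inv hij hjk hik g σ
    simp only [tt_apply, Pi.add_apply, Pi.smul_apply, smul_eq_mul]
    linarith
  have k1 : ip a (a + b + c) = 3 * ip g a := by
    rw [ha, ip_tt_left _ (sw_invol i j), key hij hjk hik, ip_smul_right]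
  have k2 : ip b (b + c + a) = 3 * ip g b := by
    rw [hb, ip_tt_left _ (sw_invol j k), key hjk hik.symm hij.symm, ip_smul_right]
  have k3 : ip c (c + a + b) = 3 * ip g c := by
    rw [hc, ip_tt_left _ (sw_invol k i), key hik.symm hij hjk.symm, ip_smul_right]
  have s1 : ip a a = 2 * ip g a := ip_tt_tt _ (sw_invol i j) g
  have s2 : ip b b = 2 * ip g b := ip_tt_tt _ (sw_invol j k) g
  have s3 : ip c c = 2 * ip g c := ip_tt_tt _ (sw_invol k i) g
  simp only [ip_add_right] at k1 k2 k3
  rw [ip_comm a b] at k1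
  rw [ip_comm b c] at k2
  rw [ip_comm c a] at k3
  linarith

theorem const_of_sw_inv (v : Slice ι α → ℝ) (hv : ∀ k l σ, v (sw k l σ) = v σ) :
    ∃ a, ∀ σ, v σ = a := by
  have h1 : ∀ (π : Equiv.Perm ι) σ, v (act π σ) = v σ := by
    intro π
    induction π using Equiv.Perm.swap_induction_on' with
    | one => intro σ; rfl
    | mul_swap f x y _ ih =>
      intro σ
      have : act (f * Equiv.swap x y) σ = sw x y (act f σ) := rfl
      rw [this, hv, ih]
  have h2 : ∀ σ σ' : Slice ι α, v σ = v σ' := by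
    intro σ σ'
    have hc : ∀ τ : Slice ι α, (univ.filter fun k => τ.1 k = true).card = α := by
      intro τ
      refine Eq.trans ?_ τ.2
      rw [cnt, Finset.card_filter]
      exact Finset.sum_congr rfl fun k _ => by cases τ.1 k <;> simp
    obtain ⟨π, hπ⟩ := Equiv.Perm.exists_map_finset_eq (univ.filter fun k => σ'.1 k = true)
      (univ.filter fun k => σ.1 k = true) (by rw [hc, hc])
    have : σ' = act π σ := by
      apply Subtype.ext; funext k
      have h3 : π k ∈ (univ.filter fun k => σ.1 k = true) ↔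
          k ∈ (univ.filter fun k => σ'.1 k = true) := by
        rw [← hπ]; simp
      simp only [Finset.mem_filter, Finset.mem_univ, true_and] at h3
      simp only [act_val]
      revert h3; cases σ.1 (π k) <;> cases σ'.1 k <;> simp
    rw [this, h1]
  by_cases hne : Nonempty (Slice ι α)
  · obtain ⟨σ0⟩ := hne
    exact ⟨v σ0, fun σ => h2 _ _⟩
  · exact ⟨0, fun σ => absurd ⟨σ⟩ hne⟩

/-- The spectral gap of the transposition walk on a slice. -/
theorem johnson_gap (g : Slice ι α → ℝ) (hg : ∑ σ, g σ = 0) :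
    (Fintype.card ι : ℝ) * ip g g ≤ (1 / 4) * ∑ k, ∑ l, ∑ σ, (g σ - g (sw k l σ)) ^ 2 := by
  let A : (Slice ι α → ℝ) →ₗ[ℝ] (Slice ι α → ℝ) := ∑ k, ∑ l, tt (sw k l)
  have hA : ∀ f, A f = ∑ k, ∑ l, tt (sw k l) f := by
    intro f; simp [A, LinearMap.sum_apply]
  have hAip : ∀ f, ip f (A f) = ∑ k, ∑ l, ip f (tt (sw k l) f) := by
    intro f; rw [hA, ip_sum_right]; exact Finset.sum_congr rfl fun k _ => ip_sum_right _ _ _
  have hAsq : ∀ f, ip f (A f) = (1 / 2) * ∑ k, ∑ l, ∑ σ, (f σ - f (sw k l σ)) ^ 2 := by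
    intro f
    rw [hAip, Finset.mul_sum]
    refine Finset.sum_congr rfl fun k _ => ?_
    rw [Finset.mul_sum]
    refine Finset.sum_congr rfl fun l _ => ?_
    rw [← ip_tt_eq_sum_sq, ip_tt_tt _ (sw_invol k l)]; ring
  have hzero : ∀ k (f : Slice ι α → ℝ), tt (sw k k) f = 0 := by
    intro k f; funext σ; simp [tt_apply, sw_self]
  have hsym : ∀ f g, ip (A f) g = ip f (A g) := by
    intro f g
    rw [hA, hA, ip_sum_left, ip_sum_right]
    refine Finset.sum_congr rfl fun k _ => ?_
    rw [ip_sum_left, ip_sum_right]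
    exact Finset.sum_congr rfl fun l _ => ip_tt_left _ (sw_invol k l) _ _
  have hpos : ∀ f, 0 ≤ ip f (A f) := by
    intro f; rw [hAsq]; positivity
  have hform : ∀ f, (2 * Fintype.card ι : ℝ) * ip f (A f) ≤ ip (A f) (A f) := by
    intro f
    have e0 : ip (A f) (A f) = ∑ i, ∑ j, ∑ k, ∑ l, ip (tt (sw i j) f) (tt (sw k l) f) := by
      rw [hA, ip_sum_left]
      refine Finset.sum_congr rfl fun i _ => ?_
      rw [ip_sum_left]
      refine Finset.sum_congr rfl fun j _ => ?_
      rw [ip_sum_right]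
      exact Finset.sum_congr rfl fun k _ => ip_sum_right _ _ _
    rw [e0, pair_expand (fun i j k l => ip (tt (sw i j) f) (tt (sw k l) f))
      (fun i j k l => by rw [sw_comm i j]) (fun i j k l => by rw [sw_comm k l])
      (fun i k l => by rw [hzero]; simp [ip]) (fun i j k => by rw [hzero]; simp [ip])]
    have e2 : ∑ i, ∑ j, ip (tt (sw i j) f) (tt (sw i j) f) = 2 * ip f (A f) := by
      rw [hAip, Finset.mul_sum]
      refine Finset.sum_congr rfl fun i _ => ?_
      rw [Finset.mul_sum]
      exact Finset.sum_congr rfl fun j _ => ip_tt_tt _ (sw_invol i j) _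
    have e4 : 0 ≤ ∑ i, ∑ j, ∑ k, ∑ l, (if k ≠ i ∧ k ≠ j ∧ l ≠ i ∧ l ≠ j then
        ip (tt (sw i j) f) (tt (sw k l) f) else 0) := by
      refine Finset.sum_nonneg fun i _ => Finset.sum_nonneg fun j _ => Finset.sum_nonneg
        fun k _ => Finset.sum_nonneg fun l _ => ?_
      split_ifs with h
      · exact ip_tt_comm_nonneg _ _ (sw_invol i j) (sw_invol k l)
          (sw_sw_comm h.1 h.2.1 h.2.2.1 h.2.2.2) f
      · exact le_rfl
    have e3 := triple_sym (fun i j k => ip (tt (sw i j) f) (tt (sw i k) f))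
      (fun i k => by rw [hzero]; simp [ip]) (fun i j => by rw [hzero]; simp [ip])
    have e5 : ∑ i, ∑ j, ∑ k, (if i ≠ j ∧ j ≠ k ∧ i ≠ k then
        ip (tt (sw i j) f) (tt (sw i k) f) + ip (tt (sw j k) f) (tt (sw j i) f) +
          ip (tt (sw k i) f) (tt (sw k j) f) else 0) =
        (1 / 2) * ∑ i, ∑ j, ∑ k, (if i ≠ j ∧ j ≠ k ∧ i ≠ k then
          ip f (tt (sw i j) f) + ip f (tt (sw j k) f) + ip f (tt (sw k i) f) else 0) := by
      simp only [Finset.mul_sum]
      refine Finset.sum_congr rfl fun i _ => Finset.sum_congr rfl fun j _ =>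
        Finset.sum_congr rfl fun k _ => ?_
      split_ifs with h
      · have := sw_triple h.1 h.2.1 h.2.2 f
        linarith
      · simp
    have e6 := triple_sym (fun i j k => if i ≠ k then ip f (tt (sw i j) f) else 0)
      (fun i k => by rw [hzero]; simp [ip]) (fun i j => by simp)
    have e7 : ∑ i, ∑ j, ∑ k, (if i ≠ j ∧ j ≠ k ∧ i ≠ k then
          ip f (tt (sw i j) f) + ip f (tt (sw j k) f) + ip f (tt (sw k i) f) else 0) =
        ∑ i, ∑ j, ∑ k, (if i ≠ j ∧ j ≠ k ∧ i ≠ k then
          (if i ≠ k then ip f (tt (sw i j) f) else 0) +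
          (if j ≠ i then ip f (tt (sw j k) f) else 0) +
          (if k ≠ j then ip f (tt (sw k i) f) else 0) else 0) := by
      refine Finset.sum_congr rfl fun i _ => Finset.sum_congr rfl fun j _ =>
        Finset.sum_congr rfl fun k _ => ?_
      by_cases h : i ≠ j ∧ j ≠ k ∧ i ≠ k
      · rw [if_pos h, if_pos h, if_pos h.2.2, if_pos h.1.symm, if_pos h.2.1.symm]
      · rw [if_neg h, if_neg h]
    have e8 : ∑ i, ∑ j, ∑ k, (if j ≠ k then (if i ≠ k then ip f (tt (sw i j) f) else 0) else 0) =
        (Fintype.card ι - 2 : ℝ) * ip f (A f) := by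
      rw [hAip, Finset.mul_sum]
      refine Finset.sum_congr rfl fun i _ => ?_
      rw [Finset.mul_sum]
      refine Finset.sum_congr rfl fun j _ => ?_
      by_cases hij : i = j
      · subst hij; rw [hzero]; simp [ip]
      have : ∀ k, (if j ≠ k then (if i ≠ k then ip f (tt (sw i j) f) else 0) else 0) =
          ip f (tt (sw i j) f) - (if k = i then ip f (tt (sw i j) f) else 0) -
            (if k = j then ip f (tt (sw i j) f) else 0) := by
        intro k
        by_cases hki : k = i
        · subst hki; simp [hij]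
        by_cases hkj : k = j
        · subst hkj; simp [hki]
        simp [hki, hkj, Ne.symm hki, Ne.symm hkj]
      simp only [this, Finset.sum_sub_distrib]
      simp; ring
    rw [e2]
    rw [e5, e7, ← e6, e8] at e3
    linarith
  have hker : ∀ v, A v = 0 → ∃ a, ∀ σ, v σ = a := by
    intro v hv
    apply const_of_sw_inv
    intro k l σ
    have h0 : ∑ k, ∑ l, ∑ σ, (v σ - v (sw k l σ)) ^ 2 = 0 := by
      have := hAsq v
      rw [hv] at this
      simp only [ip, Pi.zero_apply, mul_zero, Finset.sum_const_zero] at this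
      linarith
    have h1 := (Finset.sum_eq_zero_iff_of_nonneg (fun k _ => by positivity)).1 h0 k
      (Finset.mem_univ _)
    have h2 := (Finset.sum_eq_zero_iff_of_nonneg (fun k _ => by positivity)).1 h1 l
      (Finset.mem_univ _)
    have h3 := (Finset.sum_eq_zero_iff_of_nonneg (fun k _ => by positivity)).1 h2 σ
      (Finset.mem_univ _)
    have := pow_eq_zero_iff (two_ne_zero) |>.1 h3
    linarith
  have := gap_of_form A hsym _ hpos hform hker g hg
  rw [hAsq] at this
  linarith

end slice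

end Crest.Agent.R299
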