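import Mathlib
import Crest.Prelude.Def_SwitchChain

/-!
Basic properties of the switch kernel: perfect matchings on four points, symmetry, row sums and
invariance of the degrees.
-/

set_option autoImplicit false
open Finset Crest.SwitchChain

namespace Crest.Agent.R299

variable {n : ℕ}

/-- The edge with endpoints `u ≠ v`. -/
def ed (u v : Fin n) (h : u ≠ v) : Edge n := ⟨s(u, v), by simpa using h⟩

@[simp] theorem ed_val (u v : Fin n) (h : u ≠ v) : (ed u v h).1 = s(u, v) := rfl

theorem ed_eq_iff {u v u' v' : Fin n} {h : u ≠ v} {h' : u' ≠ v'} :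
    ed u v h = ed u' v' h' ↔ (u = u' ∧ v = v') ∨ (u = v' ∧ v = u') := by
  rw [Subtype.ext_iff, ed_val, ed_val, Sym2.eq_iff]

theorem exists_ed (e : Edge n) : ∃ u v h, e = ed u v h := by
  obtain ⟨e, he⟩ := e
  induction e using Sym2.ind with
  | _ u v => exact ⟨u, v, by simpa using he, rfl⟩

theorem mem_pmSet {S : Finset (Fin n)} {F : Finset (Edge n)} : F ∈ pmSet S ↔
    F.card = 2 ∧ (∀ e ∈ F, ∀ v : Fin n, v ∈ e.1 → v ∈ S) ∧
      ∀ v ∈ S, (F.filter fun e => v ∈ e.1).card = 1 := by
  simp [pmSet]

theorem pair_mem_pmSet {a b c d : Fin n} (hab : a ≠ b) (hac : a ≠ c) (had : a ≠ d) (hbc : b ≠ c)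
    (hbd : b ≠ d) (hcd : c ≠ d) {S : Finset (Fin n)}
    (hS : ∀ v, v ∈ S ↔ v = a ∨ v = b ∨ v = c ∨ v = d) :
    ({ed a b hab, ed c d hcd} : Finset (Edge n)) ∈ pmSet S := by
  have := hab.symm; have := hac.symm; have := had.symm; have := hbc.symm; have := hbd.symm
  have := hcd.symm
  refine mem_pmSet.2 ⟨Finset.card_pair (by simp [ed_eq_iff, *]), ?_, ?_⟩
  · intro e he v hv
    rw [hS]
    simp only [Finset.mem_insert, Finset.mem_singleton] at he
    rcases he with rfl | rfl <;> simp only [ed_val, Sym2.mem_iff] at hv <;> tauto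
  · intro v hv
    rw [hS] at hv
    rcases hv with rfl | rfl | rfl | rfl <;> simp [Finset.filter_insert, Finset.filter_singleton, *]

theorem pm_struct {S : Finset (Fin n)} {F : Finset (Edge n)} (hF : F ∈ pmSet S) {a : Fin n}
    (ha : a ∈ S) : ∃ x y z, ∃ (h1 : a ≠ x) (h2 : y ≠ z), x ∈ S ∧ y ∈ S ∧ z ∈ S ∧ y ≠ a ∧ z ≠ a ∧
      y ≠ x ∧ z ≠ x ∧ F = {ed a x h1, ed y z h2} := by
  obtain ⟨h1, h2, h3⟩ := mem_pmSet.1 hF
  obtain ⟨e1, he1⟩ := Finset.card_eq_one.1 (h3 a ha)
  have m1 : e1 ∈ F.filter fun e => a ∈ e.1 := by rw [he1]; simp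
  rw [Finset.mem_filter] at m1
  obtain ⟨e2, hne, hF2⟩ : ∃ e2, e1 ≠ e2 ∧ F = {e1, e2} := by
    obtain ⟨p, q, hpq, rfl⟩ := Finset.card_eq_two.1 h1
    have := m1.1
    simp only [Finset.mem_insert, Finset.mem_singleton] at this
    rcases this with rfl | rfl
    · exact ⟨q, hpq, rfl⟩
    · exact ⟨p, hpq.symm, Finset.pair_comm _ _⟩
  obtain ⟨x, hx⟩ := Sym2.mem_iff_exists.1 m1.2
  have hax : a ≠ x := by
    have := e1.2; rw [hx] at this; simpa using this
  have e1eq : e1 = ed a x hax := Subtype.ext hx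
  obtain ⟨y, z, hyz, rfl⟩ := exists_ed e2
  have m2 : ed y z hyz ∈ F := by rw [hF2]; simp
  have hxS : x ∈ S := h2 e1 m1.1 x (by rw [hx]; simp)
  have key : ∀ w ∈ S, w ∈ e1.1 → w ∉ (ed y z hyz).1 := by
    intro w hw w1 w2
    have := h3 w hw
    rw [Finset.filter_true_of_mem, h1] at this
    · omega
    · intro e he
      rw [hF2] at he
      simp only [Finset.mem_insert, Finset.mem_singleton] at he
      rcases he with rfl | rfl
      · exact w1
      · exact w2
  have k1 := key a ha m1.2
  have k2 := key x hxS (by rw [hx]; simp)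
  simp only [ed_val, Sym2.mem_iff, not_or] at k1 k2
  exact ⟨x, y, z, hax, hyz, hxS, h2 _ m2 y (by simp), h2 _ m2 z (by simp), Ne.symm k1.1,
    Ne.symm k1.2, Ne.symm k2.1, Ne.symm k2.2, by rw [hF2, e1eq]⟩

theorem ed_comm (u v : Fin n) (h : u ≠ v) : ed u v h = ed v u h.symm := by simp [ed_eq_iff]

theorem pmSet_eq {a b c d : Fin n} (hab : a ≠ b) (hac : a ≠ c) (had : a ≠ d) (hbc : b ≠ c)
    (hbd : b ≠ d) (hcd : c ≠ d) {S : Finset (Fin n)}
    (hS : ∀ v, v ∈ S ↔ v = a ∨ v = b ∨ v = c ∨ v = d) :
    pmSet S = {{ed a b hab, ed c d hcd}, {ed a c hac, ed b d hbd}, {ed a d had, ed b c hbc}} := by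
  ext F
  simp only [Finset.mem_insert, Finset.mem_singleton]
  constructor
  · intro hF
    obtain ⟨x, y, z, h1, h2, hx, hy, hz, k1, k2, k3, k4, rfl⟩ := pm_struct hF ((hS a).2 (by simp))
    rw [hS] at hx hy hz
    rcases hx with rfl | rfl | rfl | rfl
    · exact absurd rfl h1
    all_goals
      rcases hy with rfl | rfl | rfl | rfl <;> rcases hz with rfl | rfl | rfl | rfl <;>
        first
          | exact absurd rfl k1
          | exact absurd rfl k2
          | exact absurd rfl k3
          | exact absurd rfl k4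
          | exact absurd rfl h2
          | exact Or.inl rfl
          | exact Or.inr (Or.inl rfl)
          | exact Or.inr (Or.inr rfl)
          | (rw [ed_comm _ _ h2]; first
              | exact Or.inl rfl
              | exact Or.inr (Or.inl rfl)
              | exact Or.inr (Or.inr rfl))
  · rintro (rfl | rfl | rfl)
    · exact pair_mem_pmSet hab hac had hbc hbd hcd hS
    · exact pair_mem_pmSet hac hab had hbc.symm hcd hbd (fun v => by rw [hS]; tauto)
    · exact pair_mem_pmSet had hab hac hbd.symm hcd.symm hbc (fun v => by rw [hS]; tauto)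

theorem pm_facts {S : Finset (Fin n)} (hS : S.card = 4) : (pmSet S).card = 3 ∧
    ∀ F ∈ pmSet S, ∀ F' ∈ pmSet S, F ≠ F' → Disjoint F F' := by
  obtain ⟨a, b, c, d, hab, hac, had, hbc, hbd, hcd, rfl⟩ := Finset.card_eq_four.1 hS
  have := hab.symm; have := hac.symm; have := had.symm; have := hbc.symm; have := hbd.symm
  have := hcd.symm
  have d1 : Disjoint ({ed a b hab, ed c d hcd} : Finset (Edge n)) {ed a c hac, ed b d hbd} := by
    simp [ed_eq_iff, *]
  have d2 : Disjoint ({ed a b hab, ed c d hcd} : Finset (Edge n)) {ed a d had, ed b c hbc} := by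
    simp [ed_eq_iff, *]
  have d3 : Disjoint ({ed a c hac, ed b d hbd} : Finset (Edge n)) {ed a d had, ed b c hbc} := by
    simp [ed_eq_iff, *]
  have ne : ∀ {p q : Edge n} {T : Finset (Edge n)}, Disjoint {p, q} T → {p, q} ≠ T := by
    rintro p q T h rfl
    simp at h
  rw [pmSet_eq hab hac had hbc hbd hcd (by simp)]
  refine ⟨Finset.card_eq_three.2 ⟨_, _, _, ne d1, ne d2, ne d3, rfl⟩, ?_⟩
  intro F hF F' hF' hne
  simp only [Finset.mem_insert, Finset.mem_singleton] at hF hF'
  rcases hF with rfl | rfl | rfl <;> rcases hF' with rfl | rfl | rfl <;>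
    first | exact absurd rfl hne | assumption | (symm; assumption)

theorem deg_pm {S : Finset (Fin n)} {F : Finset (Edge n)} (hF : F ∈ pmSet S) (v : Fin n) :
    deg F v = if v ∈ S then 1 else 0 := by
  obtain ⟨-, h2, h3⟩ := mem_pmSet.1 hF
  split_ifs with hv
  · exact h3 v hv
  · rw [deg, Finset.card_eq_zero, Finset.filter_eq_empty_iff]
    exact fun e he h => hv (h2 e he v h)

theorem deg_switch {S : Finset (Fin n)} {F F' : Finset (Edge n)} (hF : F ∈ pmSet S)
    (hF' : F' ∈ pmSet S) (E : Finset (Edge n)) (v : Fin n) :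
    deg (switchResult E F F') v = deg E v := by
  unfold switchResult
  split_ifs with h
  · have h1 := deg_pm hF v
    rw [← deg_pm hF' v] at h1
    unfold deg at h1 ⊢
    rw [Finset.filter_union, Finset.card_union_of_disjoint (Finset.disjoint_filter_filter
      (Finset.disjoint_of_subset_left Finset.sdiff_subset h.2.symm)), ← h1,
      ← Finset.card_union_of_disjoint (Finset.disjoint_filter_filter Finset.sdiff_disjoint),
      ← Finset.filter_union, Finset.sdiff_union_of_subset h.1]
  · rfl

theorem switch_rev {F F' E E' : Finset (Edge n)} (hd : Disjoint F F') (hne : E ≠ E')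
    (h : switchResult E F F' = E') : switchResult E' F' F = E := by
  unfold switchResult at h ⊢
  split_ifs at h with h1
  · subst h
    rw [if_pos ⟨Finset.subset_union_right, by
      rw [Finset.disjoint_union_right]; exact ⟨Finset.disjoint_sdiff, hd⟩⟩]
    rw [Finset.union_sdiff_right, Finset.sdiff_eq_self_of_disjoint
      (Finset.disjoint_of_subset_left Finset.sdiff_subset h1.2.symm),
      Finset.sdiff_union_of_subset h1.1]
  · exact absurd h hne

theorem proposalCount_symm (E E' : Finset (Edge n)) : proposalCount E E' = proposalCount E' E := by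
  by_cases hne : E = E'
  · rw [hne]
  unfold proposalCount
  refine Finset.sum_congr rfl fun S hS => ?_
  have hS4 : S.card = 4 := (Finset.mem_powersetCard.1 hS).2
  rw [Finset.sum_comm' (t' := pmSet S) (s' := fun F' => (pmSet S).erase F') (by
    intro F F'; simp only [Finset.mem_erase]; tauto)]
  refine Finset.sum_congr rfl fun F' hF' => Finset.sum_congr rfl fun F hF => ?_
  rw [Finset.mem_erase] at hF
  have hd := (pm_facts hS4).2 F hF.2 F' hF' hF.1
  exact if_congr ⟨switch_rev hd hne, switch_rev hd.symm (Ne.symm hne)⟩ rfl rfl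

theorem sum_proposalCount (E : Finset (Edge n)) : ∑ E', proposalCount E E' = 6 * n.choose 4 := by
  unfold proposalCount
  rw [Finset.sum_comm]
  have : ∀ S ∈ (univ : Finset (Fin n)).powersetCard 4, ∑ E', ∑ F ∈ pmSet S,
      ∑ F' ∈ (pmSet S).erase F, (if switchResult E F F' = E' then 1 else 0) = 6 := by
    intro S hS
    have h3 := (pm_facts (Finset.mem_powersetCard.1 hS).2).1
    rw [Finset.sum_comm]
    have : ∀ F ∈ pmSet S, ∑ E', ∑ F' ∈ (pmSet S).erase F,
        (if switchResult E F F' = E' then 1 else 0) = 2 := by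
      intro F hF
      rw [Finset.sum_comm]
      simp [Finset.card_erase_of_mem hF, h3]
    rw [Finset.sum_congr rfl this]; simp [h3]
  rw [Finset.sum_congr rfl this]
  simp [mul_comm]

theorem proposalCount_eq_zero {d : Fin n → ℕ} {E E' : Finset (Edge n)} (hE : E ∈ realizations d)
    (hE' : E' ∉ realizations d) : proposalCount E E' = 0 := by
  unfold proposalCount
  refine Finset.sum_eq_zero fun S _ => Finset.sum_eq_zero fun F hF => Finset.sum_eq_zero
    fun F' hF' => if_neg ?_
  rintro rfl
  apply hE'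
  simp only [realizations, Finset.mem_filter, Finset.mem_univ, true_and] at hE ⊢
  exact fun v => (deg_switch hF (Finset.mem_of_mem_erase hF') E v).trans (hE v)

theorem one_le_proposalCount {S : Finset (Fin n)} (hS : S.card = 4) {F F' : Finset (Edge n)}
    (hF : F ∈ pmSet S) (hF' : F' ∈ pmSet S) (hne : F' ≠ F) (E : Finset (Edge n)) :
    1 ≤ proposalCount E (switchResult E F F') := by
  unfold proposalCount
  refine le_trans ?_ (Finset.single_le_sum (fun _ _ => Nat.zero_le _)
    (Finset.mem_powersetCard.2 ⟨Finset.subset_univ S, hS⟩))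
  refine le_trans ?_ (Finset.single_le_sum (f := fun F => ∑ F' ∈ (pmSet S).erase F,
    if switchResult E F F' = _ then 1 else 0) (fun _ _ => Nat.zero_le _) hF)
  refine le_trans ?_ (Finset.single_le_sum (f := fun F' =>
    if switchResult E F F' = _ then 1 else 0) (fun _ _ => Nat.zero_le _)
      (Finset.mem_erase.2 ⟨hne, hF'⟩))
  simp

theorem kernel_symm (E E' : Finset (Edge n)) : kernel n E E' = kernel n E' E := by
  simp only [kernel, proposalCount_symm E E', eq_comm]

theorem kernel_lazy (E E' : Finset (Edge n)) : (if E = E' then 1 / 2 else 0) ≤ kernel n E E' := by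
  unfold kernel
  have : (0 : ℝ) ≤ (proposalCount E E' : ℝ) / (12 * (n.choose 4 : ℝ)) := by positivity
  linarith

theorem kernel_row (hn : 4 ≤ n) (E : Finset (Edge n)) : ∑ E', kernel n E E' = 1 := by
  have hC : (0 : ℝ) < n.choose 4 := by exact_mod_cast Nat.choose_pos hn
  simp only [kernel, Finset.sum_add_distrib, ← Finset.sum_div]
  rw [← Nat.cast_sum, sum_proposalCount]
  simp only [Finset.sum_ite_eq, Finset.mem_univ, ↓reduceIte]
  push_cast; field_simp; norm_num

theorem kernel_closed {d : Fin n → ℕ} {E E' : Finset (Edge n)} (hE : E ∈ realizations d)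
    (hE' : E' ∉ realizations d) : kernel n E E' = 0 := by
  unfold kernel
  rw [proposalCount_eq_zero hE hE', if_neg (by rintro rfl; exact hE' hE)]
  simp

end Crest.Agent.R299
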