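import Crest.Agent.R299.Johnson

/-!
A bound for the conditional means on the events "two coordinates differ" on a slice.
-/

set_option autoImplicit false
open Finset

namespace Crest.Agent.R299

section lossdef
variable {Ω : Type*} [Fintype Ω] {K : Type*}

open Classical in
/-- The indicator function of a predicate. -/
noncomputable def ind {Ω : Type*} (D : Ω → Prop) (x : Ω) : ℝ := if D x then 1 else 0

theorem ind_pos {Ω : Type*} {D : Ω → Prop} {x : Ω} (h : D x) : ind D x = 1 := by simp [ind, h]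

theorem ind_neg {Ω : Type*} {D : Ω → Prop} {x : Ω} (h : ¬ D x) : ind D x = 0 := by simp [ind, h]

theorem ind_nonneg {Ω : Type*} (D : Ω → Prop) (x : Ω) : 0 ≤ ind D x := by
  unfold ind; split_ifs <;> norm_num

theorem ind_le_one {Ω : Type*} (D : Ω → Prop) (x : Ω) : ind D x ≤ 1 := by
  unfold ind; split_ifs <;> norm_num

theorem ind_mul_self {Ω : Type*} (D : Ω → Prop) (x : Ω) : ind D x * ind D x = ind D x := by
  unfold ind; split_ifs <;> norm_num

theorem ind_congr {Ω Ω' : Type*} {D : Ω → Prop} {D' : Ω' → Prop} {x : Ω} {y : Ω'}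
    (h : D x ↔ D' y) : ind D x = ind D' y := by
  by_cases hx : D x
  · rw [ind_pos hx, ind_pos (h.1 hx)]
  · rw [ind_neg hx, ind_neg (fun hy => hx (h.2 hy))]

/-- The density of the loss term: on each class, (sum of `g` over `D`)² / (size of `D`). -/
noncomputable def lossAt (κ : Ω → K) (D : Ω → Prop) (g : Ω → ℝ) (x : Ω) : ℝ :=
  (avg κ (ind D * g) x) ^ 2 / avg κ (ind D) x

theorem avg_unit (φ : Ω → ℝ) (x : Ω) :
    avg (fun _ : Ω => ()) φ x = (∑ y, φ y) / (Fintype.card Ω : ℝ) := by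
  have : fib (fun _ : Ω => ()) () = univ := by ext y; simp
  rw [avg_apply, avgK, this, Finset.card_univ]

theorem sum_lossAt_unit (D : Ω → Prop) (g : Ω → ℝ) :
    ∑ x, lossAt (fun _ : Ω => ()) D g x = (ip (ind D) g) ^ 2 / ∑ y, ind D y := by
  simp only [lossAt, avg_unit, Finset.sum_const, Finset.card_univ, nsmul_eq_mul]
  have : ∑ y, (ind D * g) y = ip (ind D) g := rfl
  rw [this]
  by_cases h : (Fintype.card Ω : ℝ) = 0
  · have h0 : Fintype.card Ω = 0 := by exact_mod_cast h
    have := Fintype.card_eq_zero_iff.1 h0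
    simp [ip]
  · by_cases h2 : ∑ y, ind D y = 0
    · simp [h2]
    · field_simp

end lossdef

section slice
variable {ι : Type*} [Fintype ι] [DecidableEq ι] {α : ℕ}

/-- The event that coordinates `k` and `l` differ. -/
def Dif (k l : ι) (σ : Slice ι α) : Prop := σ.1 k ≠ σ.1 l

theorem ip_Dif_perm (π : Equiv.Perm ι) (i j k l : ι) :
    ip (ind (Dif (α := α) (π i) (π j))) (ind (Dif (π k) (π l))) =
      ip (ind (Dif (α := α) i j)) (ind (Dif k l)) := by
  let e : Slice ι α ≃ Slice ι α :=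
    { toFun := act π
      invFun := act π⁻¹
      left_inv := fun σ => by apply Subtype.ext; funext m; simp
      right_inv := fun σ => by apply Subtype.ext; funext m; simp }
  unfold ip
  rw [← Equiv.sum_comp e (fun σ => ind (Dif i j) σ * ind (Dif k l) σ)]
  rfl

omit [DecidableEq ι] in
theorem ind_Dif_self (k : ι) (σ : Slice ι α) : ind (Dif k k) σ = 0 := ind_neg (by simp [Dif])

omit [DecidableEq ι] in
theorem ind_Dif_comm (k l : ι) : ind (Dif (α := α) k l) = ind (Dif l k) := by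
  funext σ; exact ind_congr ⟨Ne.symm, Ne.symm⟩

omit [DecidableEq ι] in
theorem ind_Dif_eq (k l : ι) (σ : Slice ι α) : ind (Dif k l) σ =
    ((σ.1 k).toNat : ℝ) + (σ.1 l).toNat - 2 * ((σ.1 k).toNat * (σ.1 l).toNat) := by
  unfold ind Dif
  cases σ.1 k <;> cases σ.1 l <;> norm_num

theorem exists_dd : ∃ d : ℝ, 0 ≤ d ∧ ∀ k l : ι, k ≠ l →
    ip (ind (Dif (α := α) k l)) (ind (Dif k l)) = d := by
  by_cases h : ∃ k l : ι, k ≠ l
  · obtain ⟨k0, l0, h0⟩ := h
    refine ⟨ip (ind (Dif (α := α) k0 l0)) (ind (Dif k0 l0)), ip_self_nonneg _, fun k l hkl => ?_⟩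
    obtain ⟨π, hπ⟩ := Equiv.Perm.exists_extending_pair (![k0, l0] : Fin 2 → ι) ![k, l]
      (by intro a b; fin_cases a <;> fin_cases b <;> simp [h0, h0.symm])
      (by intro a b; fin_cases a <;> fin_cases b <;> simp [hkl, hkl.symm])
    have h1 : π k0 = k := hπ 0
    have h2 : π l0 = l := hπ 1
    rw [← h1, ← h2, ip_Dif_perm]
  · push Not at h
    exact ⟨0, le_rfl, fun k l hkl => absurd (h k l) hkl⟩

theorem exists_qq (d : ℝ) (hd0 : 0 ≤ d) (hd : ∀ k l : ι, k ≠ l →
    ip (ind (Dif (α := α) k l)) (ind (Dif k l)) = d) :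
    ∃ q : ℝ, 0 ≤ q ∧ q ≤ d ∧ ∀ i j k l : ι, i ≠ j → k ≠ l → k ≠ i → k ≠ j → l ≠ i → l ≠ j →
    ip (ind (Dif (α := α) i j)) (ind (Dif k l)) = q := by
  by_cases h : ∃ i j k l : ι, i ≠ j ∧ k ≠ l ∧ k ≠ i ∧ k ≠ j ∧ l ≠ i ∧ l ≠ j
  · obtain ⟨i0, j0, k0, l0, a1, a2, a3, a4, a5, a6⟩ := h
    refine ⟨ip (ind (Dif (α := α) i0 j0)) (ind (Dif k0 l0)), ?_, ?_,
      fun i j k l b1 b2 b3 b4 b5 b6 => ?_⟩
    · exact Finset.sum_nonneg fun σ _ => mul_nonneg (ind_nonneg _ _) (ind_nonneg _ _)
    · rw [← hd i0 j0 a1]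
      refine Finset.sum_le_sum fun σ _ => ?_
      rw [ind_mul_self]
      exact mul_le_of_le_one_right (ind_nonneg _ _) (ind_le_one _ _)
    obtain ⟨π, hπ⟩ := Equiv.Perm.exists_extending_pair (![i0, j0, k0, l0] : Fin 4 → ι)
      ![i, j, k, l]
      (by
        have := a1.symm; have := a2.symm; have := a3.symm; have := a4.symm; have := a5.symm
        have := a6.symm
        intro a b; fin_cases a <;> fin_cases b <;> simp [*])
      (by
        have := b1.symm; have := b2.symm; have := b3.symm; have := b4.symm; have := b5.symm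
        have := b6.symm
        intro a b; fin_cases a <;> fin_cases b <;> simp [*])
    have h1 : π i0 = i := hπ 0
    have h2 : π j0 = j := hπ 1
    have h3 : π k0 = k := hπ 2
    have h4 : π l0 = l := hπ 3
    rw [← h1, ← h2, ← h3, ← h4, ip_Dif_perm]
  · refine ⟨0, le_rfl, hd0, fun i j k l b1 b2 b3 b4 b5 b6 => ?_⟩
    exact absurd ⟨i, j, k, l, b1, b2, b3, b4, b5, b6⟩ h

theorem ip_Dif_share (d : ℝ) (hd : ∀ k l : ι, k ≠ l →
    ip (ind (Dif (α := α) k l)) (ind (Dif k l)) = d) {i j k : ι} (hij : i ≠ j) (hik : i ≠ k)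
    (hjk : j ≠ k) : ip (ind (Dif (α := α) i j)) (ind (Dif i k)) = d / 2 := by
  have h1 := hd i j hij
  have h2 := hd i k hik
  have h3 := hd j k hjk
  have : ∀ σ : Slice ι α, 2 * (ind (Dif i j) σ * ind (Dif i k) σ) =
      ind (Dif i j) σ * ind (Dif i j) σ + ind (Dif i k) σ * ind (Dif i k) σ -
        ind (Dif j k) σ * ind (Dif j k) σ := by
    intro σ
    unfold ind Dif
    cases σ.1 i <;> cases σ.1 j <;> cases σ.1 k <;> norm_num
  have h4 : 2 * ip (ind (Dif (α := α) i j)) (ind (Dif i k)) = d + d - d := by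
    nth_rewrite 1 [← h1]
    nth_rewrite 2 [← h3]
    rw [← h2]
    unfold ip
    rw [Finset.mul_sum, ← Finset.sum_add_distrib, ← Finset.sum_sub_distrib]
    exact Finset.sum_congr rfl fun σ _ => this σ
  linarith

omit [DecidableEq ι] in
theorem sum_ind_Dif (σ : Slice ι α) :
    ∑ k, ∑ l, ind (Dif k l) σ = 2 * (Fintype.card ι : ℝ) * α - 2 * (α * α) := by
  have h : ∑ k, ((σ.1 k).toNat : ℝ) = α := by
    have := σ.2
    unfold cnt at this
    exact_mod_cast this
  simp only [ind_Dif_eq, Finset.sum_sub_distrib, Finset.sum_add_distrib, ← Finset.mul_sum,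
    ← Finset.sum_mul, h, Finset.sum_const, Finset.card_univ, nsmul_eq_mul]
  ring

/-- The loss bound on a slice. -/
theorem johnson_loss (g : Slice ι α → ℝ) (hg : ∑ σ, g σ = 0) :
    ∑ k, ∑ l, ∑ σ, lossAt (fun _ => ()) (Dif k l) g σ ≤ (Fintype.card ι : ℝ) * ip g g := by
  obtain ⟨d, hd0, hd⟩ := exists_dd (ι := ι) (α := α)
  obtain ⟨q, hq0, hqd, hq⟩ := exists_qq d hd0 hd
  obtain ⟨S, hS⟩ : ∃ S : ℝ, S = (Fintype.card ι : ℝ) := ⟨_, rfl⟩
  rw [← hS]
  obtain ⟨T, hT⟩ : ∃ T : ι → ι → ℝ, T = fun k l => ip (ind (Dif k l)) g := ⟨_, rfl⟩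
  have Tself : ∀ k, T k k = 0 := fun k => by simp [hT, ip, ind_Dif_self]
  have Tsymm : ∀ k l, T k l = T l k := fun k l => by simp only [hT]; rw [ind_Dif_comm]
  obtain ⟨a, ha⟩ : ∃ a : ℝ, a = ∑ k, ∑ l, T k l * T k l := ⟨_, rfl⟩
  have ha0 : 0 ≤ a := ha ▸ Finset.sum_nonneg fun _ _ => Finset.sum_nonneg fun _ _ => mul_self_nonneg _
  have hL : ∑ k, ∑ l, ∑ σ, lossAt (fun _ => ()) (Dif k l) g σ = a / d := by
    rw [ha, Finset.sum_div]
    refine Finset.sum_congr rfl fun k _ => ?_
    rw [Finset.sum_div]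
    refine Finset.sum_congr rfl fun l _ => ?_
    rw [sum_lossAt_unit]
    by_cases hkl : k = l
    · subst hkl
      have := Tself k
      simp only [hT] at this
      simp [this, Tself]
    · rw [← hd k l hkl, sq, hT]
      congr 1
      exact Finset.sum_congr rfl fun σ _ => (ind_mul_self _ _).symm
  obtain ⟨W, hW⟩ : ∃ W : ι → ℝ, W = fun k => ∑ l, T k l := ⟨_, rfl⟩
  have hW0 : ∑ k, W k = 0 := by
    have : ∑ k, W k = ip (∑ k, ∑ l, ind (Dif k l)) g := by
      rw [ip_sum_left, hW, hT]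
      exact Finset.sum_congr rfl fun k _ => (ip_sum_left _ _ _).symm
    rw [this]
    unfold ip
    simp only [Finset.sum_apply, sum_ind_Dif]
    rw [← Finset.mul_sum, hg, mul_zero]
  obtain ⟨b, hb⟩ : ∃ b : ℝ, b = ∑ k, W k * W k := ⟨_, rfl⟩
  have hb0 : 0 ≤ b := hb ▸ Finset.sum_nonneg fun _ _ => mul_self_nonneg _
  obtain ⟨s3, hs3⟩ : ∃ s3 : ℝ, s3 = ∑ i, ∑ j, ∑ k, (if j ≠ k then T i j * T i k else 0) :=
    ⟨_, rfl⟩
  obtain ⟨s4, hs4⟩ : ∃ s4 : ℝ, s4 = ∑ i, ∑ j, ∑ k, ∑ l,
    (if k ≠ i ∧ k ≠ j ∧ l ≠ i ∧ l ≠ j then T i j * T k l else 0) := ⟨_, rfl⟩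
  have e1 : s3 = b - a := by
    rw [hs3, hb, ha, ← Finset.sum_sub_distrib]
    refine Finset.sum_congr rfl fun i _ => ?_
    simp only [hW]
    rw [Finset.sum_mul_sum, ← Finset.sum_sub_distrib]
    refine Finset.sum_congr rfl fun j _ => ?_
    have : ∀ k, (if j ≠ k then T i j * T i k else 0) =
        T i j * T i k - (if k = j then T i j * T i j else 0) := by
      intro k
      by_cases h : k = j
      · subst h; simp
      · simp [h, Ne.symm h]
    simp only [this, Finset.sum_sub_distrib]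
    simp
  have e2 : 0 = 2 * a + 4 * s3 + s4 := by
    have := pair_expand (fun i j k l => T i j * T k l) (fun i j k l => by rw [Tsymm i j])
      (fun i j k l => by rw [Tsymm k l]) (fun i k l => by simp [Tself])
      (fun i j k => by simp [Tself])
    rw [ha, hs3, hs4, ← this]
    have h2 : ∑ i, ∑ j, ∑ k, ∑ l, T i j * T k l = (∑ i, W i) * ∑ k, W k := by
      simp only [hW, Finset.sum_mul]
      simp only [Finset.mul_sum]
    rw [h2, hW0, zero_mul]
  -- the test function
  obtain ⟨Φ, hΦ⟩ : ∃ Φ : Slice ι α → ℝ, Φ = ∑ k, ∑ l, T k l • ind (Dif k l) := ⟨_, rfl⟩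
  have e3 : ip Φ g = a := by
    rw [hΦ, ip_sum_left, ha]
    refine Finset.sum_congr rfl fun k _ => ?_
    rw [ip_sum_left]
    refine Finset.sum_congr rfl fun l _ => ?_
    rw [ip_smul_left, hT]
  have e4 : ip Φ Φ = 2 * (d * a) + 4 * (d / 2 * s3) + q * s4 := by
    have h0 : ip Φ Φ = ∑ i, ∑ j, ∑ k, ∑ l,
        T i j * T k l * ip (ind (Dif (α := α) i j)) (ind (Dif k l)) := by
      rw [hΦ, ip_sum_left]
      refine Finset.sum_congr rfl fun i _ => ?_
      rw [ip_sum_left]
      refine Finset.sum_congr rfl fun j _ => ?_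
      rw [ip_sum_right]
      refine Finset.sum_congr rfl fun k _ => ?_
      rw [ip_sum_right]
      refine Finset.sum_congr rfl fun l _ => ?_
      rw [ip_smul_left, ip_smul_right, mul_assoc]
    rw [h0, pair_expand (fun i j k l => T i j * T k l * ip (ind (Dif (α := α) i j)) (ind (Dif k l)))
      (fun i j k l => by rw [Tsymm i j, ind_Dif_comm i j])
      (fun i j k l => by rw [Tsymm k l, ind_Dif_comm k l]) (fun i k l => by simp [Tself])
      (fun i j k => by simp [Tself])]
    congr 1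
    congr 1
    · congr 1
      rw [ha, Finset.mul_sum]
      refine Finset.sum_congr rfl fun i _ => ?_
      rw [Finset.mul_sum]
      refine Finset.sum_congr rfl fun j _ => ?_
      by_cases hij : i = j
      · subst hij; simp [Tself]
      · rw [hd i j hij]; ring
    · congr 1
      simp only [hs3, Finset.mul_sum]
      refine Finset.sum_congr rfl fun i _ => Finset.sum_congr rfl fun j _ =>
        Finset.sum_congr rfl fun k _ => ?_
      split_ifs with hjk
      · by_cases hij : i = j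
        · subst hij; simp [Tself]
        by_cases hik : i = k
        · subst hik; simp [Tself]
        rw [ip_Dif_share d hd hij hik hjk]; ring
      · simp
    · simp only [hs4, Finset.mul_sum]
      refine Finset.sum_congr rfl fun i _ => Finset.sum_congr rfl fun j _ =>
        Finset.sum_congr rfl fun k _ => Finset.sum_congr rfl fun l _ => ?_
      split_ifs with h
      · by_cases hij : i = j
        · subst hij; simp [Tself]
        by_cases hkl : k = l
        · subst hkl; simp [Tself]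
        rw [hq i j k l hij hkl h.1 h.2.1 h.2.2.1 h.2.2.2]; ring
      · simp
  have hS0 : 0 ≤ S := hS ▸ Nat.cast_nonneg _
  -- `b ≤ S a / 2`
  have e5 : 2 * b ≤ S * a := by
    have h1 : 2 * b = ∑ p : ι × ι, T p.1 p.2 * (W p.1 + W p.2) := by
      rw [Fintype.sum_prod_type]
      simp only [mul_add, Finset.sum_add_distrib]
      have h2 : ∑ i, ∑ j, T i j * W i = b := by
        rw [hb]; exact Finset.sum_congr rfl fun i _ => by rw [← Finset.sum_mul, hW]
      have h3 : ∑ i, ∑ j, T i j * W j = b := by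
        rw [Finset.sum_comm, ← h2]
        exact Finset.sum_congr rfl fun i _ => Finset.sum_congr rfl fun j _ => by rw [Tsymm]
      rw [h2, h3]; ring
    have h2 : ∑ p : ι × ι, (W p.1 + W p.2) ^ 2 = 2 * S * b := by
      rw [Fintype.sum_prod_type]
      have : ∀ i, ∑ j, (W i + W j) ^ 2 = S * (W i * W i) + b := by
        intro i
        have : ∀ j, (W i + W j) ^ 2 = W i * W i + W j * W j + 2 * W i * W j := by
          intro j; ring
        simp only [this, Finset.sum_add_distrib]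
        rw [← hb, Finset.sum_const, Finset.card_univ, nsmul_eq_mul, ← hS, ← Finset.mul_sum, hW0]
        ring
      simp only [this, Finset.sum_add_distrib]
      rw [Finset.sum_const, Finset.card_univ, nsmul_eq_mul, ← hS, ← Finset.mul_sum, ← hb]
      ring
    have h3 : ∑ p : ι × ι, T p.1 p.2 ^ 2 = a := by
      rw [Fintype.sum_prod_type, ha]; simp only [sq]
    have h4 := Finset.sum_mul_sq_le_sq_mul_sq Finset.univ (fun p : ι × ι => T p.1 p.2)
      (fun p => W p.1 + W p.2)
    rw [← h1, h2, h3] at h4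
    by_cases hb1 : b = 0
    · rw [hb1]; simpa using mul_nonneg hS0 ha0
    · have hbpos : 0 < b := lt_of_le_of_ne hb0 (Ne.symm hb1)
      by_contra hh
      push Not at hh
      nlinarith
  rw [hL]
  by_cases ha1 : a = 0
  · rw [ha1, zero_div]; exact mul_nonneg hS0 (ip_self_nonneg g)
  have hapos : 0 < a := lt_of_le_of_ne ha0 (Ne.symm ha1)
  have hS2 : 2 ≤ S := by
    by_contra hh
    push Not at hh
    have h1 : Fintype.card ι ≤ 1 := by
      have : (Fintype.card ι : ℝ) < 2 := hS ▸ hh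
      have : Fintype.card ι < 2 := by exact_mod_cast this
      omega
    have := Fintype.card_le_one_iff.1 h1
    apply ha1
    rw [ha]
    exact Finset.sum_eq_zero fun k _ => Finset.sum_eq_zero fun l _ => by
      rw [this k l, Tself, zero_mul]
  have e6 : ip Φ Φ ≤ S * d * a := by
    have h1 : ip Φ Φ = 2 * q * a + (d - 2 * q) * (2 * b) := by
      have : s4 = 2 * a - 4 * b := by linarith
      rw [e4, this, e1]; ring
    rw [h1]
    by_cases h2 : 0 ≤ d - 2 * q
    · have := mul_le_mul_of_nonneg_left e5 h2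
      have h3 : 0 ≤ q * a * (S - 1) := mul_nonneg (mul_nonneg hq0 ha0) (by linarith)
      nlinarith
    · push Not at h2
      have h3 : (d - 2 * q) * (2 * b) ≤ 0 := mul_nonpos_of_nonpos_of_nonneg h2.le (by linarith)
      have h4 : 0 ≤ (d - q) * a := mul_nonneg (by linarith) ha0
      have h5 : 0 ≤ (S - 2) * (d * a) := mul_nonneg (by linarith) (mul_nonneg hd0 ha0)
      nlinarith
  have e7 := ip_sq_le Φ g
  rw [e3] at e7
  have e8 : a ≤ S * d * ip g g := by
    have h1 : a ^ 2 ≤ S * d * a * ip g g :=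
      e7.trans (mul_le_mul_of_nonneg_right e6 (ip_self_nonneg g))
    by_contra hh
    push Not at hh
    nlinarith
  by_cases hd1 : d = 0
  · rw [hd1, div_zero]; exact mul_nonneg hS0 (ip_self_nonneg g)
  have hdpos : 0 < d := lt_of_le_of_ne hd0 (Ne.symm hd1)
  rw [div_le_iff₀ hdpos]
  linarith

/-- The two slice inequalities in the form used for the pair classes of graphs. -/
theorem slice_bounds (f : Slice ι α → ℝ) :
    ∑ k, ∑ l, ∑ σ, lossAt (fun _ => ()) (Dif k l) (hh (fun _ => ()) f) σ ≤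
        (1 / 4) * ∑ k, ∑ l, ∑ σ, (f σ - f (sw k l σ)) ^ 2 ∧
      ip (hh (fun _ => ()) f) (hh (fun _ => ()) f) ≤
        (1 / 4) * ∑ k, ∑ l, ∑ σ, (f σ - f (sw k l σ)) ^ 2 := by
  set g := hh (fun _ => ()) f with hg
  have hg0 : ∑ σ, g σ = 0 := sum_hh _ _
  have h1 := johnson_gap g hg0
  have h2 := johnson_loss g hg0
  have h3 : ∀ k l σ, g σ - g (sw k l σ) = f σ - f (sw k l σ) := by
    intro k l σ
    simp only [hg, hh_apply, avg_unit]; ring
  simp only [h3] at h1
  refine ⟨h2.trans h1, le_trans ?_ h1⟩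
  by_cases hc : Fintype.card ι = 0
  · have := Fintype.card_eq_zero_iff.1 hc
    have hsub : ∀ σ τ : Slice ι α, σ = τ := fun σ τ => Subtype.ext (Subsingleton.elim _ _)
    have : g = 0 := by
      funext σ
      have : ∑ τ, g τ = g σ := Finset.sum_eq_single σ (fun τ _ h => absurd (hsub _ _) h) (by simp)
      rw [← this, hg0]; rfl
    rw [this]; simp [ip]
  · have : (1 : ℝ) ≤ Fintype.card ι := by exact_mod_cast Nat.one_le_iff_ne_zero.2 hc
    nlinarith [ip_self_nonneg g]

end slice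

end Crest.Agent.R299
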