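import Mathlib

/-!
From a Poincaré inequality to a total variation bound for a lazy symmetric chain.
-/

set_option autoImplicit false
open Finset

namespace Crest.Agent.R299

theorem tv_bound {α : Type*} [Fintype α] [DecidableEq α] (P : Matrix α α ℝ) (R : Finset α)
    (γ : ℝ) (hγ : γ ≤ 1) (hsym : ∀ x y, P x y = P y x)
    (hlazy : ∀ x y, (if x = y then 1 / 2 else 0) ≤ P x y) (hrow : ∀ x, ∑ y, P x y = 1)
    (hcl : ∀ x ∈ R, ∀ y, y ∉ R → P x y = 0)
    (hpo : ∀ f : α → ℝ, ∑ x ∈ R, f x = 0 →
      γ * ∑ x ∈ R, f x ^ 2 ≤ ∑ x ∈ R, f x * (f x - ∑ y ∈ R, P x y * f y))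
    (G : α) (hG : G ∈ R) (t : ℕ) :
    (∑ y, |(P ^ t) G y - (if y ∈ R then 1 / (R.card : ℝ) else 0)|) ^ 2 ≤
      R.card * (1 - γ) ^ t := by
  have hRpos : (0 : ℝ) < R.card := by exact_mod_cast Finset.card_pos.2 ⟨G, hG⟩
  let v : ℕ → α → ℝ := fun t y => (P ^ t) G y - (if y ∈ R then 1 / (R.card : ℝ) else 0)
  have hrowR : ∀ x ∈ R, ∑ y ∈ R, P x y = 1 := by
    intro x hx
    rw [← hrow x]
    exact Finset.sum_subset (Finset.subset_univ _) fun y _ hy => hcl x hx y hy
  have hstep : ∀ t y, v (t + 1) y = ∑ x, P y x * v t x := by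
    intro t y
    simp only [v, pow_succ, Matrix.mul_apply, mul_sub, Finset.sum_sub_distrib]
    congr 1
    · exact Finset.sum_congr rfl fun x _ => by rw [hsym y x, mul_comm]
    · simp only [mul_ite, mul_zero]
      rw [← Finset.sum_filter, Finset.filter_mem_eq_inter, Finset.univ_inter, ← Finset.sum_mul]
      split_ifs with hy
      · rw [hrowR y hy, one_mul]
      · rw [Finset.sum_eq_zero fun x hx => by rw [hsym, hcl x hx y hy], zero_mul]
  have hinv : ∀ t, (∀ y, y ∉ R → v t y = 0) ∧ ∑ y, v t y = 0 ∧ ∑ y, v t y ^ 2 ≤ (1 - γ) ^ t := by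
    intro t
    induction t with
    | zero =>
      have h0 : ∀ y, v 0 y = (if G = y then 1 else 0) -
          (if y ∈ R then 1 / (R.card : ℝ) else 0) := by
        intro y; simp [v, Matrix.one_apply]
      have hs : ∑ y, (if y ∈ R then 1 / (R.card : ℝ) else 0) = 1 := by
        rw [← Finset.sum_filter, Finset.filter_mem_eq_inter, Finset.univ_inter]
        simp [hRpos.ne']
      refine ⟨fun y hy => ?_, ?_, ?_⟩
      · rw [h0, if_neg (by rintro rfl; exact hy hG), if_neg hy, sub_zero]
      · simp only [h0, Finset.sum_sub_distrib, hs]; simp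
      · have : ∀ y, v 0 y ^ 2 = (if G = y then 1 - 2 / (R.card : ℝ) else 0) +
            (1 / (R.card : ℝ)) * (if y ∈ R then 1 / (R.card : ℝ) else 0) := by
          intro y
          rw [h0]
          by_cases h1 : G = y
          · subst h1; simp only [hG, ↓reduceIte]; ring
          · by_cases h2 : y ∈ R
            · simp only [h1, h2, ↓reduceIte]; ring
            · simp [h1, h2]
        simp only [this, Finset.sum_add_distrib, ← Finset.mul_sum, hs]
        simp only [Finset.sum_ite_eq, Finset.mem_univ, ↓reduceIte, pow_zero, mul_one]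
        have : 0 < 1 / (R.card : ℝ) := by positivity
        have e : 2 / (R.card : ℝ) = 2 * (1 / (R.card : ℝ)) := by ring
        linarith
    | succ t ih =>
      obtain ⟨i1, i2, i3⟩ := ih
      have toR : ∀ g : α → ℝ, ∑ x, g x * v t x = ∑ x ∈ R, g x * v t x := fun g =>
        (Finset.sum_subset (Finset.subset_univ _) fun y _ hy => by rw [i1 y hy, mul_zero]).symm
      refine ⟨fun y hy => ?_, ?_, ?_⟩
      · rw [hstep, toR]
        exact Finset.sum_eq_zero fun x hx => by rw [hsym, hcl x hx y hy, zero_mul]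
      · simp only [hstep]
        rw [Finset.sum_comm]
        simp only [← Finset.sum_mul]
        have : ∀ x, ∑ y, P y x = 1 := fun x => by
          rw [← hrow x]; exact Finset.sum_congr rfl fun y _ => hsym _ _
        simp [this, i2]
      · obtain ⟨w, hw⟩ : ∃ w, w = v t := ⟨_, rfl⟩
        rw [← hw] at i1 i2 i3 toR
        simp only [hstep, ← hw]
        let Q : α → α → ℝ := fun x y => 2 * P x y - (if x = y then 1 else 0)
        have Q0 : ∀ x y, 0 ≤ Q x y := by
          intro x y
          have := hlazy x y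
          simp only [Q]
          split_ifs at this ⊢ <;> linarith
        have Q1 : ∀ x, ∑ y, Q x y = 1 := by
          intro x
          simp only [Q, Finset.sum_sub_distrib, ← Finset.mul_sum, hrow]
          simp; norm_num
        have Q2 : ∀ y, ∑ x, Q x y = 1 := by
          intro y
          rw [← Q1 y]
          exact Finset.sum_congr rfl fun x _ => by simp only [Q, hsym x y, eq_comm]
        have Q3 : ∀ x, ∑ y, Q x y * w y = 2 * ∑ y, P x y * w y - w x := by
          intro x
          simp only [Q, sub_mul, Finset.sum_sub_distrib, mul_assoc, ← Finset.mul_sum]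
          simp
        have Q4 : ∑ x, (∑ y, Q x y * w y) ^ 2 ≤ ∑ y, w y ^ 2 := by
          have : ∀ x, (∑ y, Q x y * w y) ^ 2 ≤ ∑ y, Q x y * w y ^ 2 := by
            intro x
            obtain ⟨m, hm⟩ : ∃ m, m = ∑ y, Q x y * w y := ⟨_, rfl⟩
            have h1 : 0 ≤ ∑ y, Q x y * (w y - m) ^ 2 :=
              Finset.sum_nonneg fun y _ => mul_nonneg (Q0 x y) (sq_nonneg _)
            have h2 : ∀ y, Q x y * (w y - m) ^ 2 =
                Q x y * w y ^ 2 - 2 * m * (Q x y * w y) + m ^ 2 * Q x y := fun y => by ring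
            simp only [h2, Finset.sum_add_distrib, Finset.sum_sub_distrib, ← Finset.mul_sum,
              Q1, ← hm] at h1
            rw [← hm]; nlinarith
          refine (Finset.sum_le_sum fun x _ => this x).trans ?_
          rw [Finset.sum_comm]
          simp only [← Finset.sum_mul, Q2, one_mul, le_refl]
        simp only [Q3] at Q4
        have h1 : ∑ x, (2 * ∑ y, P x y * w y - w x) ^ 2 = 4 * ∑ x, (∑ y, P x y * w y) ^ 2 -
            4 * ∑ x, (∑ y, P x y * w y) * w x + ∑ x, w x ^ 2 := by
          simp only [Finset.mul_sum _ _ (4 : ℝ), ← Finset.sum_sub_distrib,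
            ← Finset.sum_add_distrib]
          exact Finset.sum_congr rfl fun x _ => by ring
        have h2 := hpo w (by
          have := toR (fun _ => 1)
          simp only [one_mul] at this
          rw [← this, i2])
        have h3 : ∑ x ∈ R, w x ^ 2 = ∑ x, w x ^ 2 := by simp only [sq]; exact (toR w).symm
        have h4 : ∑ x ∈ R, w x * (w x - ∑ y ∈ R, P x y * w y) =
            ∑ x, w x ^ 2 - ∑ x, (∑ y, P x y * w y) * w x := by
          rw [toR (fun x => ∑ y, P x y * w y), ← h3, ← Finset.sum_sub_distrib]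
          exact Finset.sum_congr rfl fun x _ => by rw [toR]; ring
        rw [h3, h4] at h2
        have h5 : (1 - γ) * ∑ x, w x ^ 2 ≤ (1 - γ) * (1 - γ) ^ t :=
          mul_le_mul_of_nonneg_left i3 (by linarith)
        rw [pow_succ]
        nlinarith
  obtain ⟨i1, -, i3⟩ := hinv t
  show (∑ y, |v t y|) ^ 2 ≤ _
  have h1 : ∑ y, |v t y| = ∑ y ∈ R, 1 * |v t y| := by
    simp only [one_mul]
    exact (Finset.sum_subset (Finset.subset_univ _) fun y _ hy => by rw [i1 y hy, abs_zero]).symm
  rw [h1]
  refine (Finset.sum_mul_sq_le_sq_mul_sq R _ _).trans ?_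
  simp only [one_pow, Finset.sum_const, nsmul_eq_mul, mul_one, sq_abs]
  refine mul_le_mul_of_nonneg_left (le_trans ?_ i3) hRpos.le
  exact Finset.sum_le_sum_of_subset_of_nonneg (Finset.subset_univ _) fun _ _ _ => sq_nonneg _

end Crest.Agent.R299
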