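import Crest.Agent.R299.Gap
import Crest.Agent.R299.Kernel

/-!
Transport of the Poincaré inequality to graphs written as finite sets of edges.
-/

set_option autoImplicit false
open Finset Crest.SwitchChain

namespace Crest.Agent.R299

variable {n : ℕ}

/-- The edge set of a Boolean matrix. -/
def ofAdj (A : Fin n → Fin n → Bool) : Finset (Edge n) :=
  univ.filter fun e => ∃ u v, e.1 = s(u, v) ∧ A u v = true

theorem ed_mem_ofAdj {A : Fin n → Fin n → Bool} (hA : ∀ u v, A u v = A v u) {u v : Fin n}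
    {h : u ≠ v} : ed u v h ∈ ofAdj A ↔ A u v = true := by
  simp only [ofAdj, Finset.mem_filter, Finset.mem_univ, true_and, ed_val, Sym2.eq_iff]
  constructor
  · rintro ⟨a, b, ⟨rfl, rfl⟩ | ⟨rfl, rfl⟩, h2⟩
    · exact h2
    · rw [hA]; exact h2
  · intro h2; exact ⟨u, v, Or.inl ⟨rfl, rfl⟩, h2⟩

theorem deg_ofAdj {A : Fin n → Fin n → Bool} (hA : ∀ u v, A u v = A v u)
    (hd : ∀ v, A v v = false) (v : Fin n) : deg (ofAdj A) v = cnt (A v) := by
  rw [cnt_eq_card, deg]
  symm
  refine Finset.card_bij (fun u hu => ed v u (by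
    rintro rfl; simp [hd] at hu)) ?_ ?_ ?_
  · intro u hu
    simp only [Finset.mem_filter, Finset.mem_univ, true_and] at hu
    simp [ed_mem_ofAdj hA, hu]
  · intro u hu u' hu' h
    rcases ed_eq_iff.1 h with h | h
    · exact h.2
    · exact h.2.trans h.1
  · intro e he
    rw [Finset.mem_filter] at he
    obtain ⟨u, hu⟩ := Sym2.mem_iff_exists.1 he.2
    have hvu : v ≠ u := by
      have := e.2; rw [hu] at this; simpa using this
    have : e = ed v u hvu := Subtype.ext hu
    subst this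
    exact ⟨u, by simpa using (ed_mem_ofAdj hA).1 he.1, rfl⟩

variable {d : Fin n → ℕ}

theorem ofAdj_inj : Function.Injective fun A : Gr d => ofAdj A.1 := by
  intro A B h
  apply Subtype.ext; funext u v
  by_cases huv : u = v
  · rw [huv, A.2.diag, B.2.diag]
  have h' : ofAdj A.1 = ofAdj B.1 := h
  have h1 := ed_mem_ofAdj A.2.symm (h := huv)
  rw [h', ed_mem_ofAdj B.2.symm] at h1
  revert h1; cases A.1 u v <;> cases B.1 u v <;> simp

theorem mem_realizations_iff {E : Finset (Edge n)} :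
    E ∈ realizations d ↔ ∃ A : Gr d, ofAdj A.1 = E := by
  simp only [realizations, Finset.mem_filter, Finset.mem_univ, true_and]
  constructor
  · intro h
    let A : Fin n → Fin n → Bool := fun u v => decide (∃ e ∈ E, e.1 = s(u, v))
    have hs : ∀ u v, A u v = A v u := fun u v => by simp only [A, Sym2.eq_swap (a := u)]
    have hd : ∀ v, A v v = false := fun v => by
      simp only [A, decide_eq_false_iff_not]
      rintro ⟨e, -, he⟩
      have := e.2; rw [he] at this; simp at this
    have hE : ofAdj A = E := by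
      ext e
      obtain ⟨u, v, huv, rfl⟩ := exists_ed e
      rw [ed_mem_ofAdj hs]
      simp only [A, decide_eq_true_eq]
      constructor
      · rintro ⟨e, he, h2⟩
        have : e = ed u v huv := Subtype.ext h2
        rwa [← this]
      · intro he; exact ⟨_, he, rfl⟩
    exact ⟨⟨A, hs, hd, fun v => by rw [← deg_ofAdj hs hd, hE, h]⟩, hE⟩
  · rintro ⟨A, rfl⟩ v
    rw [deg_ofAdj A.2.symm A.2.diag, A.2.deg]

theorem sum_realizations (g : Finset (Edge n) → ℝ) :
    ∑ E ∈ realizations d, g E = ∑ A : Gr d, g (ofAdj A.1) := by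
  have : realizations d = (univ : Finset (Gr d)).map ⟨_, ofAdj_inj⟩ := by
    ext E; simp [mem_realizations_iff]
  rw [this, Finset.sum_map]; rfl

theorem ofAdj_swi {i j k l : Fin n} {A : Gr d} (h : Alt i j k l A) (hik : A.1 i k = true) :
    ofAdj (swi i j k l A).1 = switchResult (ofAdj A.1)
      {ed i k h.1.2.2.1.symm, ed j l h.1.2.2.2.2.2.symm}
      {ed i l h.1.2.2.2.2.1.symm, ed j k h.1.2.2.2.1.symm} := by
  have e := swi_of_alt h
  obtain ⟨⟨h1, h2, h3, h4, h5, h6⟩, a1, a2, a3⟩ := h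
  have b1 : A.1 j k = false := by revert a1; rw [hik]; cases A.1 j k <;> simp
  have b2 : A.1 i l = false := by revert a3; rw [hik]; cases A.1 i l <;> simp
  have b3 : A.1 j l = true := by revert a2; rw [b2]; cases A.1 j l <;> simp
  have h1' := h1.symm; have h2' := h2.symm; have h3' := h3.symm; have h4' := h4.symm
  have h5' := h5.symm; have h6' := h6.symm
  unfold switchResult
  rw [if_pos ⟨by simp [Finset.insert_subset_iff, ed_mem_ofAdj A.2.symm, hik, b3],
    by simp [ed_mem_ofAdj A.2.symm, b1, b2]⟩]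
  ext e'
  obtain ⟨u, v, huv, rfl⟩ := exists_ed e'
  rw [ed_mem_ofAdj (swi i j k l A).2.symm, e]
  simp only [Finset.mem_union, Finset.mem_sdiff, Finset.mem_insert, Finset.mem_singleton,
    ed_mem_ofAdj A.2.symm, ed_eq_iff]
  unfold tog
  split_ifs with hc
  · rcases hc with ⟨rfl | rfl, rfl | rfl⟩ | ⟨rfl | rfl, rfl | rfl⟩
    · simp [*]
    · simp [*]
    · simp [*]
    · simp [*]
    · simp [A.2.symm u v, *]
    · simp [A.2.symm u v, *]
    · simp [A.2.symm u v, *]
    · simp [A.2.symm u v, *]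
  · tauto

theorem alt_swap {i j k l : Fin n} {A : Gr d} (h : Alt i j k l A) :
    Alt i j l k A ∧ swi i j l k A = swi i j k l A := by
  have h' : Alt i j l k A := by
    obtain ⟨⟨h1, h2, h3, h4, h5, h6⟩, a1, a2, a3⟩ := h
    exact ⟨⟨h1, h2.symm, h5, h6, h3, h4⟩, a2, a1, a3.symm⟩
  refine ⟨h', Subtype.ext ?_⟩
  rw [swi_of_alt h, swi_of_alt h']
  funext u v
  simp only [tog, or_comm (a := v = l), or_comm (a := u = l)]

theorem one_le_pc_swi {i j k l : Fin n} {A : Gr d} (h : Alt i j k l A) :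
    1 ≤ proposalCount (ofAdj A.1) (ofAdj (swi i j k l A).1) := by
  have key : ∀ {i j k l : Fin n} {A : Gr d}, Alt i j k l A → A.1 i k = true →
      1 ≤ proposalCount (ofAdj A.1) (ofAdj (swi i j k l A).1) := by
    intro i j k l A h hik
    rw [ofAdj_swi h hik]
    obtain ⟨⟨h1, h2, h3, h4, h5, h6⟩, -⟩ := h
    have h1' := h1.symm; have h2' := h2.symm; have h3' := h3.symm; have h4' := h4.symm
    have h5' := h5.symm; have h6' := h6.symm
    refine one_le_proposalCount (S := {i, j, k, l})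
      (Finset.card_eq_four.2 ⟨i, j, k, l, h1, h3', h5', h4', h6', h2, rfl⟩)
      (pair_mem_pmSet _ h1 h5' h4 h2 _ (by simp; tauto))
      (pair_mem_pmSet _ h1 h3' h6 h2' _ (by simp; tauto)) ?_ _
    intro e
    have : ed i l h5' ∈ ({ed i k h3', ed j l h6'} : Finset (Edge n)) := by rw [← e]; simp
    simp [ed_eq_iff, *] at this
  cases hik : A.1 i k
  · obtain ⟨h', e⟩ := alt_swap h
    rw [← e]
    refine key h' ?_
    have := h.2.2.2
    rw [hik] at this
    revert this; cases A.1 i l <;> simp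
  · exact key h hik

theorem swi_inj {i k j l j' l' : Fin n} {A : Gr d} (h : Alt i j k l A) (h' : Alt i j' k l' A)
    (e : swi i j k l A = swi i j' k l' A) : j = j' ∧ l = l' := by
  have e1 := congrArg Subtype.val e
  rw [swi_of_alt h, swi_of_alt h'] at e1
  obtain ⟨⟨h1, h2, h3, h4, h5, h6⟩, -⟩ := h
  obtain ⟨⟨g1, g2, g3, g4, g5, g6⟩, -⟩ := h'
  constructor
  · by_contra hne
    have := congrFun (congrFun e1 k) j
    simp [tog, hne, h1.symm, h3, g4] at this
  · by_contra hne
    have := congrFun (congrFun e1 i) l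
    simp [tog, hne, h2.symm, h3.symm, g5.symm] at this

theorem sum_swi_le (f : Finset (Edge n) → ℝ) (A : Gr d) :
    ∑ i, ∑ j, ∑ k, ∑ l, (f (ofAdj A.1) - f (ofAdj (swi i j k l A).1)) ^ 2 ≤
      (n : ℝ) ^ 2 * ∑ E ∈ realizations d,
        (proposalCount (ofAdj A.1) E : ℝ) * (f (ofAdj A.1) - f E) ^ 2 := by
  classical
  have key : ∀ i k, ∑ j, ∑ l, (f (ofAdj A.1) - f (ofAdj (swi i j k l A).1)) ^ 2 ≤
      ∑ E ∈ realizations d, (proposalCount (ofAdj A.1) E : ℝ) * (f (ofAdj A.1) - f E) ^ 2 := by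
    intro i k
    rw [← Fintype.sum_prod_type' (fun j l => (f (ofAdj A.1) - f (ofAdj (swi i j k l A).1)) ^ 2),
      ← Finset.sum_subset (Finset.filter_subset (fun p : Fin n × Fin n => Alt i p.1 k p.2 A) univ)
        (fun p _ hp => by
          rw [swi_of_not (fun h => hp (Finset.mem_filter.2 ⟨Finset.mem_univ _, h⟩))]; simp)]
    rw [← Finset.sum_image (g := fun p : Fin n × Fin n => ofAdj (swi i p.1 k p.2 A).1)
      (f := fun E => (f (ofAdj A.1) - f E) ^ 2) (fun p hp q hq h => by
        have := swi_inj (Finset.mem_filter.1 hp).2 (Finset.mem_filter.1 hq).2 (ofAdj_inj h)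
        exact Prod.ext this.1 this.2)]
    refine le_trans (Finset.sum_le_sum (g := fun E =>
      (proposalCount (ofAdj A.1) E : ℝ) * (f (ofAdj A.1) - f E) ^ 2) fun E hE => ?_)
      (Finset.sum_le_sum_of_subset_of_nonneg (fun E hE => ?_) fun _ _ _ => by positivity)
    · obtain ⟨p, hp, rfl⟩ := Finset.mem_image.1 hE
      have : (1 : ℝ) ≤ proposalCount (ofAdj A.1) (ofAdj (swi i p.1 k p.2 A).1) := by
        exact_mod_cast one_le_pc_swi (Finset.mem_filter.1 hp).2
      exact le_mul_of_one_le_left (sq_nonneg _) this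
    · obtain ⟨p, hp, rfl⟩ := Finset.mem_image.1 hE
      exact mem_realizations_iff.2 ⟨_, rfl⟩
  have e : ∑ i, ∑ j, ∑ k, ∑ l, (f (ofAdj A.1) - f (ofAdj (swi i j k l A).1)) ^ 2 =
      ∑ i, ∑ k, ∑ j, ∑ l, (f (ofAdj A.1) - f (ofAdj (swi i j k l A).1)) ^ 2 :=
    Finset.sum_congr rfl fun i _ => Finset.sum_comm
  rw [e]
  refine (Finset.sum_le_sum fun i _ => Finset.sum_le_sum fun k _ => key i k).trans ?_
  simp only [Finset.sum_const, Finset.card_univ, Fintype.card_fin, nsmul_eq_mul]
  rw [sq, mul_assoc]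

theorem dirichlet_eq (hn : 4 ≤ n) (f : Finset (Edge n) → ℝ) :
    24 * (n.choose 4 : ℝ) * ∑ G ∈ realizations d,
        f G * (f G - ∑ G' ∈ realizations d, kernel n G G' * f G') =
      ∑ G ∈ realizations d, ∑ E ∈ realizations d, (proposalCount G E : ℝ) * (f G - f E) ^ 2 := by
  have hC : (0 : ℝ) < n.choose 4 := by exact_mod_cast Nat.choose_pos hn
  have hrow : ∀ G ∈ realizations d, ∑ E ∈ realizations d, kernel n G E = 1 := by
    intro G hG
    rw [← kernel_row hn G]
    exact Finset.sum_subset (Finset.subset_univ _) fun E _ hE => kernel_closed hG hE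
  have h1 : ∀ G E, (proposalCount G E : ℝ) * (f G - f E) ^ 2 =
      12 * (n.choose 4 : ℝ) * (kernel n G E * (f G - f E) ^ 2) := by
    intro G E
    unfold kernel
    split_ifs with h
    · rw [h]; simp
    · field_simp; simp [mul_comm]
  simp only [h1, ← Finset.mul_sum]
  have h2 : ∑ G ∈ realizations d, ∑ E ∈ realizations d, kernel n G E * (f G - f E) ^ 2 =
      ∑ G ∈ realizations d, ∑ E ∈ realizations d, kernel n G E * (f G * (f G - f E)) +
      ∑ G ∈ realizations d, ∑ E ∈ realizations d, kernel n E G * (f E * (f E - f G)) := by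
    simp only [← Finset.sum_add_distrib]
    exact Finset.sum_congr rfl fun G _ => Finset.sum_congr rfl fun E _ => by
      rw [kernel_symm E G]; ring
  rw [h2, Finset.sum_comm (f := fun G E => kernel n E G * (f E * (f E - f G)))]
  have h3 : ∑ G ∈ realizations d, ∑ E ∈ realizations d, kernel n G E * (f G * (f G - f E)) =
      ∑ G ∈ realizations d, f G * (f G - ∑ G' ∈ realizations d, kernel n G G' * f G') := by
    refine Finset.sum_congr rfl fun G hG => ?_
    have : ∀ E, kernel n G E * (f G * (f G - f E)) =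
        f G * f G * kernel n G E - f G * (kernel n G E * f E) := fun E => by ring
    simp only [this, Finset.sum_sub_distrib, ← Finset.mul_sum, hrow G hG]; ring
  rw [h3]; ring

theorem poincare_zero (hn : 4 ≤ n) (f : Finset (Edge n) → ℝ)
    (hf : ∑ G ∈ realizations d, f G = 0) :
    ∑ G ∈ realizations d, f G ^ 2 ≤ 24 * (n : ℝ) ^ 2 * (n.choose 4 : ℝ) * ∑ G ∈ realizations d,
        f G * (f G - ∑ G' ∈ realizations d, kernel n G G' * f G') := by
  have h1 := switch_gap (fun A : Gr d => f (ofAdj A.1)) (by rw [← sum_realizations, hf])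
  have h2 : ∑ i, ∑ j, ∑ k, ∑ l, ∑ A : Gr d, (f (ofAdj A.1) - f (ofAdj (swi i j k l A).1)) ^ 2 =
      ∑ A : Gr d, ∑ i, ∑ j, ∑ k, ∑ l, (f (ofAdj A.1) - f (ofAdj (swi i j k l A).1)) ^ 2 := by
    symm
    rw [Finset.sum_comm]
    refine Finset.sum_congr rfl fun i _ => ?_
    rw [Finset.sum_comm]
    refine Finset.sum_congr rfl fun j _ => ?_
    rw [Finset.sum_comm]
    refine Finset.sum_congr rfl fun k _ => ?_
    rw [Finset.sum_comm]
  rw [h2] at h1
  have h3 := h1.trans (Finset.sum_le_sum fun A _ => sum_swi_le f A)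
  rw [← Finset.mul_sum, ← sum_realizations (fun G => ∑ E ∈ realizations d,
    (proposalCount G E : ℝ) * (f G - f E) ^ 2), ← dirichlet_eq hn] at h3
  have h4 : ip (fun A : Gr d => f (ofAdj A.1)) (fun A : Gr d => f (ofAdj A.1)) =
      ∑ G ∈ realizations d, f G ^ 2 := by
    rw [sum_realizations (fun G => f G ^ 2)]; simp only [ip, sq]
  rw [h4] at h3
  have h5 : 0 ≤ ∑ G ∈ realizations d, f G ^ 2 := Finset.sum_nonneg fun _ _ => sq_nonneg _
  linarith

end Crest.Agent.R299
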